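import Vale.Agent.P233.Gig.Defs
import Vale.Agent.P233.H103.Semi2
import Mathlib.Analysis.SpecialFunctions.Pow.Real

/-! P242, foundation F (heat kernel), interface of package F-KER (helper520).
`pt m p s f x = ∫ p_s(x,z) f(z) dm(z)`; `Ker0 m p`: the continuous heat kernel of the calculus
`sob m`, with the bounds that follow from Hamilton's estimate; no doubling, no region. -/

set_option linter.all false

open MeasureTheory Filter Topology Set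
open scoped ENNReal NNReal

universe u

namespace Vale.Agent.P242.H520

open Vale.Agent.P233

variable {M : Type u} [MetricSpace M] [MeasurableSpace M]

/-- the pointwise heat flow -/
noncomputable def pt (m : Measure M) (p : ℝ → M → M → ℝ) (s : ℝ) (f : M → ℝ) (x : M) : ℝ :=
  ∫ z, p s x z * f z ∂m

/-- The heat kernel of `sob m`. -/
structure Ker0 (m : Measure M) (p : ℝ → M → M → ℝ) : Prop where
  cont : ∀ s, 0 < s → Continuous fun z : M × M => p s z.1 z.2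
  nonneg : ∀ s, 0 < s → ∀ x z, 0 ≤ p s x z
  symm : ∀ s, 0 < s → ∀ x z, p s x z = p s z x
  mem2 : ∀ s, 0 < s → ∀ x, MemLp (p s x) 2 m
  int : ∀ s, 0 < s → ∀ x, Integrable (p s x) m
  mass : ∀ s, 0 < s → ∀ x, ∫ z, p s x z ∂m = 1
  semi : ∀ s t, 0 < s → 0 < t → ∀ x z, p (s + t) x z = ∫ w, p s x w * p t w z ∂m
  /-- representation of the `L²` semigroup -/
  rep : ∀ s, 0 < s → ∀ f : M →ₘ[m] ℝ, MemLp f 2 m → ∀ᵐ x ∂m, (sob m).P s f x = pt m p s f x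
  /-- regularization -/
  contf : ∀ s, 0 < s → ∀ f : M → ℝ, MemLp f 2 m → Continuous (pt m p s f)
  /-- `‖p_s(x,·)‖₂² ≤ C / m(B(x,√s))` -/
  l2 : ∃ C : ℝ, 0 < C ∧ ∀ s, 0 < s → s ≤ 1 → ∀ x,
    ∫ z, p s x z ^ 2 ∂m ≤ C / (m (Metric.ball x (√s))).toReal
  /-- `‖p_s(x,·) - p_s(y,·)‖₂² ≤ C (d/√s)² / m(B(x,√s))` for `d = d(x,y) ≤ √s` -/
  lip2 : ∃ C : ℝ, 0 < C ∧ ∀ s, 0 < s → s ≤ 1 → ∀ x y, dist x y ≤ √s →
    ∫ z, (p s x z - p s y z) ^ 2 ∂m
      ≤ C * (dist x y / √s) ^ 2 / (m (Metric.ball x (√s))).toReal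
  /-- Harnack inequality with loss, for `0 ≤ F ≤ A` a.e. (no integrability) -/
  har : ∀ δ : ℝ, 0 < δ → ∃ C : ℝ, 0 < C ∧ ∀ s, 0 < s → s ≤ 1 → ∀ (A : ℝ) (F : M → ℝ), 0 < A →
    AEStronglyMeasurable F m → (∀ᵐ z ∂m, 0 ≤ F z ∧ F z ≤ A) → ∀ x y,
    (pt m p s F x) ^ (1 + δ) ≤ A ^ δ * pt m p s F y * Real.exp (C * dist x y ^ 2 / s)
  /-- gradient estimate with loss, for `0 ≤ F ≤ A` a.e. (no integrability) -/
  gra : ∀ η : ℝ, 0 < η → η ≤ 1 → ∃ C : ℝ, 0 < C ∧ ∀ s, 0 < s → s ≤ 1 → ∀ (A : ℝ) (F : M → ℝ), 0 < A →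
    AEStronglyMeasurable F m → (∀ᵐ z ∂m, 0 ≤ F z ∧ F z ≤ A) → ∀ x y,
    |pt m p s F x - pt m p s F y|
      ≤ C * A ^ η * (max (pt m p s F x) (pt m p s F y)) ^ (1 - η) * (dist x y / √s)

/-- F-KER -/
def Blk_Ker0 : Prop :=
  ∀ (M : Type u) [MetricSpace M] [CompleteSpace M] [SecondCountableTopology M] [MeasurableSpace M]
    [BorelSpace M] (m : Measure M) (K N : ℝ), Std m K N → ∃ p, Ker0 m p

end Vale.Agent.P242.H520
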