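import Vale.Agent.P233.H391.MaxFin
import Vale.Agent.P233.H748.BlkB0
import Vale.Agent.P233.H715.BlkHeat
import Vale.Agent.P233.H599.Conv
import Vale.Agent.P242.H520.KerDefs

/-! P242, package F-KER: Hamilton's gradient estimate for the heat flow, in Lipschitz form. -/

set_option linter.all false

open MeasureTheory Filter Topology Set
open scoped ENNReal NNReal

universe u

namespace Vale.Agent.P242.H520

open Vale.Agent.P233

section abs

variable {M : Type u} [MeasurableSpace M] {m : Measure M} {C : Calc m}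

/-- the logarithm of the heat flow, with Hamilton's estimate -/
theorem log_ham (hC : IsGamma C) {K : ℝ} (hB : C.BEi K) [SigmaFinite m] (hP : Heat C K C.P)
    {s A : ℝ} (hs : 0 < s) (hA : 0 ≤ A) {G : M →ₘ[m] ℝ} (hG : G ∈ C.TestI)
    (h0 : ∀ᵐ x ∂m, 0 ≤ G x ∧ G x ≤ A) :
    ∃ f ∈ C.TestI, ex f - 1 = C.P s G ∧
      ∀ᵐ x ∂m, C.Γ f f x ≤ (1 + 2 * s * |K|) / s * (Real.log (1 + A) - f x) := by
  have hD := hC.toIsDir
  have hG2 : MemLp G 2 m := hD.memLp _ (hC.tI_W hG)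
  have hex : ∀ t : ℝ, ∃ f : M →ₘ[m] ℝ, 0 ≤ t → f ∈ C.TestI ∧ ex f - 1 = C.P (s * t) G := by
    intro t
    by_cases ht : 0 ≤ t
    · have h1 : C.P (s * t) G ∈ C.TestI := hP.testI _ (by positivity) _ hG
      have h2 : 0 ≤ C.P (s * t) G := hP.nonneg _ (by positivity) _ hG2
        (nonneg_iff_ae.2 (h0.mono fun x hx => hx.1))
      rw [nonneg_iff_ae] at h2
      obtain ⟨f, hf, he⟩ := hC.exists_log hB h1 one_pos (by filter_upwards [h2] with x hx; linarith)
      exact ⟨f, fun _ => ⟨hf, he⟩⟩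
    · exact ⟨0, fun h => absurd h ht⟩
  choose f hf using hex
  set ε : ℝ := 2 * s with hε
  have hε0 : 0 < ε := by positivity
  set φ : ℝ → M →ₘ[m] ℝ := fun _ => 0 with hφ
  set u : ℝ → M →ₘ[m] ℝ := fun t => (-ε) • f t with hu
  have eu : ∀ t, -(ε⁻¹ • u t) = f t := by
    intro t
    simp only [hu, smul_smul]
    rw [show ε⁻¹ * -ε = -1 by field_simp]
    simp
  have ephi : ex (ε⁻¹ • (0 : M →ₘ[m] ℝ)) - 1 = 0 := by
    rw [smul_zero, ex_zero, sub_self]
  have hpair : Pair C C.P ε 0 1 φ u := by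
    refine ⟨hε0, one_pos, fun t _ => hC.testI_zero hB, fun t ht => hC.testI_smul hB _ (hf t ht.1).1,
      fun t _ => ?_, fun t ht => ?_, fun t _ => ?_, fun t ht => ?_⟩
    · show ex (ε⁻¹ • (0 : M →ₘ[m] ℝ)) - 1 ∈ C.TestI
      rw [ephi]; exact hC.testI_zero hB
    · rw [eu, (hf t ht.1).2]; exact hP.testI _ (by have := ht.1; positivity) _ hG
    · show ex (ε⁻¹ • (0 : M →ₘ[m] ℝ)) - 1
        = C.P (ε * (1 - t) / 2) (ex (ε⁻¹ • (0 : M →ₘ[m] ℝ)) - 1)
      rw [ephi]; exact (hD.P_zero _).symm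
    · rw [eu, eu, (hf t ht.1).2, (hf 0 le_rfl).2, mul_zero, hD.P_zero_time hG2]
      congr 1
      rw [hε]; ring
  have hreg := H748.blk_B0 M m C K C.P hC hB hP ε 0 1 φ u hpair
  have hf1 := hf 1 zero_le_one
  rw [mul_one] at hf1
  have hlogA : 0 ≤ Real.log (1 + A) := Real.log_nonneg (by linarith)
  have hf0 := hf 0 le_rfl
  rw [mul_zero, hD.P_zero_time hG2] at hf0
  have hb0 : ∀ᵐ x ∂m, -(ε * Real.log (1 + A)) ≤ u 0 x := by
    have e := hf0.2
    rw [eq_iff_ae] at e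
    filter_upwards [e, h0, ex_ae (f 0), sub_ae (ex (f 0)) 1, one_ae (M := M) (m := m),
      smul_ae (f 0) (-ε)] with x a1 a2 a3 a4 a5 a6
    have h1 : Real.exp (f 0 x) = 1 + G x := by rw [← a3]; rw [a4, a5] at a1; linarith
    have h2 : f 0 x ≤ Real.log (1 + A) := by
      rw [← Real.log_exp (f 0 x), h1]
      exact Real.log_le_log (by linarith [a2.1]) (by linarith [a2.2])
    show -(ε * Real.log (1 + A)) ≤ ((-ε) • f 0 : M →ₘ[m] ℝ) x
    rw [a6]
    nlinarith
  have key := hreg.u_ham hC hB (C₀ := ε * Real.log (1 + A)) (c := 1 + ε * |K|) (by positivity)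
    (by linarith) hb0 1 ⟨zero_le_one, le_rfl⟩
  refine ⟨f 1, hf1.1, hf1.2, ?_⟩
  have hfW := hC.tI_W hf1.1
  have e1 : C.Γ (u 1) (u 1) = (ε * ε) • C.Γ (f 1) (f 1) := by
    show C.Γ ((-ε) • f 1) ((-ε) • f 1) = _
    rw [hD.smul_left _ _ hfW _ (hD.smul_mem _ _ hfW), hD.Γ_smul_right _ hfW hfW, smul_smul]
    congr 1; ring
  rw [e1] at key
  filter_upwards [key, smul_ae (C.Γ (f 1) (f 1)) (ε * ε), smul_ae (f 1) (-ε)] with x a1 a2 a3
  have e2 : u 1 x = -ε * f 1 x := a3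
  rw [a2, e2] at a1
  have h3 : ε * (ε * C.Γ (f 1) (f 1) x)
      ≤ ε * (2 * (1 + ε * |K|) * (Real.log (1 + A) - f 1 x)) := by nlinarith
  have h4 := le_of_mul_le_mul_left h3 hε0
  have h5 : C.Γ (f 1) (f 1) x = (ε * C.Γ (f 1) (f 1) x) / ε := by field_simp
  rw [h5, div_le_iff₀ hε0]
  refine h4.trans (le_of_eq ?_)
  rw [hε]
  field_simp

end abs

/-- a `C¹` function on the line that is `√(L - t + e)` for `t ≤ L` -/
theorem exists_sqrt {L e : ℝ} (hL : 0 ≤ L) (he : 0 < e) :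
    ∃ Ψ : ℝ → ℝ, (∀ t, HasDerivAt Ψ (-(1 / (2 * √(max (L - t) 0 + e)))) t) ∧
      ∀ t ≤ L, Ψ t = √(L - t + e) := by
  set g : ℝ → ℝ := fun t => -(1 / (2 * √(max (L - t) 0 + e))) with hg
  have hpos : ∀ t, 0 < max (L - t) 0 + e := fun t => by
    have := le_max_right (L - t) 0
    linarith
  have hgc : Continuous g := by
    simp only [hg]
    refine Continuous.neg (Continuous.div continuous_const ?_ fun t => ?_)
    · exact continuous_const.mul (((continuous_const.sub continuous_id).max continuous_const).add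
        continuous_const).sqrt
    · have := Real.sqrt_pos.2 (hpos t)
      positivity
  refine ⟨fun t => √(L + e) + ∫ τ in (0 : ℝ)..t, g τ, fun t => ?_, fun t ht => ?_⟩
  · have h1 := intervalIntegral.integral_hasDerivAt_right (hgc.intervalIntegrable 0 t)
      hgc.stronglyMeasurable.stronglyMeasurableAtFilter hgc.continuousAt
    exact h1.const_add _
  · have h2 : ∀ τ ∈ uIcc 0 t, HasDerivAt (fun τ => √(L - τ + e)) (g τ) τ := by
      intro τ hτ
      have hτL : τ ≤ L := hτ.2.trans (max_le hL ht)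
      have h3 : HasDerivAt (fun τ : ℝ => L - τ + e) (-1) τ := by
        simpa using ((hasDerivAt_id τ).const_sub L).add_const e
      have h4 : L - τ + e ≠ 0 := by linarith
      have h5 := h3.sqrt h4
      convert h5 using 1
      simp only [hg]
      rw [max_eq_left (by linarith)]
      ring
    have h6 := intervalIntegral.integral_eq_sub_of_hasDerivAt h2 (hgc.intervalIntegrable 0 t)
    show √(L + e) + ∫ τ in (0 : ℝ)..t, g τ = _
    rw [h6, sub_zero]
    ring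

section metric

variable {M : Type u} [MetricSpace M] [SecondCountableTopology M] [MeasurableSpace M] [BorelSpace M]
  {m : Measure M} {K N : ℝ}

/-- the Lipschitz constant -/
noncomputable def hL (K s : ℝ) : ℝ := √((1 + 2 * s * |K|) / (4 * s))

theorem hL_pos {K s : ℝ} (hs : 0 < s) : 0 < hL K s := by
  unfold hL
  have := abs_nonneg K
  exact Real.sqrt_pos.2 (by positivity)

theorem hL_sq {K s : ℝ} (hs : 0 < s) : hL K s ^ 2 = (1 + 2 * s * |K|) / (4 * s) := by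
  unfold hL
  have := abs_nonneg K
  exact Real.sq_sqrt (by positivity)

theorem ham1 (hS : Std m K N) {s A : ℝ} (hs : 0 < s) (hA : 0 ≤ A) {G : M →ₘ[m] ℝ}
    (hG : G ∈ (sob m).TestI) (h0 : ∀ᵐ x ∂m, 0 ≤ G x ∧ G x ≤ A) {e : ℝ} (he : 0 < e) :
    ∃ U : M → ℝ, LipschitzWith (hL K s).toNNReal U ∧
      ∀ᵐ x ∂m, U x = √(Real.log (1 + A) - Real.log (1 + (sob m).P s G x) + e) := by
  have hC := H599.std_gamma hS
  have hB := hC.bei hS.hN hS.rcd.bochner
  have := H599.std_sf hS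
  have hD := hC.toIsDir
  have hP := H715.heat_exists hC hS.hN hS.rcd.bochner
  obtain ⟨f, hf, hfe, hfΓ⟩ := log_ham hC hB hP hs hA hG h0
  set L := Real.log (1 + A) with hLdef
  have hL0 : 0 ≤ L := Real.log_nonneg (by linarith)
  obtain ⟨Ψ, hΨd, hΨ⟩ := exists_sqrt hL0 he
  have hpos : ∀ t, 0 < max (L - t) 0 + e := fun t => by
    have := le_max_right (L - t) 0
    linarith
  have hc : Continuous Ψ := continuous_iff_continuousAt.2 fun t => (hΨd t).continuousAt
  have hc' : Continuous fun t : ℝ => -(1 / (2 * √(max (L - t) 0 + e))) := by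
    refine Continuous.neg (Continuous.div continuous_const ?_ fun t => ?_)
    · exact continuous_const.mul (((continuous_const.sub continuous_id).max continuous_const).add
        continuous_const).sqrt
    · have := Real.sqrt_pos.2 (hpos t)
      positivity
  obtain ⟨b, hb, hbe, hbΓ⟩ := hD.ti_comp (hC.tI_A hf) hc hc' hΨd
  have hfW := hC.tI_W hf
  have e1 : (sob m).Γ b b = AEEqFun.comp _ hc' f * (AEEqFun.comp _ hc' f * (sob m).Γ f f) := by
    rw [hbΓ b hb.1, hC.symm _ hfW _ hb.1, hbΓ f hfW]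
  -- bounds
  have hG2 : MemLp G 2 m := hD.memLp _ (hC.tI_W hG)
  have hPle : ∀ᵐ x ∂m, (sob m).P s G x ≤ A := hP.le s hs.le G hG2 A hA (h0.mono fun x hx => hx.2)
  have hP0 : 0 ≤ (sob m).P s G := hP.nonneg _ hs.le _ hG2
        (nonneg_iff_ae.2 (h0.mono fun x hx => hx.1))
  rw [nonneg_iff_ae] at hP0
  have hfx : ∀ᵐ x ∂m, f x = Real.log (1 + (sob m).P s G x) ∧ f x ≤ L := by
    have e := hfe
    rw [eq_iff_ae] at e
    filter_upwards [e, ex_ae f, sub_ae (ex f) 1, one_ae (M := M) (m := m), hPle, hP0]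
      with x a1 a2 a3 a4 a5 a6
    have h1 : Real.exp (f x) = 1 + (sob m).P s G x := by rw [← a2]; rw [a3, a4] at a1; linarith
    have h2 : f x = Real.log (1 + (sob m).P s G x) := by rw [← h1, Real.log_exp]
    exact ⟨h2, by rw [h2]; exact Real.log_le_log (by linarith) (by linarith)⟩
  have hΓb : ∀ᵐ x ∂m, (sob m).Γ b b x ≤ (((hL K s).toNNReal : ℝ≥0) : ℝ) ^ 2 := by
    rw [Real.coe_toNNReal _ (hL_pos hs).le, hL_sq hs, e1]
    filter_upwards [hfx, hfΓ, mul_ae (AEEqFun.comp _ hc' f) (AEEqFun.comp _ hc' f * (sob m).Γ f f),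
      mul_ae (AEEqFun.comp _ hc' f) ((sob m).Γ f f), AEEqFun.coeFn_comp _ hc' f] with x a1 a2 a3 a4 a5
    rw [a3, a4, a5, Function.comp_apply, max_eq_left (by linarith [a1.2])]
    have h1 : 0 < L - f x + e := by linarith [a1.2]
    have h2 := Real.mul_self_sqrt h1.le
    have h3 : -(1 / (2 * √(L - f x + e))) * (-(1 / (2 * √(L - f x + e))) * (sob m).Γ f f x)
        = (sob m).Γ f f x / (4 * (L - f x + e)) := by
      have h4 : √(L - f x + e) ≠ 0 := (Real.sqrt_pos.2 h1).ne'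
      field_simp
      rw [Real.sq_sqrt h1.le]
      ring
    rw [h3, div_le_iff₀ (by positivity)]
    refine a2.trans ?_
    have h5 : 0 ≤ (1 + 2 * s * |K|) / s := by have := abs_nonneg K; positivity
    calc (1 + 2 * s * |K|) / s * (L - f x) ≤ (1 + 2 * s * |K|) / s * (L - f x + e) := by
          gcongr; linarith
      _ = (1 + 2 * s * |K|) / (4 * s) * (4 * (L - f x + e)) := by field_simp
  obtain ⟨U, hU, hbU⟩ := H599.lip_rep hS hb.1 (Real.toNNReal_pos.2 (hL_pos (K := K) hs)) hΓb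
  refine ⟨fun x => U x + Ψ 0, ?_, ?_⟩
  · refine LipschitzWith.of_dist_le_mul fun x y => ?_
    rw [dist_add_right]
    exact hU.dist_le_mul x y
  · rw [eq_iff_ae] at hbe
    filter_upwards [hbe, hbU, add_ae (Ψ 0 • (1 : M →ₘ[m] ℝ)) b, smul_ae (1 : M →ₘ[m] ℝ) (Ψ 0),
      one_ae (M := M) (m := m), AEEqFun.coeFn_comp _ hc f, hfx] with x a1 a2 a3 a4 a5 a6 a7
    rw [a6, a3, a4, a5, mul_one, a2, Function.comp_apply] at a1
    rw [← a7.1, ← hΨ _ a7.2, a1]
    ring

theorem ham2 (hS : Std m K N) {s A : ℝ} (hs : 0 < s) (hA : 0 ≤ A) {G : M →ₘ[m] ℝ}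
    (hG : G ∈ (sob m).TestI) (h0 : ∀ᵐ x ∂m, 0 ≤ G x ∧ G x ≤ A) :
    ∃ S : Set M, (∀ᵐ x ∂m, x ∈ S) ∧ ∀ x ∈ S, ∀ y ∈ S,
      |√(Real.log (1 + A) - Real.log (1 + (sob m).P s G x))
        - √(Real.log (1 + A) - Real.log (1 + (sob m).P s G y))| ≤ hL K s * dist x y := by
  have hk : ∀ k : ℕ, (0 : ℝ) < 1 / ((k : ℝ) + 1) := fun k => by positivity
  choose U hU hUe using fun k : ℕ => ham1 hS hs hA hG h0 (hk k)
  refine ⟨{x | ∀ k : ℕ, U k x = √(Real.log (1 + A) - Real.log (1 + (sob m).P s G x)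
    + 1 / ((k : ℝ) + 1))}, ae_all_iff.2 hUe, fun x hx y hy => ?_⟩
  have ht : ∀ a : ℝ, Tendsto (fun k : ℕ => √(a + 1 / ((k : ℝ) + 1))) atTop (𝓝 (√a)) := by
    intro a
    have h1 : Tendsto (fun k : ℕ => a + 1 / ((k : ℝ) + 1)) atTop (𝓝 (a + 0)) :=
      tendsto_const_nhds.add tendsto_one_div_add_atTop_nhds_zero_nat
    rw [add_zero] at h1
    exact (Real.continuous_sqrt.tendsto a).comp h1
  have h2 := ((ht (Real.log (1 + A) - Real.log (1 + (sob m).P s G x))).sub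
    (ht (Real.log (1 + A) - Real.log (1 + (sob m).P s G y)))).abs
  refine le_of_tendsto h2 (Eventually.of_forall fun k => ?_)
  rw [← hx k, ← hy k]
  have h3 := (hU k).dist_le_mul x y
  rwa [Real.dist_eq, Real.coe_toNNReal _ (hL_pos hs).le] at h3

theorem tendsto_ratio {A P : ℝ} (hA : 0 < A) (hP : 0 < P) :
    Tendsto (fun k : ℕ => Real.log (1 + ((k : ℝ) + 1) * A) - Real.log (1 + ((k : ℝ) + 1) * P))
      atTop (𝓝 (Real.log (A / P))) := by
  have h0 : Tendsto (fun k : ℕ => 1 / ((k : ℝ) + 1)) atTop (𝓝 0) :=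
    tendsto_one_div_add_atTop_nhds_zero_nat
  have h1 : Tendsto (fun k : ℕ => (1 / ((k : ℝ) + 1) + A) / (1 / ((k : ℝ) + 1) + P)) atTop
      (𝓝 ((0 + A) / (0 + P))) :=
    (h0.add tendsto_const_nhds).div (h0.add tendsto_const_nhds) (by linarith)
  rw [zero_add, zero_add] at h1
  have h2 := h1.log (div_pos hA hP).ne'
  refine h2.congr fun k => ?_
  have hk : (0 : ℝ) < (k : ℝ) + 1 := by positivity
  have e1 : (1 / ((k : ℝ) + 1) + A) / (1 / ((k : ℝ) + 1) + P)
      = (1 + ((k : ℝ) + 1) * A) / (1 + ((k : ℝ) + 1) * P) := by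
    have : 0 < 1 + ((k : ℝ) + 1) * P := by positivity
    field_simp
  rw [e1, Real.log_div (by positivity) (by positivity)]

theorem tendsto_logtop {A : ℝ} (hA : 0 < A) :
    Tendsto (fun k : ℕ => Real.log (1 + ((k : ℝ) + 1) * A)) atTop atTop := by
  refine Real.tendsto_log_atTop.comp ?_
  refine tendsto_atTop_add_const_left _ _ ?_
  refine Tendsto.atTop_mul_const hA ?_
  exact tendsto_atTop_add_const_right _ _ tendsto_natCast_atTop_atTop

theorem ham3 (hS : Std m K N) {s A : ℝ} (hs : 0 < s) (hA : 0 < A) {F : M →ₘ[m] ℝ}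
    (hF : F ∈ (sob m).TestI) (h0 : ∀ᵐ x ∂m, 0 ≤ F x ∧ F x ≤ A) :
    ∃ S : Set M, (∀ᵐ x ∂m, x ∈ S) ∧ ∀ x ∈ S, (0 ≤ (sob m).P s F x ∧ (sob m).P s F x ≤ A) ∧
      ∀ y ∈ S, 0 < (sob m).P s F x → 0 < (sob m).P s F y ∧
      |√(Real.log (A / (sob m).P s F x)) - √(Real.log (A / (sob m).P s F y))|
        ≤ hL K s * dist x y := by
  have hC := H599.std_gamma hS
  have hB := hC.bei hS.hN hS.rcd.bochner
  have := H599.std_sf hS
  have hD := hC.toIsDir
  have hP := H715.heat_exists hC hS.hN hS.rcd.bochner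
  have hF2 : MemLp F 2 m := hD.memLp _ (hC.tI_W hF)
  have hk : ∀ k : ℕ, (0 : ℝ) < (k : ℝ) + 1 := fun k => by positivity
  have hk0 : ∀ k : ℕ, ∀ᵐ x ∂m, 0 ≤ ((((k : ℝ) + 1) • F : M →ₘ[m] ℝ)) x ∧
      ((((k : ℝ) + 1) • F : M →ₘ[m] ℝ)) x ≤ ((k : ℝ) + 1) * A := by
    intro k
    filter_upwards [h0, smul_ae F ((k : ℝ) + 1)] with x a1 a2
    rw [a2]
    exact ⟨mul_nonneg (hk k).le a1.1, mul_le_mul_of_nonneg_left a1.2 (hk k).le⟩
  choose S hS1 hS2 using fun k : ℕ => ham2 hS hs (mul_pos (hk k) hA).le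
    (hC.testI_smul hB ((k : ℝ) + 1) hF) (hk0 k)
  have hPle : ∀ᵐ x ∂m, (sob m).P s F x ≤ A := hP.le s hs.le F hF2 A hA.le (h0.mono fun x hx => hx.2)
  have hP0 : 0 ≤ (sob m).P s F := hP.nonneg _ hs.le _ hF2
        (nonneg_iff_ae.2 (h0.mono fun x hx => hx.1))
  rw [nonneg_iff_ae] at hP0
  have hPk : ∀ᵐ x ∂m, ∀ k : ℕ, (sob m).P s (((k : ℝ) + 1) • F) x
      = ((k : ℝ) + 1) * (sob m).P s F x := by
    refine ae_all_iff.2 fun k => ?_
    rw [hD.P_smul s _ hF2]
    exact smul_ae _ _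
  refine ⟨{x | (∀ k, x ∈ S k) ∧ (∀ k : ℕ, (sob m).P s (((k : ℝ) + 1) • F) x
      = ((k : ℝ) + 1) * (sob m).P s F x) ∧ 0 ≤ (sob m).P s F x ∧ (sob m).P s F x ≤ A}, ?_, ?_⟩
  · filter_upwards [ae_all_iff.2 hS1, hPk, hP0, hPle] with x a1 a2 a3 a4
    exact ⟨a1, a2, a3, a4⟩
  · rintro x ⟨x1, x2, x3, x4⟩
    refine ⟨⟨x3, x4⟩, ?_⟩
    rintro y ⟨y1, y2, y3, y4⟩ hx
    have key : ∀ k : ℕ, |√(Real.log (1 + ((k : ℝ) + 1) * A)
        - Real.log (1 + ((k : ℝ) + 1) * (sob m).P s F x))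
        - √(Real.log (1 + ((k : ℝ) + 1) * A)
        - Real.log (1 + ((k : ℝ) + 1) * (sob m).P s F y))| ≤ hL K s * dist x y := by
      intro k
      have h1 := hS2 k x (x1 k) y (y1 k)
      rwa [x2 k, y2 k] at h1
    have tx := (Real.continuous_sqrt.tendsto _).comp (tendsto_ratio hA hx)
    have hy : 0 < (sob m).P s F y := by
      rcases y3.lt_or_eq with h | h
      · exact h
      · exfalso
        have t1 : Tendsto (fun k : ℕ => √(Real.log (1 + ((k : ℝ) + 1) * A))) atTop atTop :=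
          Real.tendsto_sqrt_atTop.comp (tendsto_logtop hA)
        have t2 : Tendsto (fun k : ℕ => √(Real.log (1 + ((k : ℝ) + 1) * A)
          - Real.log (1 + ((k : ℝ) + 1) * (sob m).P s F x)) + hL K s * dist x y) atTop
          (𝓝 (√(Real.log (A / (sob m).P s F x)) + hL K s * dist x y)) :=
          tx.add tendsto_const_nhds
        refine not_tendsto_nhds_of_tendsto_atTop (tendsto_atTop_mono (fun k => ?_) t1) _ t2
        have h2 := key k
        rw [← h, mul_zero, add_zero, Real.log_one, sub_zero] at h2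
        have h3 := (abs_le.1 h2).1
        linarith
    refine ⟨hy, ?_⟩
    have ty := (Real.continuous_sqrt.tendsto _).comp (tendsto_ratio hA hy)
    exact le_of_tendsto (tx.sub ty).abs (Eventually.of_forall key)

end metric

/-- **Hamilton's estimate, Lipschitz form** (intermediate block of F-KER) -/
def Blk_Ham : Prop :=
  ∀ (M : Type u) [MetricSpace M] [CompleteSpace M] [SecondCountableTopology M] [MeasurableSpace M]
    [BorelSpace M] (m : Measure M) (K N : ℝ), Std m K N → ∃ C : ℝ, 0 < C ∧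
    ∀ s, 0 < s → s ≤ 1 → ∀ A, 0 < A → ∀ F : M →ₘ[m] ℝ, MemLp F 2 m →
      (∀ᵐ x ∂m, 0 ≤ F x ∧ F x ≤ A) → ∃ u : M → ℝ, Continuous u ∧ (∀ x, 0 ≤ u x ∧ u x ≤ A) ∧
        ((sob m).P s F =ᵐ[m] u) ∧ ∀ x y, 0 < u x → 0 < u y ∧
          |√(Real.log (A / u x)) - √(Real.log (A / u y))| ≤ √(C / s) * dist x y

theorem blk_Ham : Blk_Ham.{u} := by
  intro M _ _ _ _ _ m K N hS
  have hKa := abs_nonneg K
  refine ⟨(1 + |K|) / 2, by positivity, fun s hs hs1 A hA F hF2 h0 => ?_⟩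
  have hC := H599.std_gamma hS
  have hB := hC.bei hS.hN hS.rcd.bochner
  have := H599.std_sf hS
  have hD := hC.toIsDir
  have hP := H715.heat_exists hC hS.hN hS.rcd.bochner
  have hs2 : 0 < s / 2 := by positivity
  have hFtop : MemLp F ∞ m := mem_top_iff.2 ⟨A, by
    filter_upwards [h0] with x hx
    rw [abs_of_nonneg hx.1]; exact hx.2⟩
  set F' := (sob m).P (s / 2) F with hF'
  have hF'T : F' ∈ (sob m).TestI := hP.testI' _ hs2 F hF2 hFtop
  have hF'0 : ∀ᵐ x ∂m, 0 ≤ F' x ∧ F' x ≤ A := by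
    have h1 : 0 ≤ F' := hP.nonneg _ hs2.le _ hF2 (nonneg_iff_ae.2 (h0.mono fun x hx => hx.1))
    rw [nonneg_iff_ae] at h1
    filter_upwards [h1, hP.le (s / 2) hs2.le F hF2 A hA.le (h0.mono fun x hx => hx.2)] with x a b
    exact ⟨a, b⟩
  obtain ⟨S, hS1, hS2⟩ := ham3 hS hs2 hA hF'T hF'0
  have e1 : (sob m).P (s / 2) F' = (sob m).P s F := by
    rw [hF', hD.P_P hs2.le hs2.le hF2, add_halves]
  rw [e1] at hS2
  have hLC : hL K (s / 2) ≤ √((1 + |K|) / 2 / s) := by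
    unfold hL
    refine Real.sqrt_le_sqrt ?_
    rw [div_div, div_le_div_iff₀ (by positivity) (by positivity)]
    have h1 : s * |K| ≤ |K| := by nlinarith
    have h2 := mul_le_mul_of_nonneg_left h1 hs.le
    nlinarith
  by_cases hex : ∃ x ∈ S, 0 < (sob m).P s F x
  · obtain ⟨x₀, hx₀, hx₀p⟩ := hex
    have hpos : ∀ y ∈ S, 0 < (sob m).P s F y := fun y hy => ((hS2 x₀ hx₀).2 y hy hx₀p).1
    set w : M → ℝ := fun x => √(Real.log (A / (sob m).P s F x)) with hw
    have hwL : LipschitzOnWith (√((1 + |K|) / 2 / s)).toNNReal w S := by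
      refine LipschitzOnWith.of_dist_le_mul fun x hx y hy => ?_
      rw [Real.coe_toNNReal _ (Real.sqrt_nonneg _), Real.dist_eq]
      refine ((hS2 x hx).2 y hy (hpos x hx)).2.trans ?_
      gcongr
    obtain ⟨g, hg, hgw⟩ := hwL.extend_real
    have hu0 : ∀ x, 0 < A * Real.exp (-(g x) ^ 2) := fun x => by positivity
    have hlog : ∀ x, Real.log (A / (A * Real.exp (-(g x) ^ 2))) = g x ^ 2 := by
      intro x
      rw [Real.exp_neg, div_mul_eq_div_div, div_self hA.ne', one_div, inv_inv, Real.log_exp]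
    refine ⟨fun x => A * Real.exp (-(g x) ^ 2), ?_, fun x => ⟨(hu0 x).le, ?_⟩, ?_, fun x y _ =>
      ⟨hu0 y, ?_⟩⟩
    · exact continuous_const.mul (Real.continuous_exp.comp (hg.continuous.pow 2).neg)
    · have : Real.exp (-(g x) ^ 2) ≤ 1 := Real.exp_le_one_iff.2 (by nlinarith [sq_nonneg (g x)])
      nlinarith
    · filter_upwards [hS1] with x hx
      rw [← hgw hx]
      have h1 := (hS2 x hx).1
      have h2 := hpos x hx
      have h3 : 0 ≤ Real.log (A / (sob m).P s F x) :=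
        Real.log_nonneg ((one_le_div h2).2 h1.2)
      rw [hw]
      simp only []
      rw [Real.sq_sqrt h3, ← Real.log_inv, Real.exp_log (by positivity), inv_div]
      field_simp
    · simp only [hlog]
      rw [Real.sqrt_sq_eq_abs, Real.sqrt_sq_eq_abs]
      refine (abs_abs_sub_abs_le_abs_sub _ _).trans ?_
      have h1 := hg.dist_le_mul x y
      rwa [Real.coe_toNNReal _ (Real.sqrt_nonneg _), Real.dist_eq] at h1
  · push Not at hex
    refine ⟨fun _ => 0, continuous_const, fun x => ⟨le_rfl, hA.le⟩, ?_, fun x y h =>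
      absurd h (lt_irrefl _)⟩
    filter_upwards [hS1] with x hx
    exact le_antisymm (hex x hx) (hS2 x hx).1.1

end Vale.Agent.P242.H520
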