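import Mathlib

/-! P242, package F-KER: one-variable consequences of `|√log(A/u) - √log(A/v)| ≤ D`. -/

set_option linter.all false

open Set

namespace Vale.Agent.P242.H520

theorem exp_log_form {A u : ℝ} (hu : 0 < u) (huA : u ≤ A) :
    u = A * Real.exp (-(√(Real.log (A / u))) ^ 2) := by
  have hA : 0 < A := hu.trans_le huA
  have h3 : 0 ≤ Real.log (A / u) := Real.log_nonneg ((one_le_div hu).2 huA)
  rw [Real.sq_sqrt h3, ← Real.log_inv, Real.exp_log (by positivity), inv_div]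
  field_simp

/-- Harnack inequality with loss -/
theorem har_alg {A u v D δ : ℝ} (hδ : 0 < δ) (hA : 0 < A) (hD : 0 ≤ D) (hu0 : 0 ≤ u) (huA : u ≤ A)
    (hv0 : 0 ≤ v) (hvA : v ≤ A)
    (h : 0 < u → 0 < v ∧ |√(Real.log (A / u)) - √(Real.log (A / v))| ≤ D) :
    u ^ (1 + δ) ≤ A ^ δ * v * Real.exp ((1 + 1 / δ) * D ^ 2) := by
  rcases hu0.eq_or_lt with h0 | h0
  · rw [← h0, Real.zero_rpow (by linarith)]
    positivity
  obtain ⟨hv, hd⟩ := h h0
  have e1 := exp_log_form h0 huA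
  have e2 := exp_log_form hv hvA
  set a := √(Real.log (A / u)) with ha
  set b := √(Real.log (A / v)) with hb
  have ha0 : 0 ≤ a := Real.sqrt_nonneg _
  have hb0 : 0 ≤ b := Real.sqrt_nonneg _
  have hba : b ≤ a + D := by have := (abs_le.1 hd).1; linarith
  have h1 : b ^ 2 ≤ (1 + δ) * a ^ 2 + (1 + 1 / δ) * D ^ 2 := by
    have h2 : b ^ 2 ≤ (a + D) ^ 2 := pow_le_pow_left₀ hb0 hba 2
    have h3 : 0 ≤ (δ * a - D) ^ 2 / δ := by positivity
    have h4 : (δ * a - D) ^ 2 / δ = δ * a ^ 2 - 2 * a * D + 1 / δ * D ^ 2 := by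
      field_simp
      ring
    nlinarith
  have e3 : u ^ (1 + δ) = A ^ (1 + δ) * Real.exp (-((1 + δ) * a ^ 2)) := by
    conv_lhs => rw [e1]
    rw [Real.mul_rpow hA.le (Real.exp_pos _).le, ← Real.exp_mul]
    congr 2
    ring
  have e4 : A ^ (1 + δ) = A ^ δ * A := by
    rw [add_comm, Real.rpow_add hA, Real.rpow_one]
  rw [e3, e4, mul_assoc, mul_assoc]
  refine mul_le_mul_of_nonneg_left ?_ (Real.rpow_nonneg hA.le _)
  conv_rhs => rw [e2]
  rw [mul_assoc]
  refine mul_le_mul_of_nonneg_left ?_ hA.le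
  rw [← Real.exp_add]
  exact Real.exp_le_exp.2 (by linarith)

theorem exp_sq_lip {a b η : ℝ} (hη : 0 < η) (hη1 : η ≤ 1) (ha : 0 ≤ a) (hab : a ≤ b) :
    |Real.exp (-a ^ 2) - Real.exp (-b ^ 2)|
      ≤ 1 / √η * Real.exp (-((1 - η) * a ^ 2)) * |a - b| := by
  have hd : ∀ t ∈ Icc a b, HasDerivWithinAt (fun t : ℝ => Real.exp (-t ^ 2))
      (Real.exp (-t ^ 2) * (-(2 * t))) (Icc a b) t := by
    intro t _
    have h1 : HasDerivAt (fun t : ℝ => -t ^ 2) (-(2 * t)) t := by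
      have h0 := (hasDerivAt_pow 2 t).neg
      norm_num at h0
      exact h0
    exact h1.exp.hasDerivWithinAt
  have hη' : 0 < √η := Real.sqrt_pos.2 hη
  have hbd : ∀ t ∈ Icc a b, ‖Real.exp (-t ^ 2) * (-(2 * t))‖
      ≤ 1 / √η * Real.exp (-((1 - η) * a ^ 2)) := by
    intro t ht
    have ht0 : 0 ≤ t := ha.trans ht.1
    rw [Real.norm_eq_abs, abs_mul, abs_of_pos (Real.exp_pos _), abs_neg,
      abs_of_nonneg (by positivity)]
    have h1 : Real.exp (-t ^ 2) = Real.exp (-((1 - η) * t ^ 2)) * Real.exp (-(η * t ^ 2)) := by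
      rw [← Real.exp_add]; congr 1; ring
    have h2 : Real.exp (-((1 - η) * t ^ 2)) ≤ Real.exp (-((1 - η) * a ^ 2)) := by
      apply Real.exp_le_exp.2
      have h3 : a ^ 2 ≤ t ^ 2 := pow_le_pow_left₀ ha ht.1 2
      have h4 : 0 ≤ 1 - η := by linarith
      nlinarith
    have h5 : Real.exp (-(η * t ^ 2)) * (2 * t) ≤ 1 / √η := by
      rw [Real.exp_neg, inv_mul_le_iff₀ (Real.exp_pos _)]
      have h6 : η * t ^ 2 + 1 ≤ Real.exp (η * t ^ 2) := Real.add_one_le_exp _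
      have h7 : 2 * t * √η ≤ η * t ^ 2 + 1 := by
        have := Real.sq_sqrt hη.le
        nlinarith [sq_nonneg (√η * t - 1)]
      rw [mul_one_div, le_div_iff₀ hη']
      linarith
    rw [h1, mul_assoc, mul_comm (1 / √η)]
    exact mul_le_mul h2 h5 (by positivity) (by positivity)
  have h8 := (convex_Icc a b).norm_image_sub_le_of_norm_hasDerivWithin_le hd hbd
    (right_mem_Icc.2 hab) (left_mem_Icc.2 hab)
  rwa [Real.norm_eq_abs, Real.norm_eq_abs] at h8

theorem gra_aux {A u v D η : ℝ} (hη : 0 < η) (hη1 : η ≤ 1) (hA : 0 < A) (hD : 0 ≤ D) (hu0 : 0 < u)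
    (huA : u ≤ A) (hv0 : 0 < v) (hvA : v ≤ A)
    (hd : |√(Real.log (A / u)) - √(Real.log (A / v))| ≤ D)
    (hab : √(Real.log (A / u)) ≤ √(Real.log (A / v))) :
    |u - v| ≤ 1 / √η * A ^ η * u ^ (1 - η) * D := by
  have e1 := exp_log_form hu0 huA
  have e2 := exp_log_form hv0 hvA
  set a := √(Real.log (A / u)) with ha
  set b := √(Real.log (A / v)) with hb
  have ha0 : 0 ≤ a := Real.sqrt_nonneg _
  have h1 := exp_sq_lip hη hη1 ha0 hab
  have e3 : |u - v| = A * |Real.exp (-a ^ 2) - Real.exp (-b ^ 2)| := by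
    conv_lhs => rw [e1, e2]
    rw [← mul_sub, abs_mul, abs_of_pos hA]
  have e4 : u ^ (1 - η) = A ^ (1 - η) * Real.exp (-((1 - η) * a ^ 2)) := by
    conv_lhs => rw [e1]
    rw [Real.mul_rpow hA.le (Real.exp_pos _).le, ← Real.exp_mul]
    congr 2
    ring
  have e5 : A ^ η * A ^ (1 - η) = A := by
    rw [← Real.rpow_add hA, add_sub_cancel, Real.rpow_one]
  have hη' : 0 < √η := Real.sqrt_pos.2 hη
  calc |u - v| ≤ A * (1 / √η * Real.exp (-((1 - η) * a ^ 2)) * |a - b|) := by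
        rw [e3]; exact mul_le_mul_of_nonneg_left h1 hA.le
    _ ≤ A * (1 / √η * Real.exp (-((1 - η) * a ^ 2)) * D) := by gcongr
    _ = 1 / √η * A ^ η * u ^ (1 - η) * D := by
        rw [e4]
        calc A * (1 / √η * Real.exp (-((1 - η) * a ^ 2)) * D)
            = (A ^ η * A ^ (1 - η)) * (1 / √η * Real.exp (-((1 - η) * a ^ 2)) * D) := by rw [e5]
          _ = _ := by ring

/-- gradient estimate with loss -/
theorem gra_alg {A u v D η : ℝ} (hη : 0 < η) (hη1 : η ≤ 1) (hA : 0 < A) (hD : 0 ≤ D) (hu0 : 0 ≤ u)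
    (huA : u ≤ A) (hv0 : 0 ≤ v) (hvA : v ≤ A)
    (h : 0 < u → 0 < v ∧ |√(Real.log (A / u)) - √(Real.log (A / v))| ≤ D)
    (h' : 0 < v → 0 < u) :
    |u - v| ≤ 1 / √η * A ^ η * (max u v) ^ (1 - η) * D := by
  rcases hu0.eq_or_lt with h0 | h0
  · have hv : v = 0 := by
      by_contra hne
      exact (h' (lt_of_le_of_ne hv0 (Ne.symm hne))).ne h0
    rw [← h0, hv, sub_zero, abs_zero]
    positivity
  obtain ⟨hv, hd⟩ := h h0
  rcases le_total (√(Real.log (A / u))) (√(Real.log (A / v))) with h1 | h1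
  · refine (gra_aux hη hη1 hA hD h0 huA hv hvA hd h1).trans ?_
    have h2 : u ^ (1 - η) ≤ (max u v) ^ (1 - η) :=
      Real.rpow_le_rpow hu0 (le_max_left _ _) (by linarith)
    gcongr
  · rw [abs_sub_comm] at hd ⊢
    refine (gra_aux hη hη1 hA hD hv hvA h0 huA hd h1).trans ?_
    have h2 : v ^ (1 - η) ≤ (max u v) ^ (1 - η) :=
      Real.rpow_le_rpow hv0 (le_max_right _ _) (by linarith)
    gcongr

end Vale.Agent.P242.H520
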