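import Vale.Agent.P242.H520.Ham
import Vale.Agent.P242.H520.Alg

/-! P242, package F-KER, kernel vectors: a symmetric Markov semigroup on `L²` whose flow of bounded
functions has continuous representatives with `L²` bounds is given by continuous families of
vectors `k_{s,x}`, `⟪k_{s,x}, f⟫ = P_s f (x)`. -/

set_option linter.all false

open MeasureTheory Filter Topology Set
open scoped ENNReal NNReal InnerProductSpace

universe u

namespace Vale.Agent.P242.H520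

open Vale.Agent.P233

section hilbert

variable {H : Type*} [NormedAddCommGroup H] [InnerProductSpace ℝ H]

theorem norm_le_of_dense {D : Submodule ℝ H} (hD : Dense (D : Set H)) {v : H} {c : ℝ} (hc : 0 ≤ c)
    (h : ∀ f ∈ D, ⟪v, f⟫_ℝ ≤ c * ‖f‖) : ‖v‖ ≤ c := by
  have hcl : IsClosed {f : H | ⟪v, f⟫_ℝ ≤ c * ‖f‖} := isClosed_le (by fun_prop) (by fun_prop)
  have h0 : closure (D : Set H) ⊆ {f : H | ⟪v, f⟫_ℝ ≤ c * ‖f‖} :=
    closure_minimal (fun f hf => h f hf) hcl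
  have h1 : ⟪v, v⟫_ℝ ≤ c * ‖v‖ := h0 (hD v)
  rw [real_inner_self_eq_norm_sq] at h1
  rcases (norm_nonneg v).eq_or_lt with h2 | h2
  · rw [← h2]; exact hc
  · nlinarith

theorem eq_of_dense {D : Submodule ℝ H} (hD : Dense (D : Set H)) {v w : H}
    (h : ∀ f ∈ D, ⟪v, f⟫_ℝ = ⟪w, f⟫_ℝ) : v = w := by
  have h1 := norm_le_of_dense hD (v := v - w) le_rfl (fun f hf => by
    rw [inner_sub_left, h f hf, sub_self, zero_mul])
  exact sub_eq_zero.1 (norm_le_zero_iff.1 h1)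

theorem exists_vec [CompleteSpace H] {D : Submodule ℝ H} (ℓ : D →ₗ[ℝ] ℝ) {c : ℝ} (hc : 0 ≤ c)
    (h : ∀ f : D, |ℓ f| ≤ c * ‖f‖) : ∃ k : H, ‖k‖ ≤ c ∧ ∀ f : D, ⟪k, (f : H)⟫_ℝ = ℓ f := by
  set L : D →L[ℝ] ℝ := ℓ.mkContinuous c (fun f => by rw [Real.norm_eq_abs]; exact h f) with hL
  obtain ⟨g, hg, hgn⟩ := exists_extension_norm_eq D L
  refine ⟨(InnerProductSpace.toDual ℝ H).symm g, ?_, fun f => ?_⟩
  · rw [LinearIsometryEquiv.norm_map, hgn]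
    exact ℓ.mkContinuous_norm_le hc _
  · rw [InnerProductSpace.toDual_symm_apply, hg f]
    rfl

end hilbert

section dense

variable {M : Type u} [MeasurableSpace M] (m : Measure M)

/-- bounded elements of `L²` -/
def DB : Submodule ℝ (Lp ℝ 2 m) where
  carrier := {f | MemLp f ∞ m}
  add_mem' := fun {a b} ha hb => (MemLp.add ha hb).ae_eq (Lp.coeFn_add a b).symm
  zero_mem' := (MemLp.zero' (p := ∞) (μ := m) (ε := ℝ)).ae_eq (Lp.coeFn_zero ℝ 2 m).symm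
  smul_mem' := fun c f hf => (MemLp.const_smul hf c).ae_eq (Lp.coeFn_smul c f).symm

theorem dense_DB : Dense (DB m : Set (Lp ℝ 2 m)) := by
  have h := Lp.simpleFunc.denseRange (E := ℝ) (μ := m) (p := 2) (by norm_num)
  refine h.mono ?_
  rintro _ ⟨φ, rfl⟩
  exact (SimpleFunc.memLp_top (Lp.simpleFunc.toSimpleFunc φ) m).ae_eq
    (Lp.simpleFunc.toSimpleFunc_eq_toFun φ)

end dense

variable {M : Type u} [MetricSpace M] [SecondCountableTopology M] [MeasurableSpace M] [BorelSpace M]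
  {m : Measure M} {T : ℝ → Lp ℝ 2 m →L[ℝ] Lp ℝ 2 m}

/-- a symmetric, conservative Markov semigroup on `L²` -/
structure SG (m : Measure M) (T : ℝ → Lp ℝ 2 m →L[ℝ] Lp ℝ 2 m) : Prop where
  full : m.IsOpenPosMeasure
  fin : ∀ (x : M) (r : ℝ), m (Metric.ball x r) < ∞
  add : ∀ s t, 0 ≤ s → 0 ≤ t → ∀ f, T (s + t) f = T s (T t f)
  symm : ∀ t (f g : Lp ℝ 2 m), ⟪T t f, g⟫_ℝ = ⟪f, T t g⟫_ℝ
  contr : ∀ t f, ‖T t f‖ ≤ ‖f‖
  pos : ∀ t, 0 ≤ t → ∀ f : Lp ℝ 2 m, (∀ᵐ x ∂m, 0 ≤ f x) → ∀ᵐ x ∂m, 0 ≤ T t f x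
  le : ∀ t, 0 ≤ t → ∀ (f : Lp ℝ 2 m) (c : ℝ), 0 ≤ c → (∀ᵐ x ∂m, f x ≤ c) → ∀ᵐ x ∂m, T t f x ≤ c
  mass : ∀ t, 0 ≤ t → ∀ f : Lp ℝ 2 m, Integrable f m →
    Integrable (T t f) m ∧ ∫ x, T t f x ∂m = ∫ x, f x ∂m

/-- the effective radius -/
noncomputable def sg (s : ℝ) : ℝ := √(min s 1)

theorem sg_pos {s : ℝ} (hs : 0 < s) : 0 < sg s := Real.sqrt_pos.2 (lt_min hs one_pos)

/-- volume of balls -/
noncomputable def vo (m : Measure M) (x : M) (r : ℝ) : ℝ := (m (Metric.ball x r)).toReal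

theorem SG.vo_pos (h : SG m T) (x : M) {r : ℝ} (hr : 0 < r) : 0 < vo m x r := by
  have := h.full
  exact ENNReal.toReal_pos (Metric.measure_ball_pos m x hr).ne' (h.fin x r).ne

/-- Hamilton's estimate for `T` -/
def HamT (m : Measure M) (T : ℝ → Lp ℝ 2 m →L[ℝ] Lp ℝ 2 m) (C : ℝ) : Prop :=
  ∀ s, 0 < s → s ≤ 1 → ∀ A, 0 < A → ∀ f : Lp ℝ 2 m, (∀ᵐ x ∂m, 0 ≤ f x ∧ f x ≤ A) →
    ∃ u : M → ℝ, Continuous u ∧ (∀ x, 0 ≤ u x ∧ u x ≤ A) ∧ (T s f =ᵐ[m] u) ∧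
      ∀ x y, 0 < u x → 0 < u y ∧
        |√(Real.log (A / u x)) - √(Real.log (A / u y))| ≤ √(C / s) * dist x y

/-- `L²` bounds for `T` -/
def RegT (m : Measure M) (T : ℝ → Lp ℝ 2 m →L[ℝ] Lp ℝ 2 m) (C : ℝ) : Prop :=
  ∀ s, 0 < s → s ≤ 1 → ∀ f : Lp ℝ 2 m, MemLp f ∞ m →
    ∃ u : M → ℝ, Continuous u ∧ (T s f =ᵐ[m] u) ∧
      (∀ x, u x ^ 2 ≤ C / vo m x (√s) * ‖f‖ ^ 2) ∧
      ∀ x y, dist x y ≤ √s → (u x - u y) ^ 2 ≤ C * (dist x y / √s) ^ 2 / vo m x (√s) * ‖f‖ ^ 2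

theorem SG.bdd (h : SG m T) {t : ℝ} (ht : 0 ≤ t) {f : Lp ℝ 2 m} {K : ℝ} (hK : 0 ≤ K)
    (hf : ∀ᵐ x ∂m, |f x| ≤ K) : ∀ᵐ x ∂m, |T t f x| ≤ K := by
  have h1 := h.le t ht f K hK (hf.mono fun x hx => (abs_le.1 hx).2)
  have h2 := h.le t ht (-f) K hK (by
    filter_upwards [hf, Lp.coeFn_neg f] with x a b
    rw [b, Pi.neg_apply]
    linarith [(abs_le.1 a).1])
  rw [map_neg] at h2
  filter_upwards [h1, h2, Lp.coeFn_neg (T t f)] with x a b c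
  rw [c, Pi.neg_apply] at b
  exact abs_le.2 ⟨by linarith, a⟩

theorem SG.memTop (h : SG m T) {t : ℝ} (ht : 0 ≤ t) {f : Lp ℝ 2 m} (hf : MemLp f ∞ m) :
    MemLp (T t f) ∞ m := by
  obtain ⟨K, hK⟩ := (mem_top_iff (f := f.1)).1 hf
  refine (mem_top_iff (f := (T t f).1)).2 ⟨|K|, ?_⟩
  exact h.bdd ht (abs_nonneg K) (by filter_upwards [hK] with x hx using hx.trans (le_abs_self K))

theorem SG.reg_all (h : SG m T) {C : ℝ} (hC : 0 ≤ C) (hR : RegT m T C) {s : ℝ} (hs : 0 < s)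
    {f : Lp ℝ 2 m} (hf : MemLp f ∞ m) :
    ∃ u : M → ℝ, Continuous u ∧ (T s f =ᵐ[m] u) ∧
      (∀ x, u x ^ 2 ≤ C / vo m x (sg s) * ‖f‖ ^ 2) ∧
      ∀ x y, dist x y ≤ sg s →
        (u x - u y) ^ 2 ≤ C * (dist x y / sg s) ^ 2 / vo m x (sg s) * ‖f‖ ^ 2 := by
  have hm : 0 < min s 1 := lt_min hs one_pos
  have h0 : 0 ≤ s - min s 1 := sub_nonneg.2 (min_le_left _ _)
  obtain ⟨u, u1, u2, u3, u4⟩ := hR (min s 1) hm (min_le_right _ _) (T (s - min s 1) f)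
    (h.memTop h0 hf)
  rw [← h.add _ _ hm.le h0, add_sub_cancel] at u2
  have hn : ‖T (s - min s 1) f‖ ^ 2 ≤ ‖f‖ ^ 2 := pow_le_pow_left₀ (norm_nonneg _) (h.contr _ _) 2
  refine ⟨u, u1, u2, fun x => (u3 x).trans ?_, fun x y hxy => (u4 x y hxy).trans ?_⟩
  · have := h.vo_pos x (sg_pos hs)
    have h3 : 0 ≤ C / vo m x (√(min s 1)) := div_nonneg hC this.le
    exact mul_le_mul_of_nonneg_left hn h3
  · have := h.vo_pos x (sg_pos hs)
    have h3 : 0 ≤ C * (dist x y / √(min s 1)) ^ 2 / vo m x (√(min s 1)) :=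
      div_nonneg (mul_nonneg hC (sq_nonneg _)) this.le
    exact mul_le_mul_of_nonneg_left hn h3

/-- the kernel vectors -/
theorem SG.exists_k (h : SG m T) {C : ℝ} (hC : 0 ≤ C) (hR : RegT m T C) {s : ℝ} (hs : 0 < s) :
    ∃ k : M → Lp ℝ 2 m, (∀ x, ‖k x‖ ^ 2 ≤ C / vo m x (sg s)) ∧
      (∀ x y, dist x y ≤ sg s → ‖k x - k y‖ ^ 2 ≤ C * (dist x y / sg s) ^ 2 / vo m x (sg s)) ∧
      ∀ f ∈ DB m, T s f =ᵐ[m] fun x => ⟪k x, f⟫_ℝ := by
  have := h.full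
  choose u u1 u2 u3 u4 using fun f : DB m => h.reg_all hC hR hs f.2
  have hadd : ∀ f g : DB m, u (f + g) = u f + u g := by
    intro f g
    refine (Continuous.ae_eq_iff_eq (μ := m) (u1 _) ((u1 f).add (u1 g))).1 ?_
    have e1 : T s ((f + g : DB m) : Lp ℝ 2 m) = T s f + T s g := by
      rw [Submodule.coe_add, map_add]
    have e2 := u2 (f + g)
    rw [e1] at e2
    filter_upwards [e2, u2 f, u2 g, Lp.coeFn_add (T s f) (T s g)] with x a b c d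
    rw [← a, d, Pi.add_apply, Pi.add_apply, b, c]
  have hsmul : ∀ (c : ℝ) (f : DB m), u (c • f) = c • u f := by
    intro c f
    refine (Continuous.ae_eq_iff_eq (μ := m) (u1 _) ((u1 f).const_smul c)).1 ?_
    have e1 : T s ((c • f : DB m) : Lp ℝ 2 m) = c • T s f := by
      rw [Submodule.coe_smul, map_smul]
    have e2 := u2 (c • f)
    rw [e1] at e2
    filter_upwards [e2, u2 f, Lp.coeFn_smul c (T s f)] with x a b d
    rw [← a, d, Pi.smul_apply, Pi.smul_apply, b]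
  have hV : ∀ x, 0 < vo m x (sg s) := fun x => h.vo_pos x (sg_pos hs)
  have hvec : ∀ x : M, ∃ k : Lp ℝ 2 m, ‖k‖ ≤ √(C / vo m x (sg s)) ∧
      ∀ f : DB m, ⟪k, (f : Lp ℝ 2 m)⟫_ℝ = u f x := by
    intro x
    refine exists_vec (D := DB m) { toFun := fun f => u f x, map_add' := fun f g => ?_, map_smul' := fun c f => ?_ }
      (Real.sqrt_nonneg _) (fun f => ?_)
    · rw [hadd, Pi.add_apply]
    · rw [hsmul, Pi.smul_apply, RingHom.id_apply]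
    · show |u f x| ≤ _
      have h1 := Real.abs_le_sqrt (u3 f x)
      rw [Real.sqrt_mul (div_nonneg hC (hV x).le), Real.sqrt_sq (norm_nonneg _)] at h1
      exact h1
  choose k k1 k2 using hvec
  refine ⟨k, fun x => ?_, fun x y hxy => ?_, fun f hf => ?_⟩
  · calc ‖k x‖ ^ 2 ≤ √(C / vo m x (sg s)) ^ 2 := pow_le_pow_left₀ (norm_nonneg _) (k1 x) 2
      _ = _ := Real.sq_sqrt (div_nonneg hC (hV x).le)
  · have h0 : 0 ≤ C * (dist x y / sg s) ^ 2 / vo m x (sg s) :=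
      div_nonneg (mul_nonneg hC (sq_nonneg _)) (hV x).le
    have h1 : ‖k x - k y‖ ≤ √(C * (dist x y / sg s) ^ 2 / vo m x (sg s)) := by
      refine norm_le_of_dense (dense_DB m) (Real.sqrt_nonneg _) fun f hf => ?_
      rw [inner_sub_left]
      have e1 := k2 x ⟨f, hf⟩
      have e2 := k2 y ⟨f, hf⟩
      simp only at e1 e2
      rw [e1, e2]
      have h2 := Real.abs_le_sqrt (u4 ⟨f, hf⟩ x y hxy)
      rw [Real.sqrt_mul h0, Real.sqrt_sq (norm_nonneg _)] at h2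
      exact (le_abs_self _).trans h2
    calc ‖k x - k y‖ ^ 2 ≤ √(C * (dist x y / sg s) ^ 2 / vo m x (sg s)) ^ 2 :=
          pow_le_pow_left₀ (norm_nonneg _) h1 2
      _ = _ := Real.sq_sqrt h0
  · filter_upwards [u2 ⟨f, hf⟩] with x hx
    rw [k2 x ⟨f, hf⟩]
    exact hx

/-- a family of kernel vectors at all times -/
structure KV (m : Measure M) (T : ℝ → Lp ℝ 2 m →L[ℝ] Lp ℝ 2 m) (C : ℝ) (k : ℝ → M → Lp ℝ 2 m) :
    Prop where
  h : SG m T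
  hC : 0 ≤ C
  l2 : ∀ s, 0 < s → ∀ x, ‖k s x‖ ^ 2 ≤ C / vo m x (sg s)
  lip : ∀ s, 0 < s → ∀ x y, dist x y ≤ sg s →
    ‖k s x - k s y‖ ^ 2 ≤ C * (dist x y / sg s) ^ 2 / vo m x (sg s)
  repD : ∀ s, 0 < s → ∀ f ∈ DB m, T s f =ᵐ[m] fun x => ⟪k s x, f⟫_ℝ

end Vale.Agent.P242.H520
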