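import Vale.Agent.P242.H520.Ker1

/-! P242, package F-KER: the kernel `p_s(x,z) = ⟪k_{s/2,x}, k_{s/2,z}⟫`. -/

set_option linter.all false

open MeasureTheory Filter Topology Set
open scoped ENNReal NNReal InnerProductSpace

universe u

namespace Vale.Agent.P242.H520

open Vale.Agent.P233

variable {M : Type u} [MetricSpace M] [SecondCountableTopology M] [MeasurableSpace M] [BorelSpace M]
  {m : Measure M} {T : ℝ → Lp ℝ 2 m →L[ℝ] Lp ℝ 2 m} {C : ℝ} {k : ℝ → M → Lp ℝ 2 m}

/-- two continuous functions with `f ≤ g` a.e. -/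
theorem le_of_ae_le [m.IsOpenPosMeasure] {f g : M → ℝ} (hf : Continuous f) (hg : Continuous g)
    (h : ∀ᵐ x ∂m, f x ≤ g x) : ∀ x, f x ≤ g x := by
  have h1 : {x | g x < f x} = ∅ := by
    refine IsOpen.eq_empty_of_measure_zero (μ := m) (isOpen_lt hg hf) ?_
    rw [ae_iff] at h
    simpa [not_le] using h
  intro x
  by_contra hx
  have : x ∈ {x | g x < f x} := not_le.1 hx
  rw [h1] at this
  exact this

/-- the kernel -/
noncomputable def pk (k : ℝ → M → Lp ℝ 2 m) (s : ℝ) (x z : M) : ℝ := ⟪k (s / 2) x, k (s / 2) z⟫_ℝ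

theorem inner_int (f g : Lp ℝ 2 m) : ⟪f, g⟫_ℝ = ∫ z, f z * g z ∂m := by
  rw [L2.inner_def]
  refine integral_congr_ae (Eventually.of_forall fun z => ?_)
  show ⟪f z, g z⟫_ℝ = f z * g z
  rw [real_inner_eq_re_inner]
  simp [mul_comm]

namespace KV

variable (hk : KV m T C k) {s t : ℝ}
include hk

theorem cont (hs : 0 < s) : Continuous (k s) := by
  refine continuous_iff_continuousAt.2 fun x => ?_
  have hV := hk.h.vo_pos x (sg_pos hs)
  have hσ := sg_pos hs
  rw [ContinuousAt, tendsto_iff_norm_sub_tendsto_zero]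
  have h1 : Tendsto (fun y : M => √(C / vo m x (sg s)) * (dist x y / sg s)) (𝓝 x) (𝓝 0) := by
    have h2 : Continuous fun y : M => √(C / vo m x (sg s)) * (dist x y / sg s) := by fun_prop
    have h3 := h2.tendsto x
    simpa using h3
  refine tendsto_of_tendsto_of_tendsto_of_le_of_le' tendsto_const_nhds h1
    (Eventually.of_forall fun y => norm_nonneg _) ?_
  filter_upwards [Metric.ball_mem_nhds x hσ] with y hy
  rw [Metric.mem_ball, dist_comm] at hy
  have h4 := hk.lip s hs x y hy.le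
  rw [norm_sub_rev]
  have h5 : 0 ≤ √(C / vo m x (sg s)) * (dist x y / sg s) := by positivity
  refine (sq_le_sq₀ (norm_nonneg _) h5).1 ?_
  refine h4.trans (le_of_eq ?_)
  rw [mul_pow, Real.sq_sqrt (div_nonneg hk.hC hV.le)]
  ring

theorem rep (hs : 0 < s) (f : Lp ℝ 2 m) : T s f =ᵐ[m] fun x => ⟪k s x, f⟫_ℝ := by
  obtain ⟨F, hF, hFt⟩ := mem_closure_iff_seq_limit.1 (dense_DB m f)
  have h1 : Tendsto (fun n => T s (F n)) atTop (𝓝 (T s f)) := ((T s).continuous.tendsto f).comp hFt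
  obtain ⟨φ, hφ, hφt⟩ := (tendstoInMeasure_of_tendsto_Lp h1).exists_seq_tendsto_ae
  have h2 : ∀ᵐ x ∂m, ∀ n, T s (F n) x = ⟪k s x, F n⟫_ℝ :=
    ae_all_iff.2 fun n => hk.repD s hs (F n) (hF n)
  filter_upwards [hφt, h2] with x a b
  have h3 : Tendsto (fun n => ⟪k s x, F (φ n)⟫_ℝ) atTop (𝓝 ⟪k s x, f⟫_ℝ) :=
    tendsto_const_nhds.inner (hFt.comp hφ.tendsto_atTop)
  refine tendsto_nhds_unique a ?_
  simpa only [b] using h3

theorem cont_inner (hs : 0 < s) (f : Lp ℝ 2 m) : Continuous fun x => ⟪k s x, f⟫_ℝ :=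
  (hk.cont hs).inner continuous_const

theorem vec_eq {a b : ℝ} (ha : 0 < a) (hb : 0 ≤ b) (x : M) : k (a + b) x = T b (k a x) := by
  have := hk.h.full
  refine ext_inner_right ℝ fun f => ?_
  rw [hk.h.symm]
  have h1 : (fun x => ⟪k (a + b) x, f⟫_ℝ) = fun x => ⟪k a x, T b f⟫_ℝ := by
    refine (Continuous.ae_eq_iff_eq (μ := m) (hk.cont_inner (by linarith) f)
      (hk.cont_inner ha (T b f))).1 ?_
    have h2 := hk.rep (s := a + b) (by linarith) f
    rw [hk.h.add a b ha.le hb] at h2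
    exact h2.symm.trans (hk.rep ha (T b f))
  exact congrFun h1 x

theorem pk_ae (hs : 0 < s) (x : M) : (k s x : M → ℝ) =ᵐ[m] pk k s x := by
  have h1 := hk.vec_eq (half_pos hs) (half_pos hs).le x
  rw [add_halves] at h1
  have h2 := hk.rep (half_pos hs) (k (s / 2) x)
  rw [← h1] at h2
  refine h2.trans (Eventually.of_forall fun z => ?_)
  exact real_inner_comm _ _

theorem pk_symm (s : ℝ) (x z : M) : pk k s x z = pk k s z x := real_inner_comm _ _

theorem pk_cont (hs : 0 < s) : Continuous fun z : M × M => pk k s z.1 z.2 :=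
  ((hk.cont (half_pos hs)).comp continuous_fst).inner ((hk.cont (half_pos hs)).comp continuous_snd)

theorem pk_cont' (hs : 0 < s) (x : M) : Continuous (pk k s x) :=
  continuous_const.inner (hk.cont (half_pos hs))

theorem mem2 (hs : 0 < s) (x : M) : MemLp (pk k s x) 2 m :=
  (Lp.memLp (k s x)).ae_eq (hk.pk_ae hs x)

theorem pt_eq (hs : 0 < s) {f : M → ℝ} (hf : MemLp f 2 m) (x : M) :
    pt m (pk k) s f x = ⟪k s x, hf.toLp f⟫_ℝ := by
  rw [inner_int]
  refine integral_congr_ae ?_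
  filter_upwards [hk.pk_ae hs x, hf.coeFn_toLp] with z a b
  rw [a, b]

theorem pt_cont (hs : 0 < s) {f : M → ℝ} (hf : MemLp f 2 m) : Continuous (pt m (pk k) s f) := by
  have h1 : pt m (pk k) s f = fun x => ⟪k s x, hf.toLp f⟫_ℝ := funext (hk.pt_eq hs hf)
  rw [h1]
  exact hk.cont_inner hs _

theorem pt_ae (hs : 0 < s) {f : M → ℝ} (hf : MemLp f 2 m) :
    T s (hf.toLp f) =ᵐ[m] pt m (pk k) s f := by
  have h1 : pt m (pk k) s f = fun x => ⟪k s x, hf.toLp f⟫_ℝ := funext (hk.pt_eq hs hf)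
  rw [h1]
  exact hk.rep hs _

theorem norm_sq (hs : 0 < s) (x : M) : ∫ z, pk k s x z ^ 2 ∂m = ‖k s x‖ ^ 2 := by
  rw [← real_inner_self_eq_norm_sq, inner_int]
  refine integral_congr_ae ?_
  filter_upwards [hk.pk_ae hs x] with z a
  rw [a, sq]

theorem norm_sub_sq (hs : 0 < s) (x y : M) :
    ∫ z, (pk k s x z - pk k s y z) ^ 2 ∂m = ‖k s x - k s y‖ ^ 2 := by
  rw [← real_inner_self_eq_norm_sq, inner_int]
  refine integral_congr_ae ?_
  filter_upwards [hk.pk_ae hs x, hk.pk_ae hs y, Lp.coeFn_sub (k s x) (k s y)] with z a b c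
  rw [c, Pi.sub_apply, a, b, sq]

theorem inner_aux (hs : 0 < s) (ht : 0 < t) (hst : s ≤ t) (x z : M) :
    ⟪k s x, k t z⟫_ℝ = pk k (s + t) x z := by
  have hb : 0 ≤ (t - s) / 2 := by linarith
  have e1 : k t z = T ((t - s) / 2) (k ((s + t) / 2) z) := by
    rw [← hk.vec_eq (by linarith) hb z]; congr 1; ring
  have e2 : T ((t - s) / 2) (k s x) = k ((s + t) / 2) x := by
    rw [← hk.vec_eq hs hb x]; congr 1; ring
  rw [e1, ← hk.h.symm, e2]
  rfl

theorem inner_eq (hs : 0 < s) (ht : 0 < t) (x z : M) : ⟪k s x, k t z⟫_ℝ = pk k (s + t) x z := by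
  rcases le_total s t with h | h
  · exact hk.inner_aux hs ht h x z
  · rw [real_inner_comm, hk.inner_aux ht hs h z x, hk.pk_symm, add_comm]

theorem semi (hs : 0 < s) (ht : 0 < t) (x z : M) :
    pk k (s + t) x z = ∫ w, pk k s x w * pk k t w z ∂m := by
  rw [← hk.inner_eq hs ht, inner_int]
  refine integral_congr_ae ?_
  filter_upwards [hk.pk_ae hs x, hk.pk_ae ht z] with w a b
  rw [a, b, hk.pk_symm t z w]

theorem sf : SigmaFinite m := sigmaFinite_of_ball hk.h.fin

theorem memInd {E : Set M} (hE : MeasurableSet E) (hE' : m E < ∞) :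
    MemLp (E.indicator fun _ => (1 : ℝ)) 2 m :=
  memLp_indicator_const 2 hE 1 (Or.inr hE'.ne)

theorem setInt {s : ℝ} {E : Set M} (hE : MeasurableSet E) (x : M) :
    ∫ z in E, pk k s x z ∂m = pt m (pk k) s (E.indicator fun _ => (1 : ℝ)) x := by
  rw [← integral_indicator hE]
  unfold pt
  refine integral_congr_ae (Eventually.of_forall fun z => ?_)
  by_cases hz : z ∈ E <;> simp [hz]

theorem nonneg (hs : 0 < s) (x z : M) : 0 ≤ pk k s x z := by
  have := hk.h.full
  have := hk.sf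
  have hint : ∀ E, MeasurableSet E → m E < ∞ → IntegrableOn (pk k s x) E m := by
    intro E hE hE'
    have h1 : IsFiniteMeasure (m.restrict E) := ⟨by rwa [Measure.restrict_apply_univ]⟩
    exact ((hk.mem2 hs x).restrict E).integrable (by norm_num)
  have h0 : 0 ≤ᵐ[m] pk k s x := by
    refine ae_nonneg_of_forall_setIntegral_nonneg_of_sigmaFinite hint fun E hE hE' => ?_
    have hf := hk.memInd hE hE'
    rw [hk.setInt hE x]
    refine le_of_ae_le (m := m) continuous_const (hk.pt_cont hs hf) ?_ x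
    have h2 := hk.h.pos s hs.le (hf.toLp _) (by
      filter_upwards [hf.coeFn_toLp] with w hw
      rw [hw]
      exact Set.indicator_nonneg (fun _ _ => zero_le_one) w)
    filter_upwards [h2, hk.pt_ae hs hf] with w a b
    rwa [← b]
  exact le_of_ae_le (m := m) continuous_const (hk.pk_cont' hs x) h0 z

/-- `0 ≤ P_s 1_E ≤ 1` -/
theorem setInt_le (hs : 0 < s) {E : Set M} (hE : MeasurableSet E) (hE' : m E < ∞) (x : M) :
    ∫ z in E, pk k s x z ∂m ≤ 1 := by
  have := hk.h.full
  have hf := hk.memInd hE hE'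
  rw [hk.setInt hE x]
  refine le_of_ae_le (m := m) (hk.pt_cont hs hf) continuous_const ?_ x
  have h2 := hk.h.le s hs.le (hf.toLp _) 1 zero_le_one (by
    filter_upwards [hf.coeFn_toLp] with w hw
    rw [hw]
    exact Set.indicator_le_self' (fun _ _ => zero_le_one) w)
  filter_upwards [h2, hk.pt_ae hs hf] with w a b
  rwa [← b]

theorem int (hs : 0 < s) (x : M) : Integrable (pk k s x) m := by
  have hc : AECover m atTop fun j : ℕ => Metric.ball x (j : ℝ) :=
    aecover_ball tendsto_natCast_atTop_atTop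
  refine hc.integrable_of_integral_bounded_of_nonneg_ae 1 (fun j => ?_)
    (Eventually.of_forall fun z => hk.nonneg hs x z)
    (Eventually.of_forall fun j => hk.setInt_le hs measurableSet_ball (hk.h.fin x _) x)
  have h1 : IsFiniteMeasure (m.restrict (Metric.ball x (j : ℝ))) :=
    ⟨by rw [Measure.restrict_apply_univ]; exact hk.h.fin x _⟩
  exact ((hk.mem2 hs x).restrict _).integrable (by norm_num)

end KV

end Vale.Agent.P242.H520
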