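import Vale.Agent.P242.H520.Ker2

/-! P242, package F-KER: mass one, Harnack and gradient estimates for bounded functions, and the
reduction of the block `Blk_Ker0` to the block `Blk_Reg2`. -/

set_option linter.all false

open MeasureTheory Filter Topology Set
open scoped ENNReal NNReal InnerProductSpace

universe u

namespace Vale.Agent.P242.H520

open Vale.Agent.P233

section

variable {M : Type u} [MetricSpace M] [SecondCountableTopology M] [MeasurableSpace M] [BorelSpace M]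
  {m : Measure M} {T : ℝ → Lp ℝ 2 m →L[ℝ] Lp ℝ 2 m} {C CH : ℝ} {k : ℝ → M → Lp ℝ 2 m}

namespace KV

variable (hk : KV m T C k) (hH : HamT m T CH) {s : ℝ}
include hk hH

theorem ham_in (hs : 0 < s) (hs1 : s ≤ 1) {A : ℝ} (hA : 0 < A) {f : Lp ℝ 2 m}
    (hf : ∀ᵐ x ∂m, 0 ≤ f x ∧ f x ≤ A) : (∀ x, 0 ≤ ⟪k s x, f⟫_ℝ ∧ ⟪k s x, f⟫_ℝ ≤ A) ∧
      ∀ x y, 0 < ⟪k s x, f⟫_ℝ → 0 < ⟪k s y, f⟫_ℝ ∧
        |√(Real.log (A / ⟪k s x, f⟫_ℝ)) - √(Real.log (A / ⟪k s y, f⟫_ℝ))|
          ≤ √(CH / s) * dist x y := by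
  have := hk.h.full
  obtain ⟨u, u1, u2, u3, u4⟩ := hH s hs hs1 A hA f hf
  have e1 : (fun x => ⟪k s x, f⟫_ℝ) = u := by
    refine (Continuous.ae_eq_iff_eq (μ := m) (hk.cont_inner hs f) u1).1 ?_
    exact (hk.rep hs f).symm.trans u3
  have e2 : ∀ x, ⟪k s x, f⟫_ℝ = u x := fun x => congrFun e1 x
  simp only [e2]
  exact ⟨u2, u4⟩

theorem lip_in (hs : 0 < s) {f : Lp ℝ 2 m} (hf : ∀ᵐ x ∂m, 0 ≤ f x ∧ f x ≤ 1) (x y : M) :
    |⟪k s x, f⟫_ℝ - ⟪k s y, f⟫_ℝ| ≤ √(CH / min s 1) * dist x y := by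
  have hm : 0 < min s 1 := lt_min hs one_pos
  have h0 : 0 ≤ s - min s 1 := sub_nonneg.2 (min_le_left _ _)
  have e1 : ∀ x, ⟪k s x, f⟫_ℝ = ⟪k (min s 1) x, T (s - min s 1) f⟫_ℝ := by
    intro x
    rw [← hk.h.symm, ← hk.vec_eq hm h0, add_sub_cancel]
  rw [e1 x, e1 y]
  have h1 := hk.h.pos _ h0 f (hf.mono fun x hx => hx.1)
  have h2 := hk.h.le _ h0 f 1 zero_le_one (hf.mono fun x hx => hx.2)
  obtain ⟨h3, h4⟩ := hk.ham_in hH hm (min_le_right _ _) one_pos (h1.and h2)
  have h5 := gra_alg one_pos le_rfl one_pos (mul_nonneg (Real.sqrt_nonneg _) dist_nonneg)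
    (h3 x).1 (h3 x).2 (h3 y).1 (h3 y).2 (h4 x y) (fun h => (h4 y x h).1)
  simpa using h5

theorem mass (hs : 0 < s) (x : M) : ∫ z, pk k s x z ∂m = 1 := by
  have := hk.h.full
  have := hk.sf
  have hc : AECover m atTop fun j : ℕ => Metric.ball x (j : ℝ) :=
    aecover_ball tendsto_natCast_atTop_atTop
  have hfin : ∀ j : ℕ, m (Metric.ball x (j : ℝ)) < ∞ := fun j => hk.h.fin x _
  set F : ℕ → Lp ℝ 2 m := fun j => (hk.memInd measurableSet_ball (hfin j)).toLp _ with hF
  have hF01 : ∀ j, ∀ᵐ z ∂m, 0 ≤ F j z ∧ F j z ≤ 1 := by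
    intro j
    filter_upwards [(hk.memInd measurableSet_ball (hfin j)).coeFn_toLp] with z hz
    rw [hF]
    simp only [hz]
    exact ⟨Set.indicator_nonneg (fun _ _ => zero_le_one) z,
      Set.indicator_le_self' (fun _ _ => zero_le_one) z⟩
  have hu : ∀ j y, ⟪k s y, F j⟫_ℝ = ∫ z in Metric.ball x (j : ℝ), pk k s y z ∂m := by
    intro j y
    rw [hk.setInt measurableSet_ball, hk.pt_eq hs (hk.memInd measurableSet_ball (hfin j))]
  have hlim : ∀ y, Tendsto (fun j => ⟪k s y, F j⟫_ℝ) atTop (𝓝 (∫ z, pk k s y z ∂m)) := by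
    intro y
    simp only [hu]
    exact hc.integral_tendsto_of_countably_generated (hk.int hs y)
  have h0 : ∀ j y, 0 ≤ ⟪k s y, F j⟫_ℝ := by
    intro j y
    rw [hu]
    exact setIntegral_nonneg measurableSet_ball fun z _ => hk.nonneg hs y z
  have h1 : ∀ j y, ⟪k s y, F j⟫_ℝ ≤ 1 := by
    intro j y
    rw [hu]
    exact hk.setInt_le hs measurableSet_ball (hfin j) y
  set Mf : M → ℝ := fun y => ∫ z, pk k s y z ∂m with hMf
  -- continuity
  have hlip : ∀ y y', |Mf y - Mf y'| ≤ √(CH / min s 1) * dist y y' := by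
    intro y y'
    refine le_of_tendsto ((hlim y).sub (hlim y')).abs (Eventually.of_forall fun j => ?_)
    exact hk.lip_in hH hs (hF01 j) y y'
  have hcont : Continuous Mf := by
    have : LipschitzWith (√(CH / min s 1)).toNNReal Mf := by
      refine LipschitzWith.of_dist_le_mul fun y y' => ?_
      rw [Real.coe_toNNReal _ (Real.sqrt_nonneg _), Real.dist_eq]
      exact hlip y y'
    exact this.continuous
  have hMle : ∀ y, Mf y ≤ 1 := fun y => le_of_tendsto (hlim y) (Eventually.of_forall fun j => h1 j y)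
  have hM0 : ∀ y, 0 ≤ Mf y := fun y => ge_of_tendsto (hlim y) (Eventually.of_forall fun j => h0 j y)
  -- a.e. equality
  have hae : Mf =ᵐ[m] fun _ => (1 : ℝ) := by
    have hfi : ∀ E : Set M, MeasurableSet E → m E < ∞ → IsFiniteMeasure (m.restrict E) :=
      fun E _ hE' => ⟨by rwa [Measure.restrict_apply_univ]⟩
    refine ae_eq_of_forall_setIntegral_eq_of_sigmaFinite (fun E hE hE' => ?_) (fun E hE hE' => ?_)
      (fun E hE hE' => ?_)
    · have := hfi E hE hE'
      refine Integrable.mono' (integrable_const (1 : ℝ)) hcont.aestronglyMeasurable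
        (Eventually.of_forall fun y => ?_)
      rw [Real.norm_eq_abs, abs_of_nonneg (hM0 y)]
      exact hMle y
    · have := hfi E hE hE'
      exact integrable_const _
    · have := hfi E hE hE'
      have hg := hk.memInd hE hE'
      set g : Lp ℝ 2 m := hg.toLp _ with hgdef
      have hgi : Integrable g m := by
        refine Integrable.congr ?_ hg.coeFn_toLp.symm
        exact (integrable_indicator_iff hE).2 (integrableOn_const hE'.ne)
      obtain ⟨t1, t2⟩ := hk.h.mass s hs.le g hgi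
      have e1 : ∫ z, g z ∂m = m.real E := by
        rw [integral_congr_ae hg.coeFn_toLp, integral_indicator hE]
        simp
      -- the two limits
      have l1 : Tendsto (fun j => ∫ y in E, ⟪k s y, F j⟫_ℝ ∂m) atTop (𝓝 (∫ y in E, Mf y ∂m)) := by
        refine tendsto_integral_of_dominated_convergence (fun _ => (1 : ℝ)) (fun j => ?_)
          (integrable_const _) (fun j => Eventually.of_forall fun y => ?_)
          (Eventually.of_forall fun y => hlim y)
        · exact (hk.cont_inner hs (F j)).aestronglyMeasurable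
        · rw [Real.norm_eq_abs, abs_of_nonneg (h0 j y)]
          exact h1 j y
      have l2 : Tendsto (fun j : ℕ => ∫ y in Metric.ball x (j : ℝ), T s g y ∂m) atTop
          (𝓝 (∫ y, T s g y ∂m)) := hc.integral_tendsto_of_countably_generated t1
      have e2 : ∀ j : ℕ, ∫ y in E, ⟪k s y, F j⟫_ℝ ∂m
          = ∫ y in Metric.ball x (j : ℝ), T s g y ∂m := by
        intro j
        have e3 : ⟪T s (F j), g⟫_ℝ = ∫ y in E, ⟪k s y, F j⟫_ℝ ∂m := by
          rw [inner_int, ← integral_indicator hE]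
          refine integral_congr_ae ?_
          filter_upwards [hk.rep hs (F j), hg.coeFn_toLp] with y a b
          rw [a, b]
          by_cases hy : y ∈ E <;> simp [hy]
        have e4 : ⟪T s (F j), g⟫_ℝ = ∫ y in Metric.ball x (j : ℝ), T s g y ∂m := by
          rw [hk.h.symm, inner_int, ← integral_indicator measurableSet_ball]
          refine integral_congr_ae ?_
          filter_upwards [(hk.memInd measurableSet_ball (hfin j)).coeFn_toLp] with y b
          rw [hF]
          simp only [b]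
          by_cases hy : y ∈ Metric.ball x (j : ℝ) <;> simp [hy]
        rw [← e3, e4]
      simp only [e2] at l1
      have e5 := tendsto_nhds_unique l1 l2
      rw [e5, t2, e1]
      simp
  have := (Continuous.ae_eq_iff_eq (μ := m) hcont continuous_const).1 hae
  exact congrFun this x

/-- approximation of bounded functions -/
theorem approx (hs : 0 < s) {A : ℝ} {F : M → ℝ} (hF : AEStronglyMeasurable F m)
    (hA : ∀ᵐ z ∂m, 0 ≤ F z ∧ F z ≤ A) (o : M) : ∃ f : ℕ → Lp ℝ 2 m,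
      (∀ j, ∀ᵐ z ∂m, 0 ≤ f j z ∧ f j z ≤ A) ∧
      ∀ x, Tendsto (fun j => ⟪k s x, f j⟫_ℝ) atTop (𝓝 (pt m (pk k) s F x)) := by
  have hfin : ∀ j : ℕ, m (Metric.ball o (j : ℝ)) < ∞ := fun j => hk.h.fin o _
  have hmem : ∀ j : ℕ, MemLp ((Metric.ball o (j : ℝ)).indicator F) 2 m := by
    intro j
    have h1 : IsFiniteMeasure (m.restrict (Metric.ball o (j : ℝ))) :=
      ⟨by rw [Measure.restrict_apply_univ]; exact hfin j⟩
    rw [memLp_indicator_iff_restrict measurableSet_ball]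
    refine MemLp.of_bound hF.restrict |A| ?_
    filter_upwards [ae_restrict_of_ae hA] with z hz
    rw [Real.norm_eq_abs, abs_of_nonneg hz.1]
    exact hz.2.trans (le_abs_self A)
  refine ⟨fun j => (hmem j).toLp _, fun j => ?_, fun x => ?_⟩
  · filter_upwards [(hmem j).coeFn_toLp, hA] with z a b
    rw [a]
    by_cases hz : z ∈ Metric.ball o (j : ℝ)
    · simp only [Set.indicator_of_mem hz]; exact b
    · simp only [Set.indicator_of_notMem hz]; exact ⟨le_rfl, b.1.trans b.2⟩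
  · have hc : AECover m atTop fun j : ℕ => Metric.ball o (j : ℝ) :=
      aecover_ball tendsto_natCast_atTop_atTop
    have hi : Integrable (fun z => pk k s x z * F z) m := by
      refine (hk.int hs x).mul_bdd (c := |A|) hF ?_
      filter_upwards [hA] with z hz
      rw [Real.norm_eq_abs, abs_of_nonneg hz.1]
      exact hz.2.trans (le_abs_self A)
    have h2 := hc.integral_tendsto_of_countably_generated hi
    refine h2.congr fun j => ?_
    rw [← hk.pt_eq hs (hmem j), ← integral_indicator measurableSet_ball]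
    unfold pt
    refine integral_congr_ae (Eventually.of_forall fun z => ?_)
    by_cases hz : z ∈ Metric.ball o (j : ℝ)
    · simp only [Set.indicator_of_mem hz]
    · simp only [Set.indicator_of_notMem hz, mul_zero]

theorem har (hCH : 0 ≤ CH) (hs : 0 < s) (hs1 : s ≤ 1) {A δ : ℝ} (hA0 : 0 < A) (hδ : 0 < δ) {F : M → ℝ}
    (hF : AEStronglyMeasurable F m) (hA : ∀ᵐ z ∂m, 0 ≤ F z ∧ F z ≤ A) (x y : M) :
    (pt m (pk k) s F x) ^ (1 + δ) ≤ A ^ δ * pt m (pk k) s F y
      * Real.exp (((1 + 1 / δ) * CH) * dist x y ^ 2 / s) := by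
  obtain ⟨f, hf, hfl⟩ := hk.approx hH hs hF hA x
  have l1 : Tendsto (fun j => ⟪k s x, f j⟫_ℝ ^ (1 + δ)) atTop
      (𝓝 ((pt m (pk k) s F x) ^ (1 + δ))) := (hfl x).rpow_const (Or.inr (by linarith))
  have l2 : Tendsto (fun j => A ^ δ * ⟪k s y, f j⟫_ℝ
      * Real.exp (((1 + 1 / δ) * CH) * dist x y ^ 2 / s)) atTop
      (𝓝 (A ^ δ * pt m (pk k) s F y * Real.exp (((1 + 1 / δ) * CH) * dist x y ^ 2 / s))) :=
    ((hfl y).const_mul _).mul_const _
  refine le_of_tendsto_of_tendsto' l1 l2 fun j => ?_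
  obtain ⟨h3, h4⟩ := hk.ham_in hH hs hs1 hA0 (hf j)
  have h5 := har_alg hδ hA0 (mul_nonneg (Real.sqrt_nonneg (CH / s)) (dist_nonneg (x := x) (y := y)))
    (h3 x).1 (h3 x).2 (h3 y).1 (h3 y).2 (h4 x y)
  have e1 : (1 + 1 / δ) * (√(CH / s) * dist x y) ^ 2
      = ((1 + 1 / δ) * CH) * dist x y ^ 2 / s := by
    rw [mul_pow, Real.sq_sqrt (div_nonneg hCH hs.le)]
    ring
  rwa [e1] at h5

theorem gra (hs : 0 < s) (hs1 : s ≤ 1) {A η : ℝ} (hA0 : 0 < A) (hη : 0 < η) (hη1 : η ≤ 1)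
    {F : M → ℝ} (hF : AEStronglyMeasurable F m) (hA : ∀ᵐ z ∂m, 0 ≤ F z ∧ F z ≤ A) (x y : M) :
    |pt m (pk k) s F x - pt m (pk k) s F y|
      ≤ 1 / √η * A ^ η * (max (pt m (pk k) s F x) (pt m (pk k) s F y)) ^ (1 - η)
        * (√(CH / s) * dist x y) := by
  obtain ⟨f, hf, hfl⟩ := hk.approx hH hs hF hA x
  have l1 := ((hfl x).sub (hfl y)).abs
  have l2 : Tendsto (fun j => 1 / √η * A ^ η * (max ⟪k s x, f j⟫_ℝ ⟪k s y, f j⟫_ℝ) ^ (1 - η)
      * (√(CH / s) * dist x y)) atTop (𝓝 (1 / √η * A ^ η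
        * (max (pt m (pk k) s F x) (pt m (pk k) s F y)) ^ (1 - η) * (√(CH / s) * dist x y))) :=
    ((((hfl x).max (hfl y)).rpow_const (Or.inr (by linarith))).const_mul _).mul_const _
  refine le_of_tendsto_of_tendsto' l1 l2 fun j => ?_
  obtain ⟨h3, h4⟩ := hk.ham_in hH hs hs1 hA0 (hf j)
  exact gra_alg hη hη1 hA0 (mul_nonneg (Real.sqrt_nonneg (CH / s)) (dist_nonneg (x := x) (y := y)))
    (h3 x).1 (h3 x).2 (h3 y).1 (h3 y).2 (h4 x y) (fun h => (h4 y x h).1)

end KV

end

end Vale.Agent.P242.H520
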