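import Vale.Agent.P242.H520.Ker3

/-! P242, package F-KER: reduction of the block `Blk_Ker0` to the block `Blk_Reg2`
(`L²` bounds of the continuous representative of the heat flow of a bounded function). -/

set_option linter.all false

open MeasureTheory Filter Topology Set
open scoped ENNReal NNReal InnerProductSpace

universe u

namespace Vale.Agent.P242.H520

open Vale.Agent.P233

/-- continuous representatives with `L²` bounds -/
def Blk_Reg2 : Prop :=
  ∀ (M : Type u) [MetricSpace M] [CompleteSpace M] [SecondCountableTopology M] [MeasurableSpace M]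
    [BorelSpace M] (m : Measure M) (K N : ℝ), Std m K N → ∃ C : ℝ, 0 < C ∧
    ∀ s, 0 < s → s ≤ 1 → ∀ f : M →ₘ[m] ℝ, MemLp f 2 m → MemLp f ∞ m →
      ∃ u : M → ℝ, Continuous u ∧ ((sob m).P s f =ᵐ[m] u) ∧
        (∀ x, u x ^ 2 ≤ C / (m (Metric.ball x (√s))).toReal * I (f ^ 2)) ∧
        ∀ x y, dist x y ≤ √s → (u x - u y) ^ 2
          ≤ C * (dist x y / √s) ^ 2 / (m (Metric.ball x (√s))).toReal * I (f ^ 2)

section

variable {M : Type u} [MetricSpace M] [SecondCountableTopology M] [MeasurableSpace M] [BorelSpace M]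
  {m : Measure M} {K N : ℝ}

theorem T_val {C : Calc m} (hD : IsDir C) (t : ℝ) (x : Lp ℝ 2 m) :
    (hD.gen.S t x).1 = C.P t x.1 := by
  rw [hD.P_val t (mem_val x), val_toLp]

theorem sg_of_std (hS : Std m K N) (hD : IsDir (sob m)) : SG m (fun t => hD.gen.S t) := by
  have hC := H599.std_gamma hS
  have hB := hC.bei hS.hN hS.rcd.bochner
  have := H599.std_sf hS
  refine ⟨hS.full, hS.hfin, fun s t hs ht f => hD.gen.S_add hs ht f, fun t f g =>
    hD.gen.S_symm t f g, fun t f => hD.gen.S_norm t f, fun t ht f hf => ?_, fun t ht f c hc hf => ?_,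
    fun t ht f hf => ?_⟩
  · have h1 := hD.P_nonneg ht (mem_val f) (nonneg_iff_ae.2 hf)
    rw [nonneg_iff_ae, ← T_val hD] at h1
    exact h1
  · have h1 := hD.P_le ht (mem_val f) hc hf
    rw [← T_val hD] at h1
    exact h1
  · have hf1 : MemLp (f.1 : M → ℝ) 1 m := memLp_one_iff_integrable.2 hf
    have h1 := (hD.P_L1 ht (mem_val f) hf1).1
    have h2 := IsGamma.P_mass hC hB ht (mem_val f) hf1
    rw [← T_val hD] at h1 h2
    exact ⟨memLp_one_iff_integrable.1 h1, h2⟩

end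

theorem ker0_of_reg2 (hreg : Blk_Reg2.{u}) : Blk_Ker0.{u} := by
  intro M _ _ _ _ _ m K N hS
  have hD := (H599.std_gamma hS).toIsDir
  obtain ⟨CH, hCH, hham⟩ := blk_Ham M m K N hS
  obtain ⟨C, hC, hreg⟩ := hreg M m K N hS
  have hSG := sg_of_std hS hD
  have hH : HamT m (fun t => hD.gen.S t) CH := by
    intro s hs hs1 A hA f hf
    obtain ⟨u, u1, u2, u3, u4⟩ := hham s hs hs1 A hA f.1 (mem_val f) hf
    rw [← T_val hD] at u3
    exact ⟨u, u1, u2, u3, u4⟩
  have hR : RegT m (fun t => hD.gen.S t) C := by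
    intro s hs hs1 f hf
    obtain ⟨u, u1, u2, u3, u4⟩ := hreg s hs hs1 f.1 (mem_val f) hf
    rw [← T_val hD] at u2
    rw [← norm_sq_val] at u3 u4
    exact ⟨u, u1, u2, u3, u4⟩
  have hex : ∀ s : ℝ, ∃ k : M → Lp ℝ 2 m, 0 < s → (∀ x, ‖k x‖ ^ 2 ≤ C / vo m x (sg s)) ∧
      (∀ x y, dist x y ≤ sg s → ‖k x - k y‖ ^ 2 ≤ C * (dist x y / sg s) ^ 2 / vo m x (sg s)) ∧
      ∀ f ∈ DB m, hD.gen.S s f =ᵐ[m] fun x => ⟪k x, f⟫_ℝ := by
    intro s
    by_cases hs : 0 < s
    · obtain ⟨k, hk⟩ := hSG.exists_k hC.le hR hs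
      exact ⟨k, fun _ => hk⟩
    · exact ⟨fun _ => 0, fun h => absurd h hs⟩
  choose k hk using hex
  have hK : KV m (fun t => hD.gen.S t) C k :=
    ⟨hSG, hC.le, fun s hs => (hk s hs).1, fun s hs => (hk s hs).2.1, fun s hs => (hk s hs).2.2⟩
  have hsg : ∀ s : ℝ, s ≤ 1 → sg s = √s := fun s hs => by rw [sg, min_eq_left hs]
  refine ⟨pk k, ?_⟩
  exact {
    cont := fun s hs => hK.pk_cont hs
    nonneg := fun s hs x z => hK.nonneg hs x z
    symm := fun s hs x z => hK.pk_symm s x z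
    mem2 := fun s hs x => hK.mem2 hs x
    int := fun s hs x => hK.int hs x
    mass := fun s hs x => hK.mass hH hs x
    semi := fun s t hs ht x z => hK.semi hs ht x z
    rep := fun s hs f hf => by
      have h1 := hK.pt_ae hs hf
      have h2 : (hD.gen.S s (hf.toLp f)).1 = (sob m).P s f := (hD.P_val s hf).symm
      rw [← h2]
      exact h1
    contf := fun s hs f hf => hK.pt_cont hs hf
    l2 := ⟨C, hC, fun s hs hs1 x => by
      rw [hK.norm_sq hs]
      have h1 := hK.l2 s hs x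
      rwa [hsg s hs1] at h1⟩
    lip2 := ⟨C, hC, fun s hs hs1 x y hxy => by
      rw [hK.norm_sub_sq hs]
      have h1 := hK.lip s hs x y (by rwa [hsg s hs1])
      rwa [hsg s hs1] at h1⟩
    har := fun δ hδ => ⟨(1 + 1 / δ) * CH, by positivity, fun s hs hs1 A F hA hF hF' x y =>
      hK.har hH hCH.le hs hs1 hA hδ hF hF' x y⟩
    gra := fun η hη hη1 => ⟨1 / √η * √CH, by positivity, fun s hs hs1 A F hA hF hF' x y => by
      refine (hK.gra hH hs hs1 hA hη hη1 hF hF' x y).trans (le_of_eq ?_)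
      rw [Real.sqrt_div hCH.le]
      ring⟩ }

end Vale.Agent.P242.H520
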