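import Vale.Agent.P242.H990.Cons

/-! P242, package A-START (helper520), part 1: moments and tails of the heat kernel at a centre. -/

set_option linter.all false

open MeasureTheory Filter Topology Set
open scoped ENNReal NNReal

universe u

namespace Vale.Agent.P242.H520

open Vale.Agent.P233 Vale.Agent.P242.H990

variable {M : Type u} [MetricSpace M] [MeasurableSpace M] [BorelSpace M]
  {m : Measure M} {p : ℝ → M → M → ℝ} {n : ℕ} {o : M} {A : ℝ}

/-- the constant of the moments -/
noncomputable def cM (n : ℕ) (A : ℝ) (N : ℕ) : ℝ :=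
  cG n A (4 * A ^ 2) 0 * cW A N * Real.exp (2 * A)

theorem cM_pos {n : ℕ} {A : ℝ} (hA : 1 ≤ A) (N : ℕ) : 0 < cM n A N := by
  have h1 := cG_pos (n := n) (C₀ := 0) hA (show (0 : ℝ) < 4 * A ^ 2 by positivity)
  have h2 := cW_pos (A := A) (N := N)
  unfold cM
  positivity

/-- the weight `1 + d(y,z)/√s` -/
noncomputable def wt (y : M) (s : ℝ) (z : M) : ℝ := 1 + dist y z / √s

theorem one_le_wt (y : M) (s : ℝ) (z : M) : 1 ≤ wt y s z := by
  unfold wt
  have : 0 ≤ dist y z / √s := div_nonneg dist_nonneg (Real.sqrt_nonneg _)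
  linarith

theorem wt_pos (y : M) (s : ℝ) (z : M) : 0 < wt y s z := one_pos.trans_le (one_le_wt y s z)

theorem wt_cont (y : M) (s : ℝ) : Continuous (wt y s) := by
  unfold wt; fun_prop

theorem dist_le_wt {y : M} {s : ℝ} (hs : 0 < s) (z : M) : dist y z ≤ √s * wt y s z := by
  unfold wt
  have q0 : 0 < √s := Real.sqrt_pos.2 hs
  rw [mul_add, mul_div_cancel₀ _ q0.ne']
  linarith

theorem wt_mono {y : M} {s t : ℝ} (ht : 0 < t) (hts : t ≤ s) (z : M) : wt y s z ≤ wt y t z := by
  unfold wt
  have q0 : 0 < √t := Real.sqrt_pos.2 ht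
  have : √t ≤ √s := Real.sqrt_le_sqrt hts
  gcongr

section
variable (hp : Ker0 m p) (hk : KB n o A p)
include hp hk

/-- tails with polynomial weights -/
theorem tl {s : ℝ} (hs : 0 < s) (hs1 : 8 * A ^ 2 * s ≤ 1) {y : M} (hy : dist y o ≤ 1) (N : ℕ)
    {r : ℝ} (hr : 0 ≤ r) :
    Integrable (fun z => p s y z * ({z | r ≤ dist y z}.indicator (fun z => wt y s z ^ N) z)) m ∧
      pt m p s ({z | r ≤ dist y z}.indicator fun z => wt y s z ^ N) y
        ≤ cM n A N * Real.exp (-(r ^ 2 / (4 * A * s))) := by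
  have hA := hk.one_le
  have hA0 := hk.pos
  have hA2 : 1 ≤ A ^ 2 := one_le_pow₀ hA
  have q0 : 0 < √s := Real.sqrt_pos.2 hs
  have hs' : 0 < 4 * A ^ 2 * s := by positivity
  have hE : MeasurableSet {z | r ≤ dist y z} :=
    measurableSet_le measurable_const (continuous_const.dist continuous_id).measurable
  have w0 : ∀ z, 0 ≤ {z | r ≤ dist y z}.indicator (fun z => wt y s z ^ N) z := fun z =>
    indicator_nonneg (fun z _ => pow_nonneg (wt_pos y s z).le N) z
  have hwm : AEStronglyMeasurable ({z | r ≤ dist y z}.indicator fun z => wt y s z ^ N) m :=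
    ((wt_cont y s).pow N).aestronglyMeasurable.indicator hE
  have h := hk.int_of_weight (kmeas hp) (Γ := 4 * A ^ 2) (C₀ := 0) (s' := 4 * A ^ 2 * s) (x := y)
    (x' := y) hs le_rfl le_rfl (by linarith) (by simp)
    (F := fun _ => (1 : ℝ)) aestronglyMeasurable_const (by simpa using hp.int _ hs' y)
    (w := {z | r ≤ dist y z}.indicator fun z => wt y s z ^ N) hwm
    (Cw := cW A N * Real.exp (-(r ^ 2 / (4 * A * s)))) (fun z => by
      rw [abs_of_nonneg (w0 z)]
      have c0 := cW_pos (A := A) (N := N)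
      by_cases hz : r ≤ dist y z
      · rw [indicator_of_mem (show z ∈ {z | r ≤ dist y z} from hz)]
        have h1 := pow_le_exp N (A := A) (s := s) (d := dist y z) hA0 hs dist_nonneg
        have h2 : 1 ≤ Real.exp (-(r ^ 2 / (4 * A * s))) * Real.exp (dist y z ^ 2 / (4 * A * s)) := by
          rw [← Real.exp_add]
          apply Real.one_le_exp
          have : r ^ 2 / (4 * A * s) ≤ dist y z ^ 2 / (4 * A * s) := by gcongr
          linarith
        have h3 : Real.exp (dist y z ^ 2 / (2 * A * s))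
            = Real.exp (dist y z ^ 2 / (4 * A * s)) * Real.exp (dist y z ^ 2 / (4 * A * s)) := by
          rw [← Real.exp_add]
          congr 1
          field_simp
          ring
        rw [h3]
        calc wt y s z ^ N ≤ cW A N * Real.exp (dist y z ^ 2 / (4 * A * s)) := h1
          _ ≤ cW A N * Real.exp (dist y z ^ 2 / (4 * A * s)) *
              (Real.exp (-(r ^ 2 / (4 * A * s))) * Real.exp (dist y z ^ 2 / (4 * A * s))) :=
            le_mul_of_one_le_right (by positivity) h2
          _ = _ := by ring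
      · rw [indicator_of_notMem (show z ∉ {z | r ≤ dist y z} from hz)]
        positivity)
  have e1 : pt m p (4 * A ^ 2 * s) (fun _ => |(1 : ℝ)|) y = 1 := by
    rw [abs_one]; exact pt_const hp hs' y 1
  refine ⟨?_, ?_⟩
  · refine h.1.congr (Eventually.of_forall fun z => ?_)
    simp only [mul_one]
    ring
  · have e2 : pt m p s ({z | r ≤ dist y z}.indicator fun z => wt y s z ^ N) y
        = ∫ z, |{z | r ≤ dist y z}.indicator (fun z => wt y s z ^ N) z| * (p s y z * |(1 : ℝ)|) ∂m := by
      unfold pt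
      refine integral_congr_ae (Eventually.of_forall fun z => ?_)
      simp only
      rw [abs_of_nonneg (w0 z), abs_one]
      ring
    rw [e2]
    refine h.2.trans ?_
    have e3 : ∫ z, p (4 * A ^ 2 * s) y z * |(1 : ℝ)| ∂m = 1 := e1
    rw [e3]
    unfold cM
    have e4 : Real.exp (2 * A * dist y o) ≤ Real.exp (2 * A) :=
      Real.exp_le_exp.2 (by nlinarith)
    have c0 := cW_pos (A := A) (N := N)
    have g0 := cG_pos (n := n) (C₀ := 0) hA (show (0 : ℝ) < 4 * A ^ 2 by positivity)
    calc cG n A (4 * A ^ 2) 0 * (cW A N * Real.exp (-(r ^ 2 / (4 * A * s)))) *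
          Real.exp (2 * A * dist y o) * 1
        ≤ cG n A (4 * A ^ 2) 0 * (cW A N * Real.exp (-(r ^ 2 / (4 * A * s)))) *
          Real.exp (2 * A) * 1 := by gcongr
      _ = _ := by ring

/-- moments -/
theorem mom {s : ℝ} (hs : 0 < s) (hs1 : 8 * A ^ 2 * s ≤ 1) {y : M} (hy : dist y o ≤ 1) (N : ℕ) :
    Integrable (fun z => p s y z * wt y s z ^ N) m ∧
      pt m p s (fun z => wt y s z ^ N) y ≤ cM n A N := by
  have h := tl hp hk hs hs1 hy N (r := 0) le_rfl
  have e : {z | (0 : ℝ) ≤ dist y z} = univ := by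
    ext z; simp [dist_nonneg]
  rw [e] at h
  simp only [indicator_univ] at h
  refine ⟨h.1, h.2.trans ?_⟩
  have := cM_pos (n := n) hk.one_le N
  simp

/-- functions with polynomial growth -/
theorem pt_poly {s : ℝ} (hs : 0 < s) (hs1 : 8 * A ^ 2 * s ≤ 1) {y : M} (hy : dist y o ≤ 1) (N : ℕ)
    {F : M → ℝ} (hF : AEStronglyMeasurable F m) {a : ℝ} (h : ∀ᵐ z ∂m, |F z| ≤ a * wt y s z ^ N) :
    Integrable (fun z => p s y z * F z) m ∧ pt m p s (fun z => |F z|) y ≤ a * cM n A N := by
  obtain ⟨h1, h2⟩ := mom hp hk hs hs1 hy N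
  have hdom : Integrable (fun z => a * (p s y z * wt y s z ^ N)) m := h1.const_mul a
  have hb : ∀ᵐ z ∂m, p s y z * |F z| ≤ a * (p s y z * wt y s z ^ N) := by
    filter_upwards [h] with z hz
    have := mul_le_mul_of_nonneg_left hz (hp.nonneg s hs y z)
    linarith
  have hi : Integrable (fun z => p s y z * F z) m := by
    refine hdom.mono' ((ph_meas hp hs y).mul hF) ?_
    filter_upwards [hb] with z hz
    rw [Real.norm_eq_abs, abs_mul, abs_of_nonneg (hp.nonneg s hs y z)]
    exact hz
  have hi' : Integrable (fun z => p s y z * |F z|) m := pt_int_abs hp hs hi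
  refine ⟨hi, ?_⟩
  by_cases ha : 0 ≤ a
  · calc pt m p s (fun z => |F z|) y ≤ ∫ z, a * (p s y z * wt y s z ^ N) ∂m :=
          integral_mono_ae hi' hdom hb
      _ = a * pt m p s (fun z => wt y s z ^ N) y := integral_const_mul _ _
      _ ≤ a * cM n A N := mul_le_mul_of_nonneg_left h2 ha
  · exfalso
    have : ∀ᵐ z ∂m, False := by
      filter_upwards [h] with z hz
      have h3 := (abs_nonneg _).trans hz
      have h4 : 0 < wt y s z ^ N := pow_pos (wt_pos y s z) N
      nlinarith [not_le.1 ha]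
    have hm0 : m = 0 := by
      rw [← ae_eq_bot]
      exact eventually_false_iff_eq_bot.1 this
    have := hp.mass s hs y
    rw [hm0] at this
    simp at this

end

end Vale.Agent.P242.H520
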