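import Vale.Agent.P242.H520.St1
import Vale.Agent.P242.H744.NuD
import Vale.Agent.P242.H254.E1e
import Vale.Agent.P242.H254.E1v
import Vale.Agent.P242.H751.Uc
import Vale.Agent.P242.H924.Uc
import Vale.Agent.P242.H363.Rad
import Vale.Agent.P233.H599.Conv

/-! P242, package A-START (helper520), part 2: `b'_{y,t}` is close to `½ |u - u(y)|²` in
`L¹(p_s(y,·))`. -/

set_option linter.all false

open MeasureTheory Filter Topology Set Metric
open scoped ENNReal NNReal InnerProductSpace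

universe u

namespace Vale.Agent.P242.H520

open Vale.Agent.P233 Vale.Agent.P233.RA Vale.Agent.P242.H71 Vale.Agent.P242.H990

section lin

variable {M : Type u} [MetricSpace M] [MeasurableSpace M] {m : Measure M}
  {p : ℝ → M → M → ℝ} (hp : Ker0 m p) {s : ℝ} {x : M} {F G : M → ℝ}

theorem pt_add (hF : Integrable (fun z => p s x z * F z) m)
    (hG : Integrable (fun z => p s x z * G z) m) :
    Integrable (fun z => p s x z * (F z + G z)) m ∧
      pt m p s (fun z => F z + G z) x = pt m p s F x + pt m p s G x := by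
  have e : (fun z => p s x z * (F z + G z)) = fun z => p s x z * F z + p s x z * G z := by
    funext z; ring
  refine ⟨by rw [e]; exact hF.add hG, ?_⟩
  unfold pt
  rw [e, integral_add hF hG]

theorem pt_cmul (c : ℝ) (hF : Integrable (fun z => p s x z * F z) m) :
    Integrable (fun z => p s x z * (c * F z)) m ∧
      pt m p s (fun z => c * F z) x = c * pt m p s F x := by
  have e : (fun z => p s x z * (c * F z)) = fun z => c * (p s x z * F z) := by
    funext z; ring
  refine ⟨by rw [e]; exact hF.const_mul c, ?_⟩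
  unfold pt
  rw [e, integral_const_mul]

include hp in
theorem pt_const' (hs : 0 < s) (c : ℝ) :
    Integrable (fun z => p s x z * (fun _ => c : M → ℝ) z) m ∧ pt m p s (fun _ => c) x = c :=
  ⟨(hp.int s hs x).mul_const c, pt_const hp hs x c⟩

include hp in
theorem pt_add_const (hs : 0 < s) (hF : Integrable (fun z => p s x z * F z) m) (c : ℝ) :
    Integrable (fun z => p s x z * (F z + c)) m ∧
      pt m p s (fun z => F z + c) x = pt m p s F x + c := by
  have h := pt_add hF (pt_const' hp (x := x) hs c).1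
  refine ⟨h.1, ?_⟩
  rw [h.2, pt_const hp hs x c]

end lin

variable {M : Type u} [MetricSpace M] [CompleteSpace M] [SecondCountableTopology M]
  [MeasurableSpace M] [BorelSpace M] {m : Measure M} {n : ℕ} {K A : ℝ} {o : M}
  {p : ℝ → M → M → ℝ}

/-- smallness of `ν` from the smallness of the drop -/
theorem nu_small (e : Env m n K o A p) {Γ : ℝ} (hΓ : 1 ≤ Γ) : ∃ B Λ₁ : ℝ, 1 ≤ B ∧ 1 ≤ Λ₁ ∧
    ∀ (y : M) (t s R Q δ ρ : ℝ), DropS m n K o p R Q δ ρ → dist y o < R * ρ → R * ρ ≤ 1 →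
      Q * ρ ^ 2 ≤ 1 / 2 → 0 < t → t ≤ s → s ≤ Γ * t → Λ₁ * t ≤ Q * ρ ^ 2 →
      0 ≤ nu m n K p y s y ∧ nu m n K p y s y ≤ B * δ := by
  obtain ⟨B, Λ₁, hB, hΛ, h⟩ := H744.nu_le_dt e (C₀ := 0) (c₁ := 1) (C₁ := Γ) le_rfl one_pos hΓ
  refine ⟨B, Λ₁, hB, hΛ, ?_⟩
  intro y t s R Q δ ρ hd hy hR hQ ht hts hsΓ hT
  have h1 := (h y y t s Q 0 ρ (hy.le.trans hR) ht (by linarith) hsΓ hT hQ le_rfl (by simp)).1
  have htT : t ≤ Q * ρ ^ 2 := (le_mul_of_one_le_left ht.le hΛ).trans hT
  have h2 := H744.ee_le (H744.nu_div_cont e y) (H744.nu_div_nonneg e y) ht htT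
  have h3 := hd y (mem_ball.2 hy) t ht htT
  refine ⟨H744.nu_nonneg e y y (ht.trans_le hts),
    h1.trans (mul_le_mul_of_nonneg_left (le_trans ?_ h3) (by linarith))⟩
  exact h2

/-- the error `e_t` of the Laplacian comparison is small in `L¹` -/
theorem e_L1 (e : Env m n K o A p) (y : M) {s t D : ℝ} (hs : 0 < s) (ht : 0 < t)
    (hD : ∀ τ ∈ Ioo 0 t, nu m n K p y (s + τ) y ≤ D) :
    Integrable (fun z => p s y z * (H254.eW (sob m) (|K| + 1) (cl m (ww (1 / 2) y)) t z
      + H254.ec n (|K| + 1) (1 / 2) t)) m ∧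
    pt m p s (fun z => H254.eW (sob m) (|K| + 1) (cl m (ww (1 / 2) y)) t z
      + H254.ec n (|K| + 1) (1 / 2) t) y ≤ Real.exp ((|K| + 1) * t) * (D * t) := by
  have hC := H751.env_gamma e
  have hB := H751.env_bei e
  haveI := (H924.facts e.hyp).sf
  have hV := H254.vx_of e.hyp y
  have m2 := ph_mem2 e.ker hs y
  have hW := hC.memLp _ (hV.eW_mem hC t)
  have i1 := pt_int e.ker hs y hW
  have h1 := hV.HH_sub_le hC hB (ph_nonneg e.ker hs y) m2 (ph_mem1 e.ker hs y)
    (ph_top hC e.ker e.kb hs y) le_rfl ht.le (D := D) (fun τ hτ => by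
      rw [P_ph hC.toIsDir e.ker hτ.1.le hs y, ← H254.nuF_eq]
      exact hD τ hτ)
  rw [← hV.I_EW hC.toIsDir m2, I_ph e.ker hs y, mul_one, sub_zero] at h1
  obtain ⟨j1, j2⟩ := pt_add_const e.ker hs i1 (H254.ec n (|K| + 1) (1 / 2) t)
  refine ⟨j1, ?_⟩
  rw [j2, ← I_ph_mul e.ker hs y, hV.eW_eq hC t, mul_smul_comm, I_smul]
  have e2 : H254.ec n (|K| + 1) (1 / 2) t
      = Real.exp ((|K| + 1) * t) * H254.cE n (|K| + 1) (1 / 2) 0 t := by
    unfold H254.ec H254.cE
    have h5 : Real.exp ((|K| + 1) * t) * Real.exp (-((|K| + 1) * t)) = 1 := by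
      rw [← Real.exp_add]; simp
    rw [mul_zero, neg_zero, Real.exp_zero]
    linear_combination (1 / 2 + (n : ℝ) / (|K| + 1)) * h5
  rw [e2, ← mul_add]
  exact mul_le_mul_of_nonneg_left h1 (Real.exp_pos _).le

/-- `b'` against `min (g, 1/2)` -/
theorem bw_le (e : Env m n K o A p) (y : M) {t : ℝ} (ht : 0 ≤ t) (ht1 : t ≤ 1) :
    ∀ᵐ z ∂m, |bb m y t z + 1 / 2 - n * t - (cl m (ww (1 / 2) y) z + 1 / 2)| ≤
      (|K| + 1) * Real.exp (|K| + 1) * t * (cl m (ww (1 / 2) y) z + 1 / 2 + n * t)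
      + (H254.eW (sob m) (|K| + 1) (cl m (ww (1 / 2) y)) t z + H254.ec n (|K| + 1) (1 / 2) t) := by
  have hC := H751.env_gamma e
  have hB := H751.env_bei e
  haveI := (H924.facts e.hyp).sf
  have hV := H254.vx_of e.hyp y
  filter_upwards [hV.e_nonneg hC hB ht,
    H254.Vx.eW_ae (C := sob m) (K₁ := |K| + 1) (w := cl m (ww (1 / 2) y)) t, hV.wd] with z a b c
  have hK := hV.K₁_pos
  have hb : bb m y t z = Real.exp ((|K| + 1) * t) * cl m (ww (1 / 2) y) z
      - H254.eW (sob m) (|K| + 1) (cl m (ww (1 / 2) y)) t z := by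
    rw [b]; unfold H71.bb; ring
  set G := Real.exp ((|K| + 1) * t) with hG
  set w := cl m (ww (1 / 2) y) z with hw
  set E := H254.eW (sob m) (|K| + 1) (cl m (ww (1 / 2) y)) t z with hE
  have hn : (0 : ℝ) ≤ n := Nat.cast_nonneg n
  have hKt : 0 ≤ (|K| + 1) * t := mul_nonneg hK.le ht
  have c1 := H254.exp_sub_one_le ((|K| + 1) * t)
  have c2 := H254.exp_sub_one_sub_le hKt
  have c3 : G ≤ Real.exp (|K| + 1) := Real.exp_le_exp.2 (mul_le_of_le_one_right hK.le ht1)
  have c4 : 1 ≤ G := Real.one_le_exp hKt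
  have c5 := Real.add_one_le_exp ((|K| + 1) * t)
  rw [← hG] at c1 c2 c5
  have hid : bb m y t z + 1 / 2 - n * t - (w + 1 / 2)
      = (G - 1) * (w + 1 / 2) + n * ((G - 1 - (|K| + 1) * t) / (|K| + 1))
        - (E + H254.ec n (|K| + 1) (1 / 2) t) := by
    rw [hb]
    unfold H254.ec
    rw [← hG]
    field_simp
    ring
  have d1 : 0 ≤ (G - 1) * (w + 1 / 2) := mul_nonneg (by linarith) c.1
  have d2 : (G - 1) * (w + 1 / 2) ≤ (|K| + 1) * Real.exp (|K| + 1) * t * (w + 1 / 2) := by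
    refine mul_le_mul_of_nonneg_right ?_ c.1
    calc G - 1 ≤ (|K| + 1) * t * G := c1
      _ ≤ (|K| + 1) * t * Real.exp (|K| + 1) := mul_le_mul_of_nonneg_left c3 hKt
      _ = _ := by ring
  have d3 : 0 ≤ (G - 1 - (|K| + 1) * t) / (|K| + 1) := div_nonneg (by linarith) hK.le
  have d4 : (G - 1 - (|K| + 1) * t) / (|K| + 1) ≤ (|K| + 1) * Real.exp (|K| + 1) * t * t := by
    rw [div_le_iff₀ hK]
    calc G - 1 - (|K| + 1) * t ≤ ((|K| + 1) * t) ^ 2 * G := c2
      _ ≤ ((|K| + 1) * t) ^ 2 * Real.exp (|K| + 1) := mul_le_mul_of_nonneg_left c3 (by positivity)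
      _ = _ := by ring
  have d5 := mul_le_mul_of_nonneg_left d4 hn
  have d6 := mul_nonneg hn d3
  rw [hid, abs_le]
  constructor
  · have : 0 ≤ (|K| + 1) * Real.exp (|K| + 1) * t * (w + 1 / 2 + n * t) := by
      have : 0 ≤ w + 1 / 2 := c.1
      positivity
    linarith
  · have e3 : (|K| + 1) * Real.exp (|K| + 1) * t * (w + 1 / 2 + n * t)
        = (|K| + 1) * Real.exp (|K| + 1) * t * (w + 1 / 2)
          + n * ((|K| + 1) * Real.exp (|K| + 1) * t * t) := by ring
    rw [e3]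
    linarith

/-- the maps are Lipschitz -/
theorem uu_lip (e : Env m n K o A p) {R Q η ρ : ℝ} {u : Fin n → M →ₘ[m] ℝ} {uu : M → E n}
    (hu : Cfg m n K o p R Q η ρ u uu) (z z' : M) :
    ‖uu z - uu z'‖ ^ 2 ≤ 4 * n * dist z z' ^ 2 := by
  have hC := H751.env_gamma e
  haveI := e.hyp.full
  have key : ∀ i, |uu z i - uu z' i| ≤ 2 * dist z z' := by
    intro i
    obtain ⟨U, hU, hUe⟩ := H599.lip_rep (H751.env_std e) (hC.test_A (hu.test i).1).1
      (L := 2) (by norm_num) (by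
        filter_upwards [hu.grad i] with x hx
        refine hx.trans ?_
        norm_num)
    have hc : Continuous fun x => uu x i := by
      have := hu.cont
      exact (EuclideanSpace.proj i).continuous.comp this
    have he : (fun x => uu x i) =ᵐ[m] U := by
      filter_upwards [hu.rep i, hUe] with x h1 h2
      rw [← h1, h2]
    have he2 : (fun x => uu x i) = U := (Continuous.ae_eq_iff_eq m hc hU.continuous).1 he
    have h1 : uu z i = U z := congrFun he2 z
    have h2 : uu z' i = U z' := congrFun he2 z'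
    rw [h1, h2, ← Real.dist_eq]
    have := hU.dist_le_mul z z'
    simpa using this
  rw [EuclideanSpace.real_norm_sq_eq]
  calc ∑ i, (uu z - uu z').ofLp i ^ 2 ≤ ∑ i : Fin n, (2 * dist z z') ^ 2 := by
        refine Finset.sum_le_sum fun i _ => ?_
        have h := key i
        rw [← sq_abs]
        exact pow_le_pow_left₀ (abs_nonneg _) (by simpa using h) 2
    _ = 4 * n * dist z z' ^ 2 := by
        rw [Finset.sum_const, Finset.card_univ, Fintype.card_fin, nsmul_eq_mul]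
        ring

/-- near the vertex -/
theorem gX_near {R Q η ρ : ℝ} {u : Fin n → M →ₘ[m] ℝ} {uu : M → E n}
    (hu : Cfg m n K o p R Q η ρ u uu) (hη : 0 ≤ η) {y z : M} (hy : dist y o < R * ρ)
    (hz : dist z o < R * ρ) :
    |dist z y ^ 2 / 2 - ‖uu z - uu y‖ ^ 2 / 2| ≤ η * ρ * (dist z y + η * ρ) := by
  have h := hu.iso z (mem_ball.2 hz) y (mem_ball.2 hy)
  rw [dist_eq_norm] at h
  set a := ‖uu z - uu y‖
  set b := dist z y with hb
  have hb0 : 0 ≤ b := dist_nonneg
  have ha0 : 0 ≤ a := norm_nonneg _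
  have hρ := hu.ρ_pos
  have h0 : 0 ≤ η * ρ := mul_nonneg hη hρ.le
  have e1 : b ^ 2 / 2 - a ^ 2 / 2 = -((a - b) * ((a + b) / 2)) := by ring
  rw [e1, abs_neg, abs_mul, abs_of_nonneg (by positivity : 0 ≤ (a + b) / 2)]
  have h2 := abs_le.1 h
  exact mul_le_mul h (by linarith) (by positivity) h0

end Vale.Agent.P242.H520
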