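import Vale.Agent.P242.H520.St2

/-! P242, package A-START (helper520), part 3: `L¹` and `L²` closeness of `b'_{y,t}` and
`½ |u - u(y)|²`. -/

set_option linter.all false

open MeasureTheory Filter Topology Set Metric
open scoped ENNReal NNReal InnerProductSpace

universe u

namespace Vale.Agent.P242.H520

open Vale.Agent.P233 Vale.Agent.P233.RA Vale.Agent.P242.H71 Vale.Agent.P242.H990

variable {M : Type u} [MetricSpace M] [CompleteSpace M] [SecondCountableTopology M]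
  [MeasurableSpace M] [BorelSpace M] {m : Measure M} {n : ℕ} {K A : ℝ} {o : M}
  {p : ℝ → M → M → ℝ}

/-- `b'_{y,t} - ½ |u - u(y)|²` -/
noncomputable def Hd (m : Measure M) (n : ℕ) (y : M) (t : ℝ) (uu : M → E n) (z : M) : ℝ :=
  H71.bb m y t z + 1 / 2 - n * t - ‖uu z - uu y‖ ^ 2 / 2

theorem Hd_meas {R Q η ρ : ℝ} {u : Fin n → M →ₘ[m] ℝ} {uu : M → E n}
    (hu : Cfg m n K o p R Q η ρ u uu) (y : M) (t : ℝ) :
    AEStronglyMeasurable (Hd m n y t uu) m := by
  have h1 := (H71.bb m y t).aestronglyMeasurable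
  have h2 : Continuous fun z => ‖uu z - uu y‖ ^ 2 / 2 := by
    have := hu.cont
    fun_prop
  exact ((h1.add aestronglyMeasurable_const).sub aestronglyMeasurable_const).sub
    h2.aestronglyMeasurable

/-- `d² ≤ s (1 + d/√s)²` -/
theorem dist_sq_le_wt {y : M} {s : ℝ} (hs : 0 < s) (z : M) : dist y z ^ 2 ≤ s * wt y s z ^ 2 := by
  have h := pow_le_pow_left₀ dist_nonneg (dist_le_wt hs z (y := y)) 2
  rwa [mul_pow, Real.sq_sqrt hs.le] at h

/-- the constant of `hd_pt` -/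
noncomputable def cP (n : ℕ) (K : ℝ) : ℝ := Real.exp (|K| + 1) * (n + 1) + 3 * n

theorem cP_pos (n : ℕ) (K : ℝ) : 0 < cP n K := by
  unfold cP
  have := Real.exp_pos (|K| + 1)
  positivity

/-- growth -/
theorem hd_pt (e : Env m n K o A p) {R Q η ρ : ℝ} {u : Fin n → M →ₘ[m] ℝ} {uu : M → E n}
    (hu : Cfg m n K o p R Q η ρ u uu) (y : M) {t : ℝ} (ht : 0 < t) (ht1 : t ≤ 1) :
    ∀ᵐ z ∂m, |Hd m n y t uu z| ≤ cP n K * t * wt y t z ^ 2 := by
  have hC := H751.env_gamma e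
  have hB := H751.env_bei e
  haveI := (H924.facts e.hyp).sf
  have hV := H254.vx_of e.hyp y
  filter_upwards [hV.b_le' hC hB ht.le ht1, hV.P_bds hC.toIsDir ht.le, hV.wd] with z a b c
  have hn : (0 : ℝ) ≤ n := Nat.cast_nonneg n
  have hL := uu_lip e hu z y
  have hd : dist z y = dist y z := dist_comm _ _
  have hw := dist_sq_le_wt ht z (y := y)
  have h1 : 1 ≤ wt y t z ^ 2 := one_le_pow₀ (one_le_wt y t z)
  have hE := Real.exp_pos (|K| + 1)
  have hg : gg y z = dist z y ^ 2 / 2 := rfl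
  rw [hg, hd] at c
  rw [hd] at hL
  have hbb : H71.bb m y t z = (sob m).P t (cl m (ww (1 / 2) y)) z := rfl
  set β := (sob m).P t (cl m (ww (1 / 2) y)) z with hβ
  set W := wt y t z ^ 2 with hW
  have k1 : β + 1 / 2 ≤ Real.exp (|K| + 1) * (n + 1) * (t * W) := by
    refine a.trans ?_
    rw [mul_assoc]
    refine mul_le_mul_of_nonneg_left ?_ hE.le
    have : (n : ℝ) * t ≤ n * (t * W) :=
      mul_le_mul_of_nonneg_left (le_mul_of_one_le_right ht.le h1) hn
    have h3 : 0 ≤ t * W := by positivity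
    linarith [c.2.1]
  have k2 : (n : ℝ) * t ≤ n * (t * W) :=
    mul_le_mul_of_nonneg_left (le_mul_of_one_le_right ht.le h1) hn
  have k3 : ‖uu z - uu y‖ ^ 2 / 2 ≤ 2 * n * (t * W) := by
    have := mul_le_mul_of_nonneg_left hw (by positivity : (0 : ℝ) ≤ 4 * n)
    linarith
  have k4 : 0 ≤ ‖uu z - uu y‖ ^ 2 / 2 := by positivity
  have e1 : cP n K * t * W = Real.exp (|K| + 1) * (n + 1) * (t * W) + 3 * n * (t * W) := by
    unfold cP; ring
  unfold Hd
  rw [hbb, e1, abs_le]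
  have h5 : 0 ≤ Real.exp (|K| + 1) * (n + 1) * (t * W) := by positivity
  have h6 : 0 ≤ n * (t * W) := by positivity
  have h7 : 0 ≤ n * t := by positivity
  constructor
  · linarith [b.1]
  · linarith

/-- pointwise bound, splitting the errors -/
theorem hd_le (e : Env m n K o A p) {R Q η ρ : ℝ} {u : Fin n → M →ₘ[m] ℝ} {uu : M → E n}
    (hu : Cfg m n K o p R Q η ρ u uu) (hη : 0 ≤ η) (hR : 0 < R) {y : M}
    (hy : dist y o < 3 / 4 * (R * ρ)) {s t : ℝ} (hs : 0 < s) (ht : 0 < t) (ht1 : t ≤ 1) :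
    ∀ᵐ z ∂m, |Hd m n y t uu z| ≤
      (H254.eW (sob m) (|K| + 1) (cl m (ww (1 / 2) y)) t z + H254.ec n (|K| + 1) (1 / 2) t)
      + (((|K| + 1) * Real.exp (|K| + 1) * t * (s + n * t) + η * ρ * (√s + η * ρ)) * wt y s z ^ 2
      + 3 * n * s * {z | R * ρ / 4 ≤ dist y z}.indicator (fun z => wt y s z ^ 2) z) := by
  have hC := H751.env_gamma e
  have hB := H751.env_bei e
  haveI := (H924.facts e.hyp).sf
  have hV := H254.vx_of e.hyp y
  have hn1 : (1 : ℝ) ≤ n := by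
    have := e.hyp.two_le
    exact_mod_cast (by omega : 1 ≤ n)
  have hρ := hu.ρ_pos
  have hRρ := hu.Rρ
  filter_upwards [bw_le e y ht.le ht1, hV.wd, hV.eq] with z a c hw
  have hg : gg y z = dist z y ^ 2 / 2 := rfl
  have hd : dist z y = dist y z := dist_comm _ _
  set w := cl m (ww (1 / 2) y) z with hwd
  set ee := H254.eW (sob m) (|K| + 1) (cl m (ww (1 / 2) y)) t z + H254.ec n (|K| + 1) (1 / 2) t
  set W := wt y s z with hW
  have hW1 : 1 ≤ W := one_le_wt y s z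
  have hW2 : W ≤ W ^ 2 := by nlinarith
  have hW3 : 1 ≤ W ^ 2 := one_le_pow₀ hW1
  have hd1 := dist_le_wt hs z (y := y)
  have hd2 := dist_sq_le_wt hs z (y := y)
  have hK1 : 0 ≤ (|K| + 1) * Real.exp (|K| + 1) * t := by positivity
  have q0 : 0 ≤ √s := Real.sqrt_nonneg s
  have hηρ : 0 ≤ η * ρ := mul_nonneg hη hρ.le
  have s1 : (|K| + 1) * Real.exp (|K| + 1) * t * (w + 1 / 2 + n * t)
      ≤ (|K| + 1) * Real.exp (|K| + 1) * t * (s + n * t) * W ^ 2 := by
    rw [mul_assoc _ (s + n * t)]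
    refine mul_le_mul_of_nonneg_left ?_ hK1
    have h1 : w + 1 / 2 ≤ s * W ^ 2 := by
      have h2 := c.2.1
      rw [hg, hd] at h2
      have h3 : 0 ≤ s * W ^ 2 := by positivity
      linarith
    have h2 : (n : ℝ) * t ≤ n * t * W ^ 2 := le_mul_of_one_le_right (by positivity) hW3
    linarith [add_mul s ((n : ℝ) * t) (W ^ 2)]
  have s2 : |w + 1 / 2 - ‖uu z - uu y‖ ^ 2 / 2| ≤ η * ρ * (√s + η * ρ) * W ^ 2
      + 3 * n * s * {z | R * ρ / 4 ≤ dist y z}.indicator (fun z => wt y s z ^ 2) z := by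
    by_cases hz : R * ρ / 4 ≤ dist y z
    · rw [indicator_of_mem (show z ∈ {z | R * ρ / 4 ≤ dist y z} from hz)]
      have h0 : 0 ≤ η * ρ * (√s + η * ρ) * W ^ 2 := by positivity
      have h1 := uu_lip e hu z y
      have h2 := c.2.1
      rw [hg, hd] at h2
      rw [hd] at h1
      have h3 : 0 ≤ ‖uu z - uu y‖ ^ 2 / 2 := by positivity
      have h4 : dist y z ^ 2 / 2 + 2 * n * dist y z ^ 2 ≤ 3 * n * dist y z ^ 2 := by
        have : 0 ≤ dist y z ^ 2 := sq_nonneg _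
        nlinarith
      have h5 : 3 * n * dist y z ^ 2 ≤ 3 * n * s * W ^ 2 := by
        rw [mul_assoc _ s]
        exact mul_le_mul_of_nonneg_left hd2 (by positivity)
      rw [abs_le]
      constructor
      · have := c.1
        have h6 : 0 ≤ dist y z ^ 2 := sq_nonneg _
        linarith
      · have h6 : 0 ≤ 2 * n * dist y z ^ 2 := by positivity
        linarith
    · rw [indicator_of_notMem (show z ∉ {z | R * ρ / 4 ≤ dist y z} from hz), mul_zero, add_zero]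
      rw [not_le] at hz
      have hz1 : dist y z < 1 / 4 := lt_of_lt_of_le hz (by linarith)
      have h0 : gg y z ≤ 1 / 2 := by
        rw [hg, hd]
        have : 0 ≤ dist y z := dist_nonneg
        nlinarith
      rw [hw, min_eq_left h0, hg]
      have hyo : dist y o < R * ρ := by
        have : 0 < R * ρ := by positivity
        linarith
      have hzo : dist z o < R * ρ := by
        have := dist_triangle z y o
        rw [hd] at this
        linarith
      have h1 := gX_near hu hη hyo hzo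
      have e1 : dist z y ^ 2 / 2 - 1 / 2 + 1 / 2 - ‖uu z - uu y‖ ^ 2 / 2
          = dist z y ^ 2 / 2 - ‖uu z - uu y‖ ^ 2 / 2 := by ring
      rw [e1]
      refine h1.trans ?_
      rw [hd, mul_assoc _ _ (W ^ 2)]
      refine mul_le_mul_of_nonneg_left ?_ hηρ
      have h2 : √s * W ≤ √s * W ^ 2 := mul_le_mul_of_nonneg_left hW2 q0
      have h3 : η * ρ ≤ η * ρ * W ^ 2 := le_mul_of_one_le_right hηρ hW3
      linarith [add_mul (√s) (η * ρ) (W ^ 2)]
  have e2 : Hd m n y t uu z = (H71.bb m y t z + 1 / 2 - n * t - (w + 1 / 2))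
      + (w + 1 / 2 - ‖uu z - uu y‖ ^ 2 / 2) := by
    unfold Hd; ring
  rw [e2]
  refine (abs_add_le _ _).trans ((add_le_add a s2).trans ?_)
  have e3 : ((|K| + 1) * Real.exp (|K| + 1) * t * (s + n * t) + η * ρ * (√s + η * ρ)) * W ^ 2
      = (|K| + 1) * Real.exp (|K| + 1) * t * (s + n * t) * W ^ 2
        + η * ρ * (√s + η * ρ) * W ^ 2 := by ring
  rw [e3]
  linarith

/-- `L¹` bound, raw form -/
theorem hd_L1a (e : Env m n K o A p) {R Q η ρ : ℝ} {u : Fin n → M →ₘ[m] ℝ} {uu : M → E n}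
    (hu : Cfg m n K o p R Q η ρ u uu) (hη : 0 ≤ η) (hR : 0 < R) {y : M}
    (hy : dist y o < 3 / 4 * (R * ρ)) {s t D : ℝ} (hs : 0 < s) (hs1 : 8 * A ^ 2 * s ≤ 1)
    (ht : 0 < t) (ht1 : t ≤ 1) (hD : ∀ τ ∈ Ioo 0 t, nu m n K p y (s + τ) y ≤ D) :
    Integrable (fun z => p s y z * Hd m n y t uu z) m ∧
    pt m p s (fun z => |Hd m n y t uu z|) y ≤ Real.exp ((|K| + 1) * t) * (D * t)
      + (((|K| + 1) * Real.exp (|K| + 1) * t * (s + n * t) + η * ρ * (√s + η * ρ)) * cM n A 2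
      + 3 * n * s * (cM n A 2 * Real.exp (-((R * ρ / 4) ^ 2 / (4 * A * s))))) := by
  have hρ := hu.ρ_pos
  have hRρ := hu.Rρ
  have hy1 : dist y o ≤ 1 := by
    have : 0 < R * ρ := by positivity
    linarith
  have hn : (0 : ℝ) ≤ n := Nat.cast_nonneg n
  obtain ⟨a1, a2⟩ := e_L1 e y hs ht hD
  obtain ⟨b1, b2⟩ := mom e.ker e.kb hs hs1 hy1 2
  obtain ⟨c1, c2⟩ := tl e.ker e.kb hs hs1 hy1 2 (r := R * ρ / 4) (by positivity)
  set c := (|K| + 1) * Real.exp (|K| + 1) * t * (s + n * t) + η * ρ * (√s + η * ρ) with hc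
  have hc0 : 0 ≤ c := by positivity
  obtain ⟨b3, b4⟩ := pt_cmul c b1
  obtain ⟨c3, c4⟩ := pt_cmul (3 * n * s) c1
  obtain ⟨d1, d2⟩ := pt_add b3 c3
  obtain ⟨f1, f2⟩ := pt_add a1 d1
  have hm := Hd_meas hu y t
  have hle := hd_le e hu hη hR hy hs ht ht1
  have i1 : Integrable (fun z => p s y z * |Hd m n y t uu z|) m := by
    refine f1.mono' ((ph_meas e.ker hs y).mul (by simpa using hm.norm)) ?_
    filter_upwards [hle] with z hz
    rw [Real.norm_eq_abs, abs_mul, abs_of_nonneg (e.ker.nonneg s hs y z), abs_abs]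
    exact mul_le_mul_of_nonneg_left hz (e.ker.nonneg s hs y z)
  have i0 : Integrable (fun z => p s y z * Hd m n y t uu z) m := by
    refine i1.mono' ((ph_meas e.ker hs y).mul hm) ?_
    filter_upwards with z
    rw [Real.norm_eq_abs, abs_mul, abs_of_nonneg (e.ker.nonneg s hs y z)]
  refine ⟨i0, (pt_mono e.ker hs y i1 f1 hle).trans ?_⟩
  rw [f2, d2, b4, c4]
  have g1 := mul_le_mul_of_nonneg_left b2 hc0
  have g2 := mul_le_mul_of_nonneg_left c2 (by positivity : 0 ≤ 3 * n * s)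
  linarith

/-- the small quantity, `L` the parameter of the window of times -/
noncomputable def sm (C L η δ t : ℝ) : ℝ := δ + t + η * L + Real.exp (-(L / C))

/-- the four terms of the `L¹` bound -/
theorem sm_real {A Γ B K₁ E N c L C R ρ t s δ η X₁ : ℝ} (hA : 0 < A) (hΓ : 1 ≤ Γ)
    (hB : 0 ≤ B) (hK : 0 ≤ K₁) (hE : 0 ≤ E) (hN : 0 ≤ N) (hc : 0 ≤ c) (hδ : 0 ≤ δ) (hη : 0 ≤ η)
    (hηL : η * L ≤ 1) (hL : 0 < L) (hR : 1 ≤ R) (hρ : 0 < ρ) (ht : 0 < t) (hs : 0 < s)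
    (hsΓ : s ≤ Γ * t) (ht1 : ρ ^ 2 ≤ L ^ 2 * t) (htL : L * t ≤ ρ ^ 2) (hX : X₁ ≤ E)
    (hC0 : 0 < C) (c1 : E * B ≤ C) (c2 : K₁ * E * (Γ + N) * c ≤ C) (c3 : (Γ + 1) * c ≤ C)
    (c4 : 3 * N * Γ * c ≤ C) (c5 : 64 * A * Γ ≤ C) :
    X₁ * (B * δ * t) + ((K₁ * E * t * (s + N * t) + η * ρ * (√s + η * ρ)) * c
      + 3 * N * s * (c * Real.exp (-((R * ρ / 4) ^ 2 / (4 * A * s)))))
      ≤ C * t * sm C L η δ t := by
  have qt : 0 < √t := Real.sqrt_pos.2 ht
  have qt2 : √t * √t = t := Real.mul_self_sqrt ht.le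
  have hρt : ρ ≤ L * √t := by
    have h7 : L * √t = √(L ^ 2 * t) := by
      rw [Real.sqrt_mul (by positivity), Real.sqrt_sq hL.le]
    rw [h7]
    exact Real.le_sqrt_of_sq_le ht1
  have hst : √s ≤ Γ * √t := by
    have h7 : Γ * √t = √(Γ ^ 2 * t) := by
      rw [Real.sqrt_mul (by positivity), Real.sqrt_sq (by linarith)]
    rw [h7]
    refine Real.sqrt_le_sqrt (hsΓ.trans ?_)
    refine mul_le_mul_of_nonneg_right ?_ ht.le
    nlinarith
  have t1 : X₁ * (B * δ * t) ≤ C * (t * δ) := by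
    calc X₁ * (B * δ * t) ≤ E * (B * δ * t) := mul_le_mul_of_nonneg_right hX (by positivity)
      _ = E * B * (t * δ) := by ring
      _ ≤ C * (t * δ) := mul_le_mul_of_nonneg_right c1 (by positivity)
  have t2 : K₁ * E * t * (s + N * t) * c ≤ C * (t * t) := by
    calc K₁ * E * t * (s + N * t) * c
        ≤ K₁ * E * t * (Γ * t + N * t) * c := by gcongr
      _ = K₁ * E * (Γ + N) * c * (t * t) := by ring
      _ ≤ C * (t * t) := mul_le_mul_of_nonneg_right c2 (by positivity)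
  have hηρ : η * ρ ≤ η * L * √t := by
    rw [mul_assoc]
    exact mul_le_mul_of_nonneg_left hρt hη
  have t3 : η * ρ * (√s + η * ρ) * c ≤ C * (t * (η * L)) := by
    have h6 : η * ρ ≤ √t := by
      refine hηρ.trans ?_
      exact mul_le_of_le_one_left qt.le hηL
    calc η * ρ * (√s + η * ρ) * c
        ≤ η * L * √t * (Γ * √t + √t) * c := by gcongr
      _ = (Γ + 1) * c * ((√t * √t) * (η * L)) := by ring
      _ = (Γ + 1) * c * (t * (η * L)) := by rw [qt2]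
      _ ≤ C * (t * (η * L)) := mul_le_mul_of_nonneg_right c3 (by positivity)
  have t4 : 3 * N * s * (c * Real.exp (-((R * ρ / 4) ^ 2 / (4 * A * s))))
      ≤ C * (t * Real.exp (-(L / C))) := by
    have h6 : L / C ≤ (R * ρ / 4) ^ 2 / (4 * A * s) := by
      rw [div_le_div_iff₀ hC0 (by positivity)]
      have h7 : L * (4 * A * s) ≤ 4 * A * Γ * ρ ^ 2 := by
        calc L * (4 * A * s) ≤ L * (4 * A * (Γ * t)) := by gcongr
          _ = 4 * A * Γ * (L * t) := by ring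
          _ ≤ 4 * A * Γ * ρ ^ 2 := mul_le_mul_of_nonneg_left htL (by positivity)
      have h8 : 4 * A * Γ * ρ ^ 2 ≤ (R * ρ / 4) ^ 2 * C := by
        have h9 : ρ ^ 2 ≤ (R * ρ) ^ 2 := by
          rw [mul_pow]
          exact le_mul_of_one_le_left (by positivity) (one_le_pow₀ hR)
        calc 4 * A * Γ * ρ ^ 2 ≤ 4 * A * Γ * (R * ρ) ^ 2 :=
              mul_le_mul_of_nonneg_left h9 (by positivity)
          _ = (R * ρ / 4) ^ 2 * (64 * A * Γ) := by ring
          _ ≤ _ := mul_le_mul_of_nonneg_left c5 (by positivity)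
      exact h7.trans h8
    calc 3 * N * s * (c * Real.exp (-((R * ρ / 4) ^ 2 / (4 * A * s))))
        ≤ 3 * N * (Γ * t) * (c * Real.exp (-(L / C))) := by gcongr
      _ = 3 * N * Γ * c * (t * Real.exp (-(L / C))) := by ring
      _ ≤ _ := mul_le_mul_of_nonneg_right c4 (by positivity)
  have e1 : (K₁ * E * t * (s + N * t) + η * ρ * (√s + η * ρ)) * c
      = K₁ * E * t * (s + N * t) * c + η * ρ * (√s + η * ρ) * c := by ring
  have e2 : C * t * sm C L η δ t = C * (t * δ) + C * (t * t) + C * (t * (η * L))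
      + C * (t * Real.exp (-(L / C))) := by unfold sm; ring
  rw [e1, e2]
  linarith

/-- **`L¹` closeness** -/
theorem hd_L1 (e : Env m n K o A p) {Γ : ℝ} (hΓ : 1 ≤ Γ) : ∃ C : ℝ, 1 ≤ C ∧
    ∀ (L R Q η δ ρ : ℝ) (u : Fin n → M →ₘ[m] ℝ) (uu : M → E n), C ≤ L → 1 ≤ R → 1 ≤ Q →
      0 ≤ η → η * L ≤ 1 → Cfg m n K o p R Q η ρ u uu → DropS m n K o p R Q δ ρ →
      ∀ y, dist y o < 3 / 4 * (R * ρ) → ∀ t s, ρ ^ 2 / L ^ 2 ≤ t → t ≤ ρ ^ 2 / L → t ≤ s →
        s ≤ Γ * t →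
        0 ≤ δ ∧ 8 * A ^ 2 * s ≤ 1 ∧ nu m n K p y s y ≤ C * δ ∧
        Integrable (fun z => p s y z * Hd m n y t uu z) m ∧
        pt m p s (fun z => |Hd m n y t uu z|) y ≤ C * t * sm C L η δ t := by
  obtain ⟨B, Λ₁, hB, hΛ, hν⟩ := nu_small e (Γ := Γ + 1) (by linarith)
  have hA := e.kb.one_le
  have hA0 := e.kb.pos
  have hc2 := cM_pos (n := n) hA 2
  have hE0 := Real.exp_pos (|K| + 1)
  have hn : (0 : ℝ) ≤ n := Nat.cast_nonneg n
  have hK : 0 ≤ |K| + 1 := by positivity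
  have h1 : 0 ≤ Real.exp (|K| + 1) * B := by positivity
  have h2 : 0 ≤ (|K| + 1) * Real.exp (|K| + 1) * (Γ + n) * cM n A 2 := by positivity
  have h3 : 0 ≤ (Γ + 1) * cM n A 2 := by positivity
  have h4 : 0 ≤ 3 * n * Γ * cM n A 2 := by positivity
  have h5 : 0 ≤ 64 * A * Γ := by positivity
  have h6 : 0 ≤ 16 * A ^ 2 * Γ := by positivity
  obtain ⟨C, hC⟩ : ∃ C : ℝ, C = B + Real.exp (|K| + 1) * B
    + (|K| + 1) * Real.exp (|K| + 1) * (Γ + n) * cM n A 2 + (Γ + 1) * cM n A 2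
    + 3 * n * Γ * cM n A 2 + (64 * A * Γ + 16 * A ^ 2 * Γ + Λ₁) := ⟨_, rfl⟩
  have hC1 : 1 ≤ C := by linarith
  refine ⟨C, hC1, ?_⟩
  intro L R Q η δ ρ u uu hCL hR hQ hη hηL hu hd y hy t s ht1 ht2 hts hsΓ
  have hρ := hu.ρ_pos
  have hL1 : 1 ≤ L := hC1.trans hCL
  have hL0 : 0 < L := by linarith
  have ht : 0 < t := lt_of_lt_of_le (by positivity) ht1
  have hs : 0 < s := ht.trans_le hts
  have hρ2 : ρ ^ 2 ≤ 1 / 2 := by
    have := hu.Qρ
    have h6 : ρ ^ 2 ≤ Q * ρ ^ 2 := le_mul_of_one_le_left (by positivity) hQ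
    linarith
  have htL : L * t ≤ ρ ^ 2 := by
    rw [le_div_iff₀ hL0] at ht2
    linarith
  have k1 : 16 * A ^ 2 * Γ * t ≤ ρ ^ 2 :=
    le_trans (mul_le_mul_of_nonneg_right (by linarith) ht.le) htL
  have k2 : Λ₁ * t ≤ ρ ^ 2 :=
    le_trans (mul_le_mul_of_nonneg_right (by linarith) ht.le) htL
  have hQρ2 : ρ ^ 2 ≤ Q * ρ ^ 2 := le_mul_of_one_le_left (by positivity) hQ
  have hs1 : 8 * A ^ 2 * s ≤ 1 := by
    have : 8 * A ^ 2 * s ≤ 8 * A ^ 2 * (Γ * t) := mul_le_mul_of_nonneg_left hsΓ (by positivity)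
    linarith
  have ht11 : t ≤ 1 := by
    have : t ≤ L * t := le_mul_of_one_le_left ht.le hL1
    linarith
  have hRρ : 0 < R * ρ := by positivity
  have hνs : ∀ s', t ≤ s' → s' ≤ (Γ + 1) * t → 0 ≤ nu m n K p y s' y ∧ nu m n K p y s' y ≤ B * δ :=
    fun s' a b => hν y t s' R Q δ ρ hd (by linarith) hu.Rρ hu.Qρ ht a b (k2.trans hQρ2)
  have hδ : 0 ≤ δ := by
    have h6 := hνs t le_rfl (by nlinarith)
    have h7 := h6.1.trans h6.2
    by_contra hc
    rw [not_le] at hc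
    nlinarith
  have key := hd_L1a e hu hη (by linarith) hy hs hs1 ht ht11 (D := B * δ)
    (fun τ hτ => (hνs (s + τ) (by linarith [hτ.1]) (by linarith [hτ.2])).2)
  have hνC : nu m n K p y s y ≤ C * δ := by
    refine (hνs s hts (by linarith)).2.trans ?_
    exact mul_le_mul_of_nonneg_right (by linarith) hδ
  have ht1' : ρ ^ 2 ≤ L ^ 2 * t := by
    rw [div_le_iff₀ (by positivity)] at ht1
    linarith
  refine ⟨hδ, hs1, hνC, key.1, key.2.trans ?_⟩
  exact sm_real hA0 hΓ (by linarith) hK hE0.le hn hc2.le hδ hη hηL hL0 hR hρ ht hs hsΓ ht1' htL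
    (Real.exp_le_exp.2 (mul_le_of_le_one_right (by positivity) ht11)) (by linarith)
    (by linarith) (by linarith) (by linarith) (by linarith) (by linarith)

end Vale.Agent.P242.H520
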