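import Vale.Agent.P242.H520.St3
import Vale.Agent.P233.N2.H982.RH2

/-! P242, package A-START (helper520), part 4: the class `h = b - ∑ ½ (u_i - u_i(y))²`, `L²` closeness
and the Dirichlet energy. -/

set_option linter.all false

open MeasureTheory Filter Topology Set Metric
open scoped ENNReal NNReal InnerProductSpace

universe u

namespace Vale.Agent.P242.H520

open Vale.Agent.P233 Vale.Agent.P233.RA Vale.Agent.P242.H71 Vale.Agent.P242.H990

section abs

variable {M : Type*} [MeasurableSpace M] {m : Measure M} {C : Calc m}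

/-- Dirichlet energy, shifted by a constant -/
theorem dir_shift (hC : IsDir C) {a h a' h' : M →ₘ[m] ℝ} (ha : a ∈ C.A) (hh : h ∈ C.A)
    (haa : C.IsLap a a') (hhh : C.IsLap h h') (ha1 : MemLp a' 1 m) (ha0 : I a' = 0) (c : ℝ) :
    2 * I (a * C.Γ h h) = I (a' * (h + c • 1) ^ 2) - 2 * I (a * ((h + c • 1) * h')) := by
  have e := hC.lap_sq_identity ha hh haa hhh
  have e1 : I (C.Γ a h) = -I (a' * h) := haa.2.2 _ hh.1
  have e2 : I (C.Γ h a) = -I (h' * a) := hhh.2.2 _ ha.1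
  rw [hC.symm _ hh.1 _ ha.1] at e2
  have m1 : MemLp (a' * h : M →ₘ[m] ℝ) 1 m := by
    rw [mul_comm]; exact mem_mul_top hh.2 ha1
  have m2 : MemLp (a' * h ^ 2 : M →ₘ[m] ℝ) 1 m := by
    have : a' * h ^ 2 = h * (a' * h) := by ring
    rw [this]
    exact mem_mul_top hh.2 m1
  have m3 : MemLp (h' * a : M →ₘ[m] ℝ) 1 m := mem_mul_22 hhh.2.1 (hC.memLp _ ha.1)
  have m4 : MemLp (a * h * h' : M →ₘ[m] ℝ) 1 m := by
    have : a * h * h' = h * (h' * a) := by ring
    rw [this]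
    exact mem_mul_top hh.2 m3
  have x1 : a' * (h + c • 1) ^ 2 = a' * h ^ 2 + (2 * c) • (a' * h) + (c ^ 2) • a' := by
    algebra
  have x2 : a * ((h + c • 1) * h') = a * h * h' + c • (h' * a) := by algebra
  rw [x1, x2, I_add (mem_add m2 (mem_smul _ m1)) (mem_smul _ ha1), I_add m2 (mem_smul _ m1),
    I_add m4 (mem_smul _ m3), I_smul, I_smul, I_smul, ha0]
  have e3 : I (a' * h) = I (h' * a) := by linarith
  rw [e3]
  linarith

theorem lap_sum (hC : IsGamma C) {ι : Type*} (s : Finset ι) {F : ι → M →ₘ[m] ℝ}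
    (hF : ∀ i ∈ s, F i ∈ C.TestI) : C.lap (∑ i ∈ s, F i) = ∑ i ∈ s, C.lap (F i) := by
  have hD := hC.toIsDir
  classical
  induction s using Finset.induction_on with
  | empty =>
    simp only [Finset.sum_empty]
    refine hD.lap_eq ⟨hD.zero_mem, mem_zero, fun g hg => ?_⟩
    show I (C.Γ 0 g) = -I (0 * g)
    rw [hD.Γ_zero_left hg, zero_mul, I_zero, neg_zero]
  | insert a s ha ih =>
    rw [Finset.sum_insert ha, Finset.sum_insert ha, ← ih fun i hi => hF i (Finset.mem_insert_of_mem hi)]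
    exact hD.lap_eq (hD.isLap_add (hC.test_isLap (hF a (Finset.mem_insert_self _ _)).1)
      (hC.test_isLap (hC.tI_sum s fun i hi => hF i (Finset.mem_insert_of_mem hi)).1))

end abs

variable {M : Type u} [MetricSpace M] [CompleteSpace M] [SecondCountableTopology M]
  [MeasurableSpace M] [BorelSpace M] {m : Measure M} {n : ℕ} {K A : ℝ} {o : M}
  {p : ℝ → M → M → ℝ}

section cls

/-- the class `b - ∑ (½ u_i² - u_i(y) u_i)` -/
noncomputable def hh (m : Measure M) {n : ℕ} (y : M) (t : ℝ) (u : Fin n → M →ₘ[m] ℝ)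
    (uu : M → E n) : M →ₘ[m] ℝ :=
  H71.bb m y t - ∑ i, H363.hsq (u i) (uu y i)

/-- the constant: `h + c = b' - ½ |u - u(y)|²` -/
noncomputable def hc (n : ℕ) (y : M) (t : ℝ) (uu : M → E n) : ℝ :=
  1 / 2 - n * t - ‖uu y‖ ^ 2 / 2

variable {R Q η ρ : ℝ} {u : Fin n → M →ₘ[m] ℝ} {uu : M → E n}

theorem hsq_ae (f : M →ₘ[m] ℝ) (c : ℝ) : ∀ᵐ z ∂m, H363.hsq f c z = f z ^ 2 / 2 - c * f z := by
  filter_upwards [sub_ae ((2 : ℝ)⁻¹ • (f * f)) (c • f), smul_ae (f * f) (2 : ℝ)⁻¹, smul_ae f c,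
    mul_ae f f] with z h1 h2 h3 h4
  unfold H363.hsq
  rw [h1, h2, h3, h4]
  ring

theorem hh_ae (hu : Cfg m n K o p R Q η ρ u uu) (y : M) (t : ℝ) :
    ∀ᵐ z ∂m, (hh m y t u uu + hc n y t uu • (1 : M →ₘ[m] ℝ)) z = Hd m n y t uu z := by
  filter_upwards [add_ae (hh m y t u uu) (hc n y t uu • (1 : M →ₘ[m] ℝ)),
    smul_ae (1 : M →ₘ[m] ℝ) (hc n y t uu), one_ae (M := M) (m := m),
    sub_ae (H71.bb m y t) (∑ i, H363.hsq (u i) (uu y i)),
    H924.sum_ae' Finset.univ (fun i => H363.hsq (u i) (uu y i)),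
    ae_all_iff.2 fun i => hsq_ae (u i) (uu y i), ae_all_iff.2 hu.rep] with z a1 a2 a3 a4 a5 a6 a7
  rw [a1, a2, a3]
  unfold hh
  rw [a4, a5]
  unfold Hd hc
  rw [EuclideanSpace.real_norm_sq_eq, EuclideanSpace.real_norm_sq_eq]
  have e1 : ∑ i, (H363.hsq (u i) (uu y i)) z
      = (∑ i, (uu z - uu y).ofLp i ^ 2) / 2 - (∑ i, (uu y).ofLp i ^ 2) / 2 := by
    rw [Finset.sum_div, Finset.sum_div, ← Finset.sum_sub_distrib]
    refine Finset.sum_congr rfl fun i _ => ?_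
    rw [a6, a7]
    have : (uu z - uu y).ofLp i = uu z i - uu y i := rfl
    rw [this]
    ring
  rw [e1]
  ring

theorem bb_test (e : Env m n K o A p) (y : M) {t : ℝ} (ht : 0 < t) :
    H71.bb m y t ∈ (sob m).Test := by
  have hC := H751.env_gamma e
  have hA := (H254.vx_of e.hyp y).memA
  exact IsGamma.P_test_pos hC (H751.env_bei e) ht (hC.memLp _ hA.1) hA.2

theorem hsq_tI (e : Env m n K o A p) (hu : Cfg m n K o p R Q η ρ u uu) (y : M) (i : Fin n) :
    H363.hsq (u i) (uu y i) ∈ (sob m).TestI :=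
  H363.hsq_testI (H751.env_gamma e) (H751.env_bei e) (hu.test i) _

theorem hh_test (e : Env m n K o A p) (hu : Cfg m n K o p R Q η ρ u uu) (y : M) {t : ℝ}
    (ht : 0 < t) : hh m y t u uu ∈ (sob m).Test := by
  have hC := H751.env_gamma e
  have h1 := (hC.tI_sum Finset.univ fun i _ => hsq_tI e hu y i).1
  have h2 := hC.test_add' (bb_test e y ht) (hC.test_smul' (-1) h1)
  have e1 : hh m y t u uu
      = H71.bb m y t + (-1 : ℝ) • ∑ i, H363.hsq (u i) (uu y i) := by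
    unfold hh; module
  rw [e1]
  exact h2

theorem hh_lap (e : Env m n K o A p) (hu : Cfg m n K o p R Q η ρ u uu) (y : M) {t : ℝ}
    (ht : 0 < t) : (sob m).lap (hh m y t u uu) = (sob m).lap (H71.bb m y t)
      - ∑ i, ((u i - uu y i • 1) * (sob m).lap (u i) + (sob m).Γ (u i) (u i)) := by
  have hC := H751.env_gamma e
  have hB := H751.env_bei e
  have hD := hC.toIsDir
  have h1 := (hC.tI_sum Finset.univ fun i _ => hsq_tI e hu y i).1
  have e1 : hh m y t u uu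
      = H71.bb m y t + (-1 : ℝ) • ∑ i, H363.hsq (u i) (uu y i) := by
    unfold hh; module
  rw [e1, hD.lap_eq (hD.isLap_add (hC.test_isLap (bb_test e y ht))
    (hD.isLap_smul (-1) (hC.test_isLap h1))), lap_sum hC Finset.univ fun i _ => hsq_tI e hu y i]
  have e2 : ∀ i, (sob m).lap (H363.hsq (u i) (uu y i))
      = (u i - uu y i • 1) * (sob m).lap (u i) + (sob m).Γ (u i) (u i) := fun i =>
    H363.hsq_lap hC hB (hu.test i).1 _
  simp_rw [e2]
  module

theorem hh_Γ (e : Env m n K o A p) (hu : Cfg m n K o p R Q η ρ u uu) (y : M) {t : ℝ}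
    (ht : 0 < t) {f : M →ₘ[m] ℝ} (hf : f ∈ (sob m).W) :
    (sob m).Γ (hh m y t u uu) f = (sob m).Γ (H71.bb m y t) f
      - ∑ i, (u i - uu y i • 1) * (sob m).Γ (u i) f := by
  have hC := H751.env_gamma e
  have hB := H751.env_bei e
  have hD := hC.toIsDir
  have h1 := (hC.test_A (hC.tI_sum Finset.univ fun i _ => hsq_tI e hu y i).1).1
  have h2 := (hC.test_A (bb_test e y ht)).1
  have h3 := (hC.test_A (hh_test e hu y ht)).1
  unfold hh at h3 ⊢
  rw [hD.Γ_sub_left h2 h1 hf, hD.Γ_sum_left _ (fun i => (hC.test_A (hsq_tI e hu y i).1).1) hf]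
  congr 1
  refine Finset.sum_congr rfl fun i _ => ?_
  rw [hD.symm _ (hC.test_A (hsq_tI e hu y i).1).1 _ hf, H363.hsq_Γ hC hB (hu.test i).1 _ hf,
    hD.symm _ hf _ (hC.test_A (hu.test i).1).1]

end cls

section weight

variable (hp : Ker0 m p) (hk : KB n o A p)
include hp hk

theorem pt_wt {s : ℝ} (hs : 0 < s) (hs1 : 8 * A ^ 2 * s ≤ 1) {y : M} (hy : dist y o ≤ 1) (N : ℕ)
    {F : M → ℝ} (hF : AEStronglyMeasurable F m)
    (hi : Integrable (fun z => p (4 * A ^ 2 * s) y z * F z) m) :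
    Integrable (fun z => p s y z * (wt y s z ^ N * F z)) m ∧
      pt m p s (fun z => wt y s z ^ N * |F z|) y
        ≤ cM n A N * pt m p (4 * A ^ 2 * s) (fun z => |F z|) y := by
  have hA := hk.one_le
  have hA0 := hk.pos
  have hs' : 0 < 4 * A ^ 2 * s := by positivity
  have h := pt_weight hp hk (Γ := 4 * A ^ 2) (C₀ := 0) (x := y) (x' := y) hs le_rfl le_rfl
    (by linarith) (by simp) hF hi N 0
  have e0 : ∀ z, (1 + dist y z / √s) ^ N * Real.exp (0 * dist y z) = wt y s z ^ N := by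
    intro z
    rw [zero_mul, Real.exp_zero, mul_one]
    rfl
  simp only [e0] at h
  refine ⟨h.1, h.2.trans ?_⟩
  have h0 : 0 ≤ pt m p (4 * A ^ 2 * s) (fun z => |F z|) y :=
    pt_nonneg hp hs' y (Eventually.of_forall fun z => abs_nonneg _)
  refine mul_le_mul_of_nonneg_right ?_ h0
  unfold cM
  have c0 := cW_pos (A := A) (N := N)
  have g0 := cG_pos (n := n) (C₀ := 0) hA (show (0 : ℝ) < 4 * A ^ 2 by positivity)
  have e4 : Real.exp (2 * A * dist y o) ≤ Real.exp (2 * A) :=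
    Real.exp_le_exp.2 (by nlinarith)
  have e5 : Real.exp (A * 0 ^ 2) = 1 := by simp
  rw [e5, mul_one]
  exact mul_le_mul_of_nonneg_left e4 (by positivity)

omit hp hk in
theorem wt_le_wt {y : M} {s t Γ : ℝ} (ht : 0 < t) (hts : t ≤ s) (hsΓ : s ≤ Γ * t) (z : M) :
    wt y t z ^ 2 ≤ Γ * wt y s z ^ 2 := by
  have hs : 0 < s := ht.trans_le hts
  have qt : 0 < √t := Real.sqrt_pos.2 ht
  have qs : 0 < √s := Real.sqrt_pos.2 hs
  have h1 : √t * wt y t z ≤ √s * wt y s z := by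
    unfold wt
    rw [mul_add, mul_add, mul_div_cancel₀ _ qt.ne', mul_div_cancel₀ _ qs.ne']
    have := Real.sqrt_le_sqrt hts
    linarith
  have h2 := pow_le_pow_left₀ (mul_nonneg qt.le (wt_pos y t z).le) h1 2
  rw [mul_pow, mul_pow, Real.sq_sqrt ht.le, Real.sq_sqrt hs.le] at h2
  have h3 : s * wt y s z ^ 2 ≤ Γ * t * wt y s z ^ 2 :=
    mul_le_mul_of_nonneg_right hsΓ (sq_nonneg _)
  have h4 : t * wt y t z ^ 2 ≤ t * (Γ * wt y s z ^ 2) := by linarith
  exact le_of_mul_le_mul_left h4 ht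

end weight

theorem sm_mono {C C' L η δ t : ℝ} (hC : 0 < C) (h : C ≤ C') (hL : 0 ≤ L) :
    sm C L η δ t ≤ sm C' L η δ t := by
  unfold sm
  have h1 : L / C' ≤ L / C := div_le_div_of_nonneg_left hL hC h
  have h2 : Real.exp (-(L / C)) ≤ Real.exp (-(L / C')) := Real.exp_le_exp.2 (by linarith)
  linarith

theorem sm_nonneg {C L η δ t : ℝ} (hδ : 0 ≤ δ) (ht : 0 ≤ t) (hη : 0 ≤ η) (hL : 0 ≤ L) :
    0 ≤ sm C L η δ t := by
  unfold sm
  have := Real.exp_pos (-(L / C))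
  have := mul_nonneg hη hL
  linarith

/-- **`L²` closeness** -/
theorem hd_L2 (e : Env m n K o A p) {Γ : ℝ} (hΓ : 1 ≤ Γ) : ∃ C : ℝ, 1 ≤ C ∧
    ∀ (L R Q η δ ρ : ℝ) (u : Fin n → M →ₘ[m] ℝ) (uu : M → E n), C ≤ L → 1 ≤ R → 1 ≤ Q →
      0 ≤ η → η * L ≤ 1 → Cfg m n K o p R Q η ρ u uu → DropS m n K o p R Q δ ρ →
      ∀ y, dist y o < 3 / 4 * (R * ρ) → ∀ t s, ρ ^ 2 / L ^ 2 ≤ t → t ≤ ρ ^ 2 / L → t ≤ s →
        s ≤ Γ * t →
        Integrable (fun z => p s y z * Hd m n y t uu z ^ 2) m ∧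
        pt m p s (fun z => Hd m n y t uu z ^ 2) y ≤ C * t ^ 2 * sm C L η δ t := by
  have hA := e.kb.one_le
  have hA0 := e.kb.pos
  have hA2 : 1 ≤ A ^ 2 := one_le_pow₀ hA
  obtain ⟨C, hC1, h⟩ := hd_L1 e (Γ := 4 * A ^ 2 * Γ) (by nlinarith)
  have hcP := cP_pos n K
  have hcM := cM_pos (n := n) hA 2
  refine ⟨C + cP n K * Γ * cM n A 2 * C, by nlinarith [mul_pos hcP hcM, mul_pos (mul_pos (mul_pos hcP (by linarith : 0 < Γ)) hcM) (by linarith : 0 < C)], ?_⟩
  intro L R Q η δ ρ u uu hCL hR hQ hη hηL hu hd y hy t s ht1 ht2 hts hsΓ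
  have hρ := hu.ρ_pos
  have hc0 : 0 ≤ cP n K * Γ * cM n A 2 * C := by positivity
  have hCL' : C ≤ L := by linarith
  have hL0 : 0 < L := by linarith
  have ht : 0 < t := lt_of_lt_of_le (by positivity) ht1
  have hs : 0 < s := ht.trans_le hts
  have hs4 : s ≤ 4 * A ^ 2 * s := le_mul_of_one_le_left hs.le (by linarith)
  obtain ⟨hδ, h8, -, i1, k1⟩ := h L R Q η δ ρ u uu hCL' hR hQ hη hηL hu hd y hy t (4 * A ^ 2 * s)
    ht1 ht2 (hts.trans hs4) (by nlinarith)
  have hRρ := hu.Rρ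
  have hy1 : dist y o ≤ 1 := by
    have : 0 < R * ρ := by positivity
    linarith
  have hs1 : 8 * A ^ 2 * s ≤ 1 := by
    have : 8 * A ^ 2 * s ≤ 8 * A ^ 2 * (4 * A ^ 2 * s) := mul_le_mul_of_nonneg_left hs4 (by positivity)
    linarith
  have ht11 : t ≤ 1 := by
    have : s ≤ 8 * A ^ 2 * s := le_mul_of_one_le_left hs.le (by linarith)
    linarith
  have hm := Hd_meas hu y t
  obtain ⟨j1, j2⟩ := pt_wt e.ker e.kb hs hs1 hy1 2 hm i1
  have j1' : Integrable (fun z => p s y z * (wt y s z ^ 2 * |Hd m n y t uu z|)) m := by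
    refine j1.abs.congr (Eventually.of_forall fun z => ?_)
    show |p s y z * (wt y s z ^ 2 * Hd m n y t uu z)| = _
    rw [abs_mul, abs_mul, abs_of_nonneg (e.ker.nonneg s hs y z),
      abs_of_nonneg (sq_nonneg (wt y s z))]
  obtain ⟨l1, l2⟩ := pt_cmul (cP n K * t * Γ) j1'
  have hle : ∀ᵐ z ∂m, Hd m n y t uu z ^ 2
      ≤ cP n K * t * Γ * (wt y s z ^ 2 * |Hd m n y t uu z|) := by
    filter_upwards [hd_pt e hu y ht ht11] with z hz
    have h1 := wt_le_wt (y := y) ht hts hsΓ z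
    have h2 := mul_le_mul_of_nonneg_left h1 (by positivity : 0 ≤ cP n K * t)
    rw [← sq_abs, sq]
    calc |Hd m n y t uu z| * |Hd m n y t uu z|
        ≤ (cP n K * t * (Γ * wt y s z ^ 2)) * |Hd m n y t uu z| :=
          mul_le_mul_of_nonneg_right (hz.trans h2) (abs_nonneg _)
      _ = _ := by ring
  have i2 : Integrable (fun z => p s y z * Hd m n y t uu z ^ 2) m := by
    refine l1.mono' ((ph_meas e.ker hs y).mul (hm.pow 2)) ?_
    filter_upwards [hle] with z hz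
    rw [Real.norm_eq_abs, abs_mul, abs_of_nonneg (e.ker.nonneg s hs y z),
      abs_of_nonneg (sq_nonneg _)]
    exact mul_le_mul_of_nonneg_left hz (e.ker.nonneg s hs y z)
  refine ⟨i2, (pt_mono e.ker hs y i2 l1 hle).trans ?_⟩
  rw [l2]
  have hsm : 0 ≤ sm C L η δ t := sm_nonneg hδ ht.le hη hL0.le
  have hsm2 : sm C L η δ t ≤ sm (C + cP n K * Γ * cM n A 2 * C) L η δ t :=
    sm_mono (by linarith) (by linarith) hL0.le
  calc cP n K * t * Γ * pt m p s (fun z => wt y s z ^ 2 * |Hd m n y t uu z|) y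
      ≤ cP n K * t * Γ * (cM n A 2 * (C * t * sm C L η δ t)) := by
        refine mul_le_mul_of_nonneg_left (j2.trans ?_) (by positivity)
        exact mul_le_mul_of_nonneg_left k1 hcM.le
    _ = (cP n K * Γ * cM n A 2 * C) * t ^ 2 * sm C L η δ t := by ring
    _ ≤ (C + cP n K * Γ * cM n A 2 * C) * t ^ 2 * sm C L η δ t := by
        refine mul_le_mul_of_nonneg_right (mul_le_mul_of_nonneg_right ?_ (by positivity)) hsm
        linarith
    _ ≤ _ := mul_le_mul_of_nonneg_left hsm2 (by positivity)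

end Vale.Agent.P242.H520
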