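import Vale.Agent.P242.H520.St4

/-! P242, package A-START (helper520), part 5: the Dirichlet energy of `b' - ½ |u - u(y)|²`. -/

set_option linter.all false

open MeasureTheory Filter Topology Set Metric
open scoped ENNReal NNReal InnerProductSpace

universe u

namespace Vale.Agent.P242.H520

open Vale.Agent.P233 Vale.Agent.P233.RA Vale.Agent.P242.H71 Vale.Agent.P242.H990

section lin

variable {M : Type u} [MetricSpace M] [MeasurableSpace M] {m : Measure M}
  {p : ℝ → M → M → ℝ} {s : ℝ} {x : M}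

theorem pt_sum {ι : Type*} (S : Finset ι) {F : ι → M → ℝ}
    (hF : ∀ i ∈ S, Integrable (fun z => p s x z * F i z) m) :
    Integrable (fun z => p s x z * ∑ i ∈ S, F i z) m ∧
      pt m p s (fun z => ∑ i ∈ S, F i z) x = ∑ i ∈ S, pt m p s (F i) x := by
  have e : (fun z => p s x z * ∑ i ∈ S, F i z) = fun z => ∑ i ∈ S, p s x z * F i z := by
    funext z; rw [Finset.mul_sum]
  refine ⟨by rw [e]; exact integrable_finset_sum _ hF, ?_⟩
  unfold pt
  rw [e, integral_finset_sum _ hF]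

theorem pt_abs_int (hp : Ker0 m p) (hs : 0 < s) {F G : M → ℝ} (hF : AEStronglyMeasurable F m)
    (hG : Integrable (fun z => p s x z * G z) m) (h : ∀ᵐ z ∂m, |F z| ≤ G z) :
    Integrable (fun z => p s x z * |F z|) m ∧ Integrable (fun z => p s x z * F z) m ∧
      pt m p s (fun z => |F z|) x ≤ pt m p s G x := by
  have i1 : Integrable (fun z => p s x z * |F z|) m := by
    refine hG.mono' ((ph_meas hp hs x).mul (by simpa using hF.norm)) ?_
    filter_upwards [h] with z hz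
    rw [Real.norm_eq_abs, abs_mul, abs_of_nonneg (hp.nonneg s hs x z), abs_abs]
    exact mul_le_mul_of_nonneg_left hz (hp.nonneg s hs x z)
  refine ⟨i1, ?_, pt_mono hp hs x i1 hG h⟩
  refine i1.mono' ((ph_meas hp hs x).mul hF) ?_
  filter_upwards with z
  rw [Real.norm_eq_abs, abs_mul, abs_of_nonneg (hp.nonneg s hs x z)]

end lin

variable {M : Type u} [MetricSpace M] [CompleteSpace M] [SecondCountableTopology M]
  [MeasurableSpace M] [BorelSpace M] {m : Measure M} {n : ℕ} {K A : ℝ} {o : M}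
  {p : ℝ → M → M → ℝ} {R Q η ρ : ℝ} {u : Fin n → M →ₘ[m] ℝ} {uu : M → E n}

theorem one_le_n (e : Env m n K o A p) : (1 : ℝ) ≤ n := by
  have := e.hyp.two_le
  exact_mod_cast (by omega : 1 ≤ n)

/-- mass of the Laplacian of the kernel -/
theorem I_lap_ph_zero (e : Env m n K o A p) {t : ℝ} (ht : 0 < t) (h : 512 * A ^ 2 * t ≤ 1 / 2)
    (y : M) : MemLp ((sob m).lap (ph m p t y)) 1 m ∧ I ((sob m).lap (ph m p t y)) = 0 := by
  have hC := H751.env_gamma e
  have hB := H751.env_bei e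
  haveI := (H924.facts e.hyp).sf
  have hA0 := e.kb.pos
  have hn := one_le_n e
  have hs' : 0 < 512 * A ^ 2 * t := by positivity
  have hi : Integrable (fun z => p (512 * A ^ 2 * t) y z * (1 : M →ₘ[m] ℝ) z) m := by
    refine (e.ker.int _ hs' y).congr ?_
    filter_upwards [one_ae (M := M) (m := m)] with z hz
    rw [hz, mul_one]
  have h1 := (I_lap_ph_le hC e.ker e.kb (N := n) (by linarith) (H751.env_be e)
    (Γ := 512 * A ^ 2) (C₀ := 0) (x := y) (x' := y) ht le_rfl le_rfl h (by simp) hi).1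
  rw [mul_one] at h1
  exact ⟨h1, N2.H982.I_lap_zero hC.toIsDir
    (fun r hr => IsGamma.P_mass hC hB hr (ph_mem2 e.ker ht y) (ph_mem1 e.ker ht y))
    (ph_isLap hC.toIsDir e.ker ht y) (ph_mem1 e.ker ht y) h1⟩

/-- the class `b' - ½ |u - u(y)|²` -/
noncomputable def Hc (m : Measure M) {n : ℕ} (y : M) (t : ℝ) (u : Fin n → M →ₘ[m] ℝ)
    (uu : M → E n) : M →ₘ[m] ℝ := hh m y t u uu + hc n y t uu • (1 : M →ₘ[m] ℝ)

/-- first term -/
theorem T1_le (e : Env m n K o A p) (hu : Cfg m n K o p R Q η ρ u uu) {y : M}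
    (hy : dist y o ≤ 1) {t D : ℝ} (ht : 0 < t) (h : 512 * A ^ 2 * t ≤ 1 / 2)
    (hi : Integrable (fun z => p (512 * A ^ 2 * t) y z * Hd m n y t uu z ^ 2) m)
    (hD : pt m p (512 * A ^ 2 * t) (fun z => Hd m n y t uu z ^ 2) y ≤ D) :
    |I ((sob m).lap (ph m p t y) * Hc m y t u uu ^ 2)|
      ≤ cL n n K A (512 * A ^ 2) 0 * Real.exp (32 * A) / t * D := by
  have hC := H751.env_gamma e
  haveI := (H924.facts e.hyp).sf
  have hA := e.kb.one_le
  have hA0 := e.kb.pos
  have hn := one_le_n e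
  have hs' : 0 < 512 * A ^ 2 * t := by positivity
  have he : ∀ᵐ z ∂m, (Hc m y t u uu ^ 2 : M →ₘ[m] ℝ) z = Hd m n y t uu z ^ 2 := by
    filter_upwards [sq_ae (Hc m y t u uu), hh_ae hu y t] with z h1 h2
    rw [h1]
    unfold Hc
    rw [h2]
  have hi' : Integrable (fun z => p (512 * A ^ 2 * t) y z * (Hc m y t u uu ^ 2 : M →ₘ[m] ℝ) z) m := by
    refine hi.congr ?_
    filter_upwards [he] with z hz
    rw [hz]
  have h1 := (I_lap_ph_le hC e.ker e.kb (N := n) (by linarith) (H751.env_be e)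
    (Γ := 512 * A ^ 2) (C₀ := 0) (x := y) (x' := y) ht le_rfl le_rfl h (by simp) hi').2
  refine h1.trans ?_
  have e1 : pt m p (512 * A ^ 2 * t) (fun z => |(Hc m y t u uu ^ 2 : M →ₘ[m] ℝ) z|) y
      = pt m p (512 * A ^ 2 * t) (fun z => Hd m n y t uu z ^ 2) y := by
    refine pt_congr e.ker ?_ _ _
    filter_upwards [he] with z hz
    rw [hz, abs_of_nonneg (sq_nonneg _)]
  rw [e1]
  have h0 : 0 ≤ pt m p (512 * A ^ 2 * t) (fun z => Hd m n y t uu z ^ 2) y :=
    pt_nonneg e.ker hs' y (Eventually.of_forall fun z => sq_nonneg _)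
  have hcK := cK_pos (n := n) (C₀ := 0) hA (show (0 : ℝ) < 512 * A ^ 2 by positivity)
  have hcL : 0 ≤ cL n n K A (512 * A ^ 2) 0 := by
    unfold cL
    have := Real.exp_pos |K|
    positivity
  have h2 : Real.exp (32 * A * dist y o) ≤ Real.exp (32 * A) :=
    Real.exp_le_exp.2 (by nlinarith)
  calc cL n n K A (512 * A ^ 2) 0 / t * Real.exp (32 * A * dist y o)
        * pt m p (512 * A ^ 2 * t) (fun z => Hd m n y t uu z ^ 2) y
      ≤ cL n n K A (512 * A ^ 2) 0 / t * Real.exp (32 * A) * D := by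
        refine mul_le_mul (mul_le_mul_of_nonneg_left h2 (by positivity)) hD h0 (by positivity)
    _ = _ := by ring

/-- the measure `ν_t` against the kernel -/
theorem pt_nu (e : Env m n K o A p) (y : M) {s t : ℝ} (hs : 0 < s) (ht : 0 < t) :
    Integrable (fun z => p s y z
      * (H254.nu (sob m) n (|K| + 1) (1 / 2) (cl m (ww (1 / 2) y)) t) z) m ∧
    pt m p s (H254.nu (sob m) n (|K| + 1) (1 / 2) (cl m (ww (1 / 2) y)) t) y
      = nu m n K p y (s + t) y := by
  have hC := H751.env_gamma e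
  have hB := H751.env_bei e
  haveI := (H924.facts e.hyp).sf
  have hV := H254.vx_of e.hyp y
  have m2 := ph_mem2 e.ker hs y
  have m1 := ph_mem1 e.ker hs y
  constructor
  · have h1 := pt_int e.ker hs y (hC.memLp _ (hV.nuW_mem hC ht))
    have h2 := (pt_add_const e.ker hs h1 ((n : ℝ) + (|K| + 1) * (1 / 2))).1
    refine h2.congr ?_
    filter_upwards [hV.nu_ae (C := sob m) (t := t)] with z hz
    rw [hz]
    ring
  · rw [← I_ph_mul e.ker hs y, hV.I_nu hC hB ht m2 m1, P_ph hC.toIsDir e.ker ht.le hs y,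
      ← H254.nuF_eq]
    rfl

/-- pointwise bound of the source -/
theorem src_le (e : Env m n K o A p) (hu : Cfg m n K o p R Q η ρ u uu) (y : M) {t : ℝ}
    (ht : 0 < t) : ∀ᵐ z ∂m, |(Hc m y t u uu * (sob m).lap (hh m y t u uu) : M →ₘ[m] ℝ) z| ≤
      ((5 * n + (|K| + 1)) * |Hd m n y t uu z|
      + |Hd m n y t uu z| * (H254.nu (sob m) n (|K| + 1) (1 / 2) (cl m (ww (1 / 2) y)) t) z)
      + ∑ i, |Hd m n y t uu z| * |uu z i - uu y i| * |(sob m).lap (u i) z| := by
  have hC := H751.env_gamma e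
  have hB := H751.env_bei e
  haveI := (H924.facts e.hyp).sf
  have hV := H254.vx_of e.hyp y
  have hD := hC.toIsDir
  have h1 := hh_lap e hu y ht
  filter_upwards [mul_ae (Hc m y t u uu) ((sob m).lap (hh m y t u uu)), hh_ae hu y t,
    eq_iff_ae.1 h1, sub_ae ((sob m).lap (H71.bb m y t))
      (∑ i, ((u i - uu y i • 1) * (sob m).lap (u i) + (sob m).Γ (u i) (u i))),
    H924.sum_ae' Finset.univ
      (fun i => ((u i - uu y i • 1) * (sob m).lap (u i) + (sob m).Γ (u i) (u i))),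
    ae_all_iff.2 fun i => add_ae ((u i - uu y i • 1) * (sob m).lap (u i)) ((sob m).Γ (u i) (u i)),
    ae_all_iff.2 fun i => mul_ae (u i - uu y i • 1) ((sob m).lap (u i)),
    ae_all_iff.2 fun i => sub_ae (u i) (uu y i • (1 : M →ₘ[m] ℝ)),
    ae_all_iff.2 fun i => smul_ae (1 : M →ₘ[m] ℝ) (uu y i), one_ae (M := M) (m := m),
    ae_all_iff.2 hu.rep, ae_all_iff.2 hu.grad,
    ae_all_iff.2 fun i => hD.Γ_nonneg_ae (hC.test_A (hu.test i).1).1,
    hV.lap_ae (C := sob m) t, hV.P_bds hD ht.le, hV.nu_nonneg hC hB ht] with z a1 a2 a3 a4 a5 a6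
      a7 a8 a9 b1 b2 b3 b4 b5 b6 b7
  have hbb : (sob m).lap (H71.bb m y t) z = (sob m).lap ((sob m).P t (cl m (ww (1 / 2) y))) z := rfl
  have e1 : (sob m).lap (hh m y t u uu) z
      = (n + (|K| + 1) * ((sob m).P t (cl m (ww (1 / 2) y)) z + 1 / 2)
        - ∑ i, (sob m).Γ (u i) (u i) z)
        - (H254.nu (sob m) n (|K| + 1) (1 / 2) (cl m (ww (1 / 2) y)) t) z
        - ∑ i, (uu z i - uu y i) * (sob m).lap (u i) z := by
    rw [a3, a4, a5, hbb, b5]
    have : ∀ i, ((u i - uu y i • 1) * (sob m).lap (u i) + (sob m).Γ (u i) (u i) : M →ₘ[m] ℝ) z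
        = (uu z i - uu y i) * (sob m).lap (u i) z + (sob m).Γ (u i) (u i) z := by
      intro i
      rw [a6, a7, a8, a9, b1, b2, mul_one]
    simp_rw [this]
    rw [Finset.sum_add_distrib]
    ring
  rw [a1, abs_mul]
  unfold Hc
  rw [a2, e1]
  set ν := (H254.nu (sob m) n (|K| + 1) (1 / 2) (cl m (ww (1 / 2) y)) t) z with hν
  set β := (sob m).P t (cl m (ww (1 / 2) y)) z with hβ
  have hn : (0 : ℝ) ≤ n := Nat.cast_nonneg n
  have hK : 0 ≤ |K| + 1 := by positivity
  have s1 : 0 ≤ ∑ i, (sob m).Γ (u i) (u i) z := Finset.sum_nonneg fun i _ => b4 i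
  have s2 : ∑ i, (sob m).Γ (u i) (u i) z ≤ 4 * n := by
    calc ∑ i, (sob m).Γ (u i) (u i) z ≤ ∑ i : Fin n, (4 : ℝ) := Finset.sum_le_sum fun i _ => b3 i
      _ = 4 * n := by
        rw [Finset.sum_const, Finset.card_univ, Fintype.card_fin, nsmul_eq_mul]
        ring
  have s3 : |n + (|K| + 1) * (β + 1 / 2) - ∑ i, (sob m).Γ (u i) (u i) z|
      ≤ 5 * n + (|K| + 1) := by
    have c1 : 0 ≤ (|K| + 1) * (β + 1 / 2) := mul_nonneg hK (by linarith [b6.1])
    have c2 : (|K| + 1) * (β + 1 / 2) ≤ (|K| + 1) * 1 :=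
      mul_le_mul_of_nonneg_left (by linarith [b6.2]) hK
    rw [abs_le]
    constructor <;> linarith
  have s4 : |∑ i, (uu z i - uu y i) * (sob m).lap (u i) z|
      ≤ ∑ i, |uu z i - uu y i| * |(sob m).lap (u i) z| := by
    refine (Finset.abs_sum_le_sum_abs _ _).trans (le_of_eq ?_)
    exact Finset.sum_congr rfl fun i _ => abs_mul _ _
  have s5 : |n + (|K| + 1) * (β + 1 / 2) - ∑ i, (sob m).Γ (u i) (u i) z - ν
      - ∑ i, (uu z i - uu y i) * (sob m).lap (u i) z|
      ≤ (5 * n + (|K| + 1)) + ν + ∑ i, |uu z i - uu y i| * |(sob m).lap (u i) z| := by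
    refine (abs_sub _ _).trans (add_le_add ((abs_sub _ _).trans (add_le_add s3 ?_)) s4)
    rw [abs_of_nonneg b7]
  refine (mul_le_mul_of_nonneg_left s5 (abs_nonneg _)).trans (le_of_eq ?_)
  rw [mul_add, mul_add, Finset.mul_sum]
  congr 1
  · ring
  · refine Finset.sum_congr rfl fun i _ => ?_
    ring

end Vale.Agent.P242.H520
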