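import Vale.Agent.P242.H520.St5

/-! P242, package A-START (helper520), part 6: the Dirichlet energy of `b' - ½ |u - u(y)|²` is
small. -/

set_option linter.all false

open MeasureTheory Filter Topology Set Metric
open scoped ENNReal NNReal InnerProductSpace

universe u

namespace Vale.Agent.P242.H520

open Vale.Agent.P233 Vale.Agent.P233.RA Vale.Agent.P242.H71 Vale.Agent.P242.H990

variable {M : Type u} [MetricSpace M] [CompleteSpace M] [SecondCountableTopology M]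
  [MeasurableSpace M] [BorelSpace M] {m : Measure M} {n : ℕ} {K A : ℝ} {o : M}
  {p : ℝ → M → M → ℝ} {R Q η ρ : ℝ} {u : Fin n → M →ₘ[m] ℝ} {uu : M → E n}

theorem ui_le (e : Env m n K o A p) (hu : Cfg m n K o p R Q η ρ u uu) (y z : M) (i : Fin n) :
    (uu z i - uu y i) ^ 2 ≤ 4 * n * dist y z ^ 2 := by
  have h := uu_lip e hu z y
  rw [EuclideanSpace.real_norm_sq_eq, dist_comm] at h
  refine le_trans ?_ h
  have := Finset.single_le_sum (f := fun j => (uu z - uu y).ofLp j ^ 2)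
    (fun j _ => sq_nonneg _) (Finset.mem_univ i)
  exact this

theorem lap_int (e : Env m n K o A p) (hu : Cfg m n K o p R Q η ρ u uu) {t : ℝ} (ht : 0 < t)
    (y : M) (i : Fin n) : Integrable (fun z => p t y z * (sob m).lap (u i) z ^ 2) m ∧
    pt m p t (fun z => (sob m).lap (u i) z ^ 2) y = PP m p t y ((sob m).lap (u i) ^ 2) := by
  have hC := H751.env_gamma e
  have h2 := (hC.test_isLap (hu.test i).1).2.1
  have h1 : MemLp (ph m p t y * (sob m).lap (u i) ^ 2 : M →ₘ[m] ℝ) 1 m :=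
    mem_mul_top (ph_top hC e.ker e.kb ht y) (mem_sq h2)
  have h3 := (int_ph_mul e.ker ht y).1 h1
  constructor
  · refine h3.congr ?_
    filter_upwards [sq_ae ((sob m).lap (u i))] with z hz
    rw [hz]
  · unfold PP
    rw [I_ph_mul e.ker ht y]
    refine pt_congr e.ker ?_ _ _
    filter_upwards [sq_ae ((sob m).lap (u i))] with z hz
    rw [hz]

/-- third term -/
theorem T2c_le (e : Env m n K o A p) (hu : Cfg m n K o p R Q η ρ u uu) (hη : 0 ≤ η) {y : M}
    (hy : dist y o < R * ρ) {t : ℝ} (ht : 0 < t) (ht1 : 8 * A ^ 2 * t ≤ 1) (htρ : t ≤ ρ ^ 2)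
    (htQ : t ≤ Q * ρ ^ 2) (i : Fin n) :
    Integrable (fun z => p t y z
      * (|Hd m n y t uu z| * |uu z i - uu y i| * |(sob m).lap (u i) z|)) m ∧
    pt m p t (fun z => |Hd m n y t uu z| * |uu z i - uu y i| * |(sob m).lap (u i) z|) y
      ≤ 2 * n * cP n K * (cM n A 6 + 1) * (t * η) := by
  have hA := e.kb.one_le
  have hA0 := e.kb.pos
  have hn := one_le_n e
  have hρ := hu.ρ_pos
  have hy1 : dist y o ≤ 1 := hy.le.trans hu.Rρ
  have ht11 : t ≤ 1 := by
    have : t ≤ 8 * A ^ 2 * t := le_mul_of_one_le_left ht.le (by nlinarith)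
    linarith
  have hcP := cP_pos n K
  have hcM := cM_pos (n := n) hA 6
  have hm := Hd_meas hu y t
  have hui : Continuous fun z => uu z i := (EuclideanSpace.proj i).continuous.comp hu.cont
  have hFm : AEStronglyMeasurable (fun z => |Hd m n y t uu z| * |uu z i - uu y i|) m := by
    have h1 : AEStronglyMeasurable (fun z => |Hd m n y t uu z|) m := by simpa using hm.norm
    exact h1.mul (hui.sub continuous_const).abs.aestronglyMeasurable
  have hGm : AEStronglyMeasurable (fun z => |(sob m).lap (u i) z|) m := by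
    simpa using ((sob m).lap (u i)).aestronglyMeasurable.norm
  obtain ⟨a1, a2⟩ := pt_poly e.ker e.kb ht ht1 hy1 6 (F := fun z =>
      (|Hd m n y t uu z| * |uu z i - uu y i|) ^ 2) (hFm.pow 2)
    (a := 4 * n * cP n K ^ 2 * t ^ 3) (by
      filter_upwards [hd_pt e hu y ht ht11] with z hz
      rw [abs_of_nonneg (sq_nonneg _), mul_pow, sq_abs (uu z i - uu y i)]
      have h1 := ui_le e hu y z i
      have h2 := dist_sq_le_wt ht z (y := y)
      have h3 := pow_le_pow_left₀ (abs_nonneg _) hz 2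
      have h4 : (uu z i - uu y i) ^ 2 ≤ 4 * n * (t * wt y t z ^ 2) :=
        h1.trans (mul_le_mul_of_nonneg_left h2 (by positivity))
      calc |Hd m n y t uu z| ^ 2 * (uu z i - uu y i) ^ 2
          ≤ (cP n K * t * wt y t z ^ 2) ^ 2 * (4 * n * (t * wt y t z ^ 2)) :=
            mul_le_mul h3 h4 (sq_nonneg _) (sq_nonneg _)
        _ = _ := by ring)
  obtain ⟨b1, b2⟩ := lap_int e hu ht y i
  have b3 := hu.lap1 y (mem_ball.2 hy) t ht htQ i
  rw [← b2] at b3
  have hcs := pt_cs e.ker ht y hFm hGm a1 (by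
    refine b1.congr (Eventually.of_forall fun z => ?_)
    show _ = p t y z * |(sob m).lap (u i) z| ^ 2
    rw [sq_abs])
  refine ⟨hcs.1, ?_⟩
  have e1 : pt m p t (fun z => |(sob m).lap (u i) z| ^ 2) y
      = pt m p t (fun z => (sob m).lap (u i) z ^ 2) y := by
    congr 1
    funext z
    rw [sq_abs]
  have e2 : pt m p t (fun z => (|Hd m n y t uu z| * |uu z i - uu y i|) ^ 2) y
      ≤ 4 * n * cP n K ^ 2 * t ^ 3 * cM n A 6 := by
    refine le_trans (le_of_eq ?_) a2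
    congr 1
    funext z
    rw [abs_of_nonneg (sq_nonneg (|Hd m n y t uu z| * |uu z i - uu y i|))]
  have h0 : 0 ≤ pt m p t (fun z => (|Hd m n y t uu z| * |uu z i - uu y i|) ^ 2) y :=
    pt_nonneg e.ker ht y (Eventually.of_forall fun z => sq_nonneg _)
  have h5 := hcs.2
  rw [e1] at h5
  have hX : 0 ≤ 2 * n * cP n K * (cM n A 6 + 1) * (t * η) := by positivity
  have h6 : pt m p t (fun z => |Hd m n y t uu z| * |uu z i - uu y i| * |(sob m).lap (u i) z|) y ^ 2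
      ≤ (2 * n * cP n K * (cM n A 6 + 1) * (t * η)) ^ 2 := by
    refine h5.trans ?_
    have h7 : pt m p t (fun z => (|Hd m n y t uu z| * |uu z i - uu y i|) ^ 2) y
        * pt m p t (fun z => (sob m).lap (u i) z ^ 2) y
        ≤ (4 * n * cP n K ^ 2 * t ^ 3 * cM n A 6) * (η / ρ) ^ 2 := by
      refine mul_le_mul e2 b3 ?_ (by positivity)
      exact pt_nonneg e.ker ht y (Eventually.of_forall fun z => sq_nonneg _)
    refine h7.trans ?_
    have h8 : t * (η / ρ) ^ 2 ≤ η ^ 2 := by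
      rw [div_pow, ← mul_div_assoc, div_le_iff₀ (by positivity)]
      have := mul_le_mul_of_nonneg_right htρ (sq_nonneg η)
      linarith
    have h9 : (n : ℝ) * cM n A 6 ≤ n ^ 2 * (cM n A 6 + 1) ^ 2 := by
      have h10 : (n : ℝ) ≤ n ^ 2 := by nlinarith
      have h11 : cM n A 6 ≤ (cM n A 6 + 1) ^ 2 := by nlinarith
      exact mul_le_mul h10 h11 hcM.le (by positivity)
    calc 4 * n * cP n K ^ 2 * t ^ 3 * cM n A 6 * (η / ρ) ^ 2
        = 4 * cP n K ^ 2 * t ^ 2 * (n * cM n A 6) * (t * (η / ρ) ^ 2) := by ring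
      _ ≤ 4 * cP n K ^ 2 * t ^ 2 * (n ^ 2 * (cM n A 6 + 1) ^ 2) * η ^ 2 := by
          refine mul_le_mul (mul_le_mul_of_nonneg_left h9 (by positivity)) h8 (by positivity)
            (by positivity)
      _ = _ := by ring
  exact (pow_le_pow_iff_left₀ (pt_nonneg e.ker ht y (Eventually.of_forall fun z => by positivity))
    hX two_ne_zero).1 h6

/-- second term -/
theorem T2b_le (e : Env m n K o A p) (hu : Cfg m n K o p R Q η ρ u uu) {y : M}
    (hy : dist y o ≤ 1) {t D : ℝ} (ht : 0 < t) (ht1 : 8 * A ^ 2 * t ≤ 1)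
    (hD : nu m n K p y (4 * A ^ 2 * t + t) y ≤ D) :
    Integrable (fun z => p t y z * (|Hd m n y t uu z|
      * (H254.nu (sob m) n (|K| + 1) (1 / 2) (cl m (ww (1 / 2) y)) t) z)) m ∧
    pt m p t (fun z => |Hd m n y t uu z|
      * (H254.nu (sob m) n (|K| + 1) (1 / 2) (cl m (ww (1 / 2) y)) t) z) y
      ≤ cP n K * cM n A 2 * (t * D) := by
  have hC := H751.env_gamma e
  have hB := H751.env_bei e
  haveI := (H924.facts e.hyp).sf
  have hV := H254.vx_of e.hyp y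
  have hA := e.kb.one_le
  have hA0 := e.kb.pos
  have ht11 : t ≤ 1 := by
    have : t ≤ 8 * A ^ 2 * t := le_mul_of_one_le_left ht.le (by nlinarith)
    linarith
  have hcP := cP_pos n K
  have hcM := cM_pos (n := n) hA 2
  obtain ⟨a1, a2⟩ := pt_nu e y (s := 4 * A ^ 2 * t) (t := t) (by positivity) ht
  set ν := H254.nu (sob m) n (|K| + 1) (1 / 2) (cl m (ww (1 / 2) y)) t with hν
  have hνm : AEStronglyMeasurable (fun z => ν z) m := ν.aestronglyMeasurable
  have hν0 : ∀ᵐ z ∂m, 0 ≤ ν z := hV.nu_nonneg hC hB ht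
  obtain ⟨b1, b2⟩ := pt_wt e.ker e.kb ht ht1 hy 2 hνm a1
  obtain ⟨c1, c2⟩ := pt_cmul (cP n K * t) b1
  have hm := Hd_meas hu y t
  have hle : ∀ᵐ z ∂m, |(|Hd m n y t uu z| * ν z)| ≤ cP n K * t * (wt y t z ^ 2 * ν z) := by
    filter_upwards [hd_pt e hu y ht ht11, hν0] with z h1 h2
    rw [abs_of_nonneg (mul_nonneg (abs_nonneg _) h2)]
    calc |Hd m n y t uu z| * ν z ≤ (cP n K * t * wt y t z ^ 2) * ν z :=
          mul_le_mul_of_nonneg_right h1 h2
      _ = _ := by ring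
  have hFm : AEStronglyMeasurable (fun z => |Hd m n y t uu z| * ν z) m := by
    have h1 : AEStronglyMeasurable (fun z => |Hd m n y t uu z|) m := by simpa using hm.norm
    exact h1.mul hνm
  obtain ⟨-, d2, d3⟩ := pt_abs_int e.ker ht hFm c1 hle
  refine ⟨d2, ?_⟩
  have e1 : pt m p t (fun z => |(|Hd m n y t uu z| * ν z)|) y
      = pt m p t (fun z => |Hd m n y t uu z| * ν z) y := by
    refine pt_congr e.ker ?_ _ _
    filter_upwards [hν0] with z hz
    exact abs_of_nonneg (mul_nonneg (abs_nonneg _) hz)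
  rw [← e1]
  refine d3.trans ?_
  rw [c2]
  have e2 : pt m p t (fun z => wt y t z ^ 2 * ν z) y = pt m p t (fun z => wt y t z ^ 2 * |ν z|) y := by
    refine pt_congr e.ker ?_ _ _
    filter_upwards [hν0] with z hz
    rw [abs_of_nonneg hz]
  have e3 : pt m p (4 * A ^ 2 * t) (fun z => |ν z|) y = nu m n K p y (4 * A ^ 2 * t + t) y := by
    rw [← a2]
    refine pt_congr e.ker ?_ _ _
    filter_upwards [hν0] with z hz
    exact abs_of_nonneg hz
  rw [e2]
  rw [e3] at b2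
  calc cP n K * t * pt m p t (fun z => wt y t z ^ 2 * |ν z|) y
      ≤ cP n K * t * (cM n A 2 * D) := by
        refine mul_le_mul_of_nonneg_left (b2.trans ?_) (by positivity)
        exact mul_le_mul_of_nonneg_left hD hcM.le
    _ = _ := by ring

/-- the second term of the Dirichlet energy -/
theorem T2_le (e : Env m n K o A p) (hu : Cfg m n K o p R Q η ρ u uu) (hη : 0 ≤ η) {y : M}
    (hy : dist y o < R * ρ) {t X₁ X₂ : ℝ} (ht : 0 < t) (ht1 : 8 * A ^ 2 * t ≤ 1)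
    (htρ : t ≤ ρ ^ 2) (htQ : t ≤ Q * ρ ^ 2)
    (hi : Integrable (fun z => p t y z * Hd m n y t uu z) m)
    (h₁ : pt m p t (fun z => |Hd m n y t uu z|) y ≤ X₁)
    (h₂ : nu m n K p y (4 * A ^ 2 * t + t) y ≤ X₂) :
    |I (ph m p t y * (Hc m y t u uu * (sob m).lap (hh m y t u uu)))|
      ≤ (5 * n + (|K| + 1)) * X₁ + cP n K * cM n A 2 * (t * X₂)
        + n * (2 * n * cP n K * (cM n A 6 + 1)) * (t * η) := by
  have hn := one_le_n e
  have hy1 : dist y o ≤ 1 := hy.le.trans hu.Rρ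
  have hHm : AEStronglyMeasurable (fun z => (Hc m y t u uu * (sob m).lap (hh m y t u uu) :
    M →ₘ[m] ℝ) z) m := (Hc m y t u uu * (sob m).lap (hh m y t u uu)).aestronglyMeasurable
  obtain ⟨b1, b2⟩ := T2b_le e hu hy1 ht ht1 h₂
  have c1 := fun i => T2c_le e hu hη hy ht ht1 htρ htQ i
  obtain ⟨a1, a2⟩ := pt_cmul (5 * n + (|K| + 1)) (pt_int_abs e.ker ht hi)
  obtain ⟨d1, d2⟩ := pt_add a1 b1
  obtain ⟨f1, f2⟩ := pt_sum Finset.univ (F := fun i z => |Hd m n y t uu z| * |uu z i - uu y i|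
    * |(sob m).lap (u i) z|) (fun i _ => (c1 i).1)
  obtain ⟨g1, g2⟩ := pt_add d1 f1
  obtain ⟨-, -, l3⟩ := pt_abs_int e.ker ht hHm g1 (src_le e hu y ht)
  rw [g2, d2, a2, f2] at l3
  have l4 : ∑ i, pt m p t (fun z => |Hd m n y t uu z| * |uu z i - uu y i|
      * |(sob m).lap (u i) z|) y ≤ n * (2 * n * cP n K * (cM n A 6 + 1)) * (t * η) := by
    refine (Finset.sum_le_sum fun i _ => (c1 i).2).trans (le_of_eq ?_)
    rw [Finset.sum_const, Finset.card_univ, Fintype.card_fin, nsmul_eq_mul]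
    ring
  have l5 : (5 * n + (|K| + 1)) * pt m p t (fun z => |Hd m n y t uu z|) y
      ≤ (5 * n + (|K| + 1)) * X₁ := mul_le_mul_of_nonneg_left h₁ (by positivity)
  have l6 : |I (ph m p t y * (Hc m y t u uu * (sob m).lap (hh m y t u uu)))|
      ≤ pt m p t (fun z => |(Hc m y t u uu * (sob m).lap (hh m y t u uu) : M →ₘ[m] ℝ) z|) y := by
    rw [I_ph_mul e.ker ht y]
    exact abs_pt_le e.ker ht y _
  linarith

theorem dir_real {a b c cLE c5 cPM c6 C₁ C₂ C S S₁ S₂ t δ η : ℝ} (ht : 0 < t) (hcLE : 0 ≤ cLE)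
    (hc5 : 0 ≤ c5) (hcPM : 0 ≤ cPM) (hc6 : 0 ≤ c6) (hC₁ : 0 ≤ C₁) (hC₂ : 0 ≤ C₂)
    (h : 2 * a = b - 2 * c) (hb : |b| ≤ cLE / t * (C₂ * t ^ 2 * S₂))
    (hc : |c| ≤ c5 * (C₁ * t * S₁) + cPM * (t * (C₁ * δ)) + c6 * (t * η))
    (s0 : 0 ≤ S) (s1 : S₁ ≤ S) (s2 : S₂ ≤ S) (s3 : δ ≤ S) (s4 : η ≤ S)
    (hC : cLE * C₂ + c5 * C₁ + cPM * C₁ + c6 ≤ C) : a ≤ C * t * S := by
  have hb' : |b| ≤ cLE * C₂ * (t * S) := by
    refine hb.trans ?_
    have e1 : cLE / t * (C₂ * t ^ 2 * S₂) = cLE * C₂ * (t * S₂) := by field_simp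
    rw [e1]
    exact mul_le_mul_of_nonneg_left (mul_le_mul_of_nonneg_left s2 ht.le) (by positivity)
  have h1 : c5 * (C₁ * t * S₁) ≤ c5 * C₁ * (t * S) := by
    have e1 : c5 * (C₁ * t * S₁) = c5 * C₁ * (t * S₁) := by ring
    rw [e1]
    exact mul_le_mul_of_nonneg_left (mul_le_mul_of_nonneg_left s1 ht.le) (by positivity)
  have h2 : cPM * (t * (C₁ * δ)) ≤ cPM * C₁ * (t * S) := by
    have e1 : cPM * (t * (C₁ * δ)) = cPM * C₁ * (t * δ) := by ring
    rw [e1]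
    exact mul_le_mul_of_nonneg_left (mul_le_mul_of_nonneg_left s3 ht.le) (by positivity)
  have h3 : c6 * (t * η) ≤ c6 * (t * S) :=
    mul_le_mul_of_nonneg_left (mul_le_mul_of_nonneg_left s4 ht.le) hc6
  have h4 := le_abs_self b
  have h5 := neg_abs_le c
  have h6 : 0 ≤ cLE * C₂ * (t * S) := by positivity
  have h7 := mul_le_mul_of_nonneg_right hC (by positivity : 0 ≤ t * S)
  have h8 : (cLE * C₂ + c5 * C₁ + cPM * C₁ + c6) * (t * S)
      = cLE * C₂ * (t * S) + c5 * C₁ * (t * S) + cPM * C₁ * (t * S) + c6 * (t * S) := by ring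
  have h9 : C * t * S = C * (t * S) := by ring
  rw [h9]
  linarith

/-- **the Dirichlet energy is small** -/
theorem dir_small (e : Env m n K o A p) : ∃ C : ℝ, 1 ≤ C ∧
    ∀ (L R Q η δ ρ : ℝ) (u : Fin n → M →ₘ[m] ℝ) (uu : M → E n), C ≤ L → 1 ≤ R → 1 ≤ Q →
      0 ≤ η → η * L ≤ 1 → Cfg m n K o p R Q η ρ u uu → DropS m n K o p R Q δ ρ →
      ∀ y, dist y o < 3 / 4 * (R * ρ) → ∀ t, ρ ^ 2 / L ^ 2 ≤ t → t ≤ ρ ^ 2 / L →
        0 ≤ δ ∧ 8 * A ^ 2 * t ≤ 1 ∧
        PP m p t y ((sob m).Γ (hh m y t u uu) (hh m y t u uu)) ≤ C * t * sm C L η δ t := by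
  have hC := H751.env_gamma e
  have hD := hC.toIsDir
  have hA := e.kb.one_le
  have hA0 := e.kb.pos
  have hA2 : 1 ≤ A ^ 2 := one_le_pow₀ hA
  have hn := one_le_n e
  obtain ⟨C₁, hC₁, h₁⟩ := hd_L1 e (Γ := 4 * A ^ 2 + 1) (by linarith)
  obtain ⟨C₂, hC₂, h₂⟩ := hd_L2 e (Γ := 512 * A ^ 2) (by linarith)
  have hcP := cP_pos n K
  have hcM2 := cM_pos (n := n) hA 2
  have hcM6 := cM_pos (n := n) hA 6
  have hcK := cK_pos (n := n) (C₀ := 0) hA (show (0 : ℝ) < 512 * A ^ 2 by positivity)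
  have hcL : 0 ≤ cL n n K A (512 * A ^ 2) 0 := by
    unfold cL
    have := Real.exp_pos |K|
    positivity
  have hE := Real.exp_pos (32 * A)
  have p1 : 0 ≤ cL n n K A (512 * A ^ 2) 0 * Real.exp (32 * A) := by positivity
  have p2 : 0 ≤ 5 * (n : ℝ) + (|K| + 1) := by positivity
  have p3 : 0 ≤ cP n K * cM n A 2 := by positivity
  have p4 : 0 ≤ (n : ℝ) * (2 * n * cP n K * (cM n A 6 + 1)) := by positivity
  have p5 := mul_nonneg p1 (by linarith : 0 ≤ C₂)
  have p6 := mul_nonneg p2 (by linarith : 0 ≤ C₁)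
  have p7 := mul_nonneg p3 (by linarith : 0 ≤ C₁)
  obtain ⟨C, hCC⟩ : ∃ C, C = C₁ + C₂ + (cL n n K A (512 * A ^ 2) 0 * Real.exp (32 * A) * C₂
    + (5 * n + (|K| + 1)) * C₁ + cP n K * cM n A 2 * C₁
    + n * (2 * n * cP n K * (cM n A 6 + 1))) + 1024 * A ^ 2 := ⟨_, rfl⟩
  refine ⟨C, by linarith, ?_⟩
  intro L R Q η δ ρ u uu hCL hR hQ hη hηL hu hd y hy t ht1 ht2
  have hρ := hu.ρ_pos
  have hL1 : 1 ≤ L := by linarith
  have hL0 : 0 < L := by linarith
  have ht : 0 < t := lt_of_lt_of_le (by positivity) ht1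
  have hRρ0 : 0 < R * ρ := by positivity
  have hyR : dist y o < R * ρ := by linarith
  have hρ2 : ρ ^ 2 ≤ 1 / 2 := by
    have := hu.Qρ
    have h6 : ρ ^ 2 ≤ Q * ρ ^ 2 := le_mul_of_one_le_left (by positivity) hQ
    linarith
  have htL : L * t ≤ ρ ^ 2 := by
    rw [le_div_iff₀ hL0] at ht2
    linarith
  have htρ : t ≤ ρ ^ 2 := (le_mul_of_one_le_left ht.le hL1).trans htL
  have h512 : 512 * A ^ 2 * t ≤ 1 / 2 := by
    have : 1024 * A ^ 2 * t ≤ L * t := mul_le_mul_of_nonneg_right (by linarith) ht.le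
    linarith
  have hAt : t ≤ A ^ 2 * t := le_mul_of_one_le_left ht.le hA2
  obtain ⟨hδ, h8, -, i1, k1⟩ := h₁ L R Q η δ ρ u uu (by linarith) hR hQ hη hηL hu hd y hy t t
    ht1 ht2 le_rfl (by linarith)
  obtain ⟨-, -, kν, -, -⟩ := h₁ L R Q η δ ρ u uu (by linarith) hR hQ hη hηL hu hd y hy t
    (4 * A ^ 2 * t + t) ht1 ht2 (by linarith) (by linarith)
  obtain ⟨i2, k2⟩ := h₂ L R Q η δ ρ u uu (by linarith) hR hQ hη hηL hu hd y hy t
    (512 * A ^ 2 * t) ht1 ht2 (by linarith) (by linarith)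
  refine ⟨hδ, h8, ?_⟩
  obtain ⟨z1, z2⟩ := I_lap_ph_zero e ht h512 y
  have hhT := hh_test e hu y ht
  have key := dir_shift hD (ph_A hC e.ker e.kb ht y) (hC.test_A hhT)
    (ph_isLap hD e.ker ht y) (hC.test_isLap hhT) z1 z2 (hc n y t uu)
  have t1 := T1_le e hu (hyR.le.trans hu.Rρ) ht h512 i2 k2
  have t2 := T2_le e hu hη hyR ht h8 htρ
    (htρ.trans (le_mul_of_one_le_left (by positivity) hQ)) i1 k1 kν
  have s0 : 0 ≤ sm C L η δ t := sm_nonneg hδ ht.le hη hL0.le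
  have s1 : sm C₁ L η δ t ≤ sm C L η δ t := sm_mono (by linarith) (by linarith) hL0.le
  have s2 : sm C₂ L η δ t ≤ sm C L η δ t := sm_mono (by linarith) (by linarith) hL0.le
  have hηL0 := mul_nonneg hη hL0.le
  have hEx := Real.exp_pos (-(L / C))
  have s3 : δ ≤ sm C L η δ t := by unfold sm; linarith
  have s4 : η ≤ sm C L η δ t := by
    unfold sm
    have : η ≤ η * L := le_mul_of_one_le_right hη hL1
    linarith
  exact dir_real ht p1 p2 p3 p4 (by linarith) (by linarith) key t1 t2 s0 s1 s2 s3 s4 (by linarith)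

end Vale.Agent.P242.H520
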