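import Vale.Agent.P242.H520.St6

/-! P242, package A-START (helper520), part 7: the start of (E4) and of (R1). -/

set_option linter.all false

open MeasureTheory Filter Topology Set Metric
open scoped ENNReal NNReal InnerProductSpace

universe u

namespace Vale.Agent.P242.H520

open Vale.Agent.P233 Vale.Agent.P233.RA Vale.Agent.P242.H71 Vale.Agent.P242.H990

variable {M : Type u} [MetricSpace M] [CompleteSpace M] [SecondCountableTopology M]
  [MeasurableSpace M] [BorelSpace M] {m : Measure M} {n : ℕ} {K A : ℝ} {o : M}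
  {p : ℝ → M → M → ℝ} {R Q η ρ : ℝ} {u : Fin n → M →ₘ[m] ℝ} {uu : M → E n}

theorem uc_single (i : Fin n) : uc u (EuclideanSpace.single i (1 : ℝ)) = u i := by
  unfold uc
  rw [Finset.sum_eq_single i]
  · simp
  · intro j _ hj
    simp [hj]
  · intro h
    exact absurd (Finset.mem_univ i) h

theorem abs_coord_le (v : E n) (i : Fin n) : |v i| ≤ ‖v‖ := by
  have := EuclideanSpace.norm_eq v
  rw [← Real.norm_eq_abs]
  exact PiLp.norm_apply_le v i

/-- the Gram matrix is close to the identity in `L¹` at all times of the window -/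
theorem gram_L1 (e : Env m n K o A p) (hu : Cfg m n K o p R Q η ρ u uu) (hη : 0 ≤ η) (hQ : 1 ≤ Q)
    {y : M} (hy : dist y o < R * ρ) {t L : ℝ} (ht : 0 < t) (h1 : 4 * A ^ 2 * t ≤ ρ ^ 2)
    (h2 : ρ ^ 2 ≤ L * t) (v : E n) (i : Fin n) :
    (∀ᵐ z ∂m, |(sob m).Γ (u i) (uc u v) z - v i| ≤ 5 * n * ‖v‖) ∧
    Integrable (fun z => p t y z * |(sob m).Γ (u i) (uc u v) z - v i|) m ∧
    pt m p t (fun z => |(sob m).Γ (u i) (uc u v) z - v i|) y
      ≤ cG n A L 0 * Real.exp (2 * A) * (η * ‖v‖) := by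
  have hC := H751.env_gamma e
  have hD := hC.toIsDir
  have hn := one_le_n e
  have hρ := hu.ρ_pos
  have hA := e.kb.one_le
  have hA0 := e.kb.pos
  have hy1 : dist y o ≤ 1 := hy.le.trans hu.Rρ
  have hρ2 : 0 < ρ ^ 2 := by positivity
  have hρ3 : ρ ^ 2 ≤ 1 / 2 := by
    have := hu.Qρ
    have h6 : ρ ^ 2 ≤ Q * ρ ^ 2 := le_mul_of_one_le_left (by positivity) hQ
    linarith
  have hui := (hC.test_A (hu.test i).1).1
  have hb : ∀ᵐ z ∂m, |(sob m).Γ (u i) (uc u v) z - v i| ≤ 5 * n * ‖v‖ := by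
    filter_upwards [hD.Γ_abs_ae hui (H751.uc_W hC hu v), hu.grad i, H924.uc_grad e hu v,
      hD.Γ_nonneg_ae hui] with z a1 a2 a3 a4
    have b1 : √((sob m).Γ (u i) (u i) z) ≤ 2 := by
      rw [Real.sqrt_le_iff]
      exact ⟨by norm_num, by linarith⟩
    have b2 : √((sob m).Γ (uc u v) (uc u v) z) ≤ 2 * √n * ‖v‖ := by
      rw [Real.sqrt_le_iff]
      exact ⟨by positivity, a3⟩
    have b3 : √(n : ℝ) ≤ n := by
      rw [Real.sqrt_le_iff]
      exact ⟨by linarith, by nlinarith⟩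
    have b4 : |(sob m).Γ (u i) (uc u v) z| ≤ 4 * n * ‖v‖ := by
      refine a1.trans ?_
      calc √((sob m).Γ (u i) (u i) z) * √((sob m).Γ (uc u v) (uc u v) z)
          ≤ 2 * (2 * √n * ‖v‖) := mul_le_mul b1 b2 (Real.sqrt_nonneg _) (by norm_num)
        _ ≤ 2 * (2 * n * ‖v‖) := by gcongr
        _ = _ := by ring
    have b5 : |v i| ≤ n * ‖v‖ :=
      (abs_coord_le v i).trans (le_mul_of_one_le_left (norm_nonneg _) hn)
    refine (abs_sub _ _).trans ?_
    linarith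
  have hm : AEStronglyMeasurable (fun z => (sob m).Γ (u i) (uc u v) z - v i) m :=
    ((sob m).Γ (u i) (uc u v)).aestronglyMeasurable.sub aestronglyMeasurable_const
  have hint : ∀ s, 0 < s → Integrable (fun z => p s y z * ((sob m).Γ (u i) (uc u v) z - v i)) m := by
    intro s hs
    refine pt_int_top e.ker hs y (memLp_top_of_bound hm (5 * n * ‖v‖) ?_)
    filter_upwards [hb] with z hz
    rwa [Real.norm_eq_abs]
  refine ⟨hb, pt_int_abs e.ker ht (hint t ht), ?_⟩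
  have h3 := pt_harnack e.ker e.kb (Γ := L) (C₀ := 0) (x := y) (x' := y) ht h1 h2 hρ3
    (by simp) hm (hint _ hρ2)
  refine h3.trans ?_
  have h4 := hu.gram1 y (mem_ball.2 hy) (ρ ^ 2) (by
      rw [div_le_iff₀ (by linarith)]
      exact le_mul_of_one_le_right hρ2.le hQ) (le_mul_of_one_le_left hρ2.le hQ)
    (EuclideanSpace.single i (1 : ℝ)) v
  rw [uc_single] at h4
  have e1 : ⟪EuclideanSpace.single i (1 : ℝ), v⟫_ℝ = v i := by
    rw [EuclideanSpace.inner_single_left]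
    simp
  rw [e1] at h4
  have e2 : PP m p (ρ ^ 2) y |(sob m).Γ (u i) (uc u v) - v i • (1 : M →ₘ[m] ℝ)|
      = pt m p (ρ ^ 2) (fun z => |(sob m).Γ (u i) (uc u v) z - v i|) y := by
    unfold PP
    rw [I_ph_mul e.ker hρ2 y]
    refine pt_congr e.ker ?_ _ _
    filter_upwards [abs_ae' ((sob m).Γ (u i) (uc u v) - v i • (1 : M →ₘ[m] ℝ)),
      sub_ae ((sob m).Γ (u i) (uc u v)) (v i • (1 : M →ₘ[m] ℝ)), smul_ae (1 : M →ₘ[m] ℝ) (v i),
      one_ae (M := M) (m := m)] with z a1 a2 a3 a4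
    rw [a1, a2, a3, a4, mul_one]
  rw [e2] at h4
  have e3 : ‖(EuclideanSpace.single i (1 : ℝ) : E n)‖ = 1 := by simp
  rw [e3, mul_one] at h4
  have hL : 0 < L := by
    by_contra hc
    rw [not_lt] at hc
    have : L * t ≤ 0 := mul_nonpos_of_nonpos_of_nonneg hc ht.le
    linarith
  have g0 := cG_pos (n := n) (C₀ := 0) hA hL
  have e4 : Real.exp (2 * A * dist y o) ≤ Real.exp (2 * A) :=
    Real.exp_le_exp.2 (by nlinarith)
  have h0 : 0 ≤ pt m p (ρ ^ 2) (fun z => |(sob m).Γ (u i) (uc u v) z - v i|) y :=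
    pt_nonneg e.ker hρ2 y (Eventually.of_forall fun z => abs_nonneg _)
  exact mul_le_mul (mul_le_mul_of_nonneg_left e4 g0.le) h4 h0
    (mul_nonneg g0.le (Real.exp_pos _).le)

/-- the class in the start of (E4) -/
noncomputable def stE (m : Measure M) {n : ℕ} (y : M) (t : ℝ) (u : Fin n → M →ₘ[m] ℝ)
    (uu : M → E n) (v : E n) : M →ₘ[m] ℝ :=
  (sob m).Γ (H71.bb m y t) (uc u v) - uc u v + ⟪v, uu y⟫_ℝ • (1 : M →ₘ[m] ℝ)

/-- splitting of the error -/
theorem stE_le (e : Env m n K o A p) (hu : Cfg m n K o p R Q η ρ u uu) (y : M) {t : ℝ}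
    (ht : 0 < t) (v : E n) :
    ∀ᵐ z ∂m, |stE m y t u uu v| z ≤
      2 * √n * ‖v‖ * √((sob m).Γ (hh m y t u uu) (hh m y t u uu) z)
      + ∑ i, |uu z i - uu y i| * |(sob m).Γ (u i) (uc u v) z - v i| := by
  have hC := H751.env_gamma e
  have hD := hC.toIsDir
  have hvW := H751.uc_W hC hu v
  have h1 := hh_Γ e hu y ht hvW
  filter_upwards [abs_ae' (stE m y t u uu v),
    add_ae ((sob m).Γ (H71.bb m y t) (uc u v) - uc u v) (⟪v, uu y⟫_ℝ • (1 : M →ₘ[m] ℝ)),
    sub_ae ((sob m).Γ (H71.bb m y t) (uc u v)) (uc u v),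
    smul_ae (1 : M →ₘ[m] ℝ) ⟪v, uu y⟫_ℝ, one_ae (M := M) (m := m),
    eq_iff_ae.1 h1, sub_ae ((sob m).Γ (H71.bb m y t) (uc u v))
      (∑ i, (u i - uu y i • 1) * (sob m).Γ (u i) (uc u v)),
    H924.sum_ae' Finset.univ (fun i => (u i - uu y i • 1) * (sob m).Γ (u i) (uc u v)),
    ae_all_iff.2 fun i => mul_ae (u i - uu y i • 1) ((sob m).Γ (u i) (uc u v)),
    ae_all_iff.2 fun i => sub_ae (u i) (uu y i • (1 : M →ₘ[m] ℝ)),
    ae_all_iff.2 fun i => smul_ae (1 : M →ₘ[m] ℝ) (uu y i), ae_all_iff.2 hu.rep,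
    H751.uc_ae hu.rep v, hD.Γ_abs_ae (hC.test_A (hh_test e hu y ht)).1 hvW,
    H924.uc_grad e hu v] with z a1 a2 a3 a4 a5 a6 a7 a8 a9 b1 b2 b3 b4 b5 b6
  have e1 : stE m y t u uu v z = (sob m).Γ (hh m y t u uu) (uc u v) z
      + ∑ i, (uu z i - uu y i) * ((sob m).Γ (u i) (uc u v) z - v i) := by
    unfold stE
    rw [a2, a3, a4, a5, a6, a7, a8, b4]
    have : ∀ i, ((u i - uu y i • 1) * (sob m).Γ (u i) (uc u v) : M →ₘ[m] ℝ) z
        = (uu z i - uu y i) * (sob m).Γ (u i) (uc u v) z := by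
      intro i
      rw [a9, b1, b2, b3, a5, mul_one]
    simp_rw [this]
    have e2 : ∑ i, (uu z i - uu y i) * ((sob m).Γ (u i) (uc u v) z - v i)
        = ∑ i, (uu z i - uu y i) * (sob m).Γ (u i) (uc u v) z
          - (⟪v, uu z⟫_ℝ - ⟪v, uu y⟫_ℝ) := by
      rw [← inner_sub_right, PiLp.inner_apply, ← Finset.sum_sub_distrib]
      refine Finset.sum_congr rfl fun i _ => ?_
      have : ⟪v i, (uu z - uu y) i⟫_ℝ = (uu z i - uu y i) * v i := rfl
      rw [this]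
      ring
    rw [e2]
    ring
  rw [a1, e1]
  refine (abs_add_le _ _).trans (add_le_add ?_ ?_)
  · refine b5.trans ?_
    rw [mul_comm]
    refine mul_le_mul_of_nonneg_right ?_ (Real.sqrt_nonneg _)
    rw [Real.sqrt_le_iff]
    exact ⟨by positivity, b6⟩
  · refine (Finset.abs_sum_le_sum_abs _ _).trans (le_of_eq ?_)
    exact Finset.sum_congr rfl fun i _ => abs_mul _ _

/-- the second part of the error -/
theorem st2_le (e : Env m n K o A p) (hu : Cfg m n K o p R Q η ρ u uu) (hη : 0 ≤ η) (hQ : 1 ≤ Q)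
    {y : M} (hy : dist y o < R * ρ) {t L : ℝ} (ht : 0 < t) (ht1 : 8 * A ^ 2 * t ≤ 1)
    (h1 : 4 * A ^ 2 * t ≤ ρ ^ 2) (h2 : ρ ^ 2 ≤ L * t) (v : E n) (i : Fin n) :
    Integrable (fun z => p t y z
      * (|uu z i - uu y i| * |(sob m).Γ (u i) (uc u v) z - v i|)) m ∧
    pt m p t (fun z => |uu z i - uu y i| * |(sob m).Γ (u i) (uc u v) z - v i|) y
      ≤ √(20 * n ^ 2 * cM n A 2 * (cG n A L 0 * Real.exp (2 * A)) * η) * (√t * ‖v‖) := by
  have hC := H751.env_gamma e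
  have hn := one_le_n e
  have hA := e.kb.one_le
  have hcM := cM_pos (n := n) hA 2
  have hy1 : dist y o ≤ 1 := hy.le.trans hu.Rρ
  obtain ⟨a1, a2, a3⟩ := gram_L1 e hu hη hQ hy ht h1 h2 v i
  have hui : Continuous fun z => uu z i := (EuclideanSpace.proj i).continuous.comp hu.cont
  have hFm : AEStronglyMeasurable (fun z => |uu z i - uu y i|) m :=
    (hui.sub continuous_const).abs.aestronglyMeasurable
  have hGm : AEStronglyMeasurable (fun z => |(sob m).Γ (u i) (uc u v) z - v i|) m := by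
    have : AEStronglyMeasurable (fun z => (sob m).Γ (u i) (uc u v) z - v i) m :=
      ((sob m).Γ (u i) (uc u v)).aestronglyMeasurable.sub aestronglyMeasurable_const
    simpa using this.norm
  obtain ⟨b1, b2⟩ := pt_poly e.ker e.kb ht ht1 hy1 2 (F := fun z => |uu z i - uu y i| ^ 2)
    (hFm.pow 2) (a := 4 * n * t) (by
      refine Eventually.of_forall fun z => ?_
      show |(|uu z i - uu y i| ^ 2)| ≤ _
      rw [abs_of_nonneg (sq_nonneg |uu z i - uu y i|), sq_abs]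
      refine (ui_le e hu y z i).trans ?_
      have h3 := mul_le_mul_of_nonneg_left (dist_sq_le_wt ht z (y := y))
        (by positivity : (0 : ℝ) ≤ 4 * n)
      linarith)
  have b3 : pt m p t (fun z => |uu z i - uu y i| ^ 2) y ≤ 4 * n * t * cM n A 2 := by
    refine le_trans (le_of_eq ?_) b2
    congr 1
    funext z
    rw [abs_of_nonneg (sq_nonneg |uu z i - uu y i|)]
  obtain ⟨c1, c2⟩ := pt_cmul (5 * n * ‖v‖) a2
  have hle : ∀ᵐ z ∂m, |(|(sob m).Γ (u i) (uc u v) z - v i| ^ 2)|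
      ≤ 5 * n * ‖v‖ * |(sob m).Γ (u i) (uc u v) z - v i| := by
    filter_upwards [a1] with z hz
    rw [abs_of_nonneg (sq_nonneg |(sob m).Γ (u i) (uc u v) z - v i|), sq]
    exact mul_le_mul_of_nonneg_right hz (abs_nonneg _)
  obtain ⟨-, d1, d2⟩ := pt_abs_int e.ker ht (hGm.pow 2) c1 hle
  have d3 : pt m p t (fun z => |(sob m).Γ (u i) (uc u v) z - v i| ^ 2) y
      ≤ 5 * n * ‖v‖ * (cG n A L 0 * Real.exp (2 * A) * (η * ‖v‖)) := by
    have e1 : pt m p t (fun z => |(sob m).Γ (u i) (uc u v) z - v i| ^ 2) y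
        = pt m p t (fun z => |(|(sob m).Γ (u i) (uc u v) z - v i| ^ 2)|) y := by
      congr 1
      funext z
      rw [abs_of_nonneg (sq_nonneg |(sob m).Γ (u i) (uc u v) z - v i|)]
    rw [e1]
    refine d2.trans ?_
    rw [c2]
    exact mul_le_mul_of_nonneg_left a3 (by positivity)
  have hcs := pt_cs e.ker ht y hFm hGm b1 d1
  refine ⟨hcs.1, ?_⟩
  have hL : 0 < L := by
    by_contra hc
    rw [not_lt] at hc
    have h3 : L * t ≤ 0 := mul_nonpos_of_nonpos_of_nonneg hc ht.le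
    have h4 : 0 < ρ ^ 2 := by have := hu.ρ_pos; positivity
    linarith
  have g0 := cG_pos (n := n) (C₀ := 0) hA hL
  have gE := Real.exp_pos (2 * A)
  have h0 : 0 ≤ pt m p t (fun z => |(sob m).Γ (u i) (uc u v) z - v i| ^ 2) y :=
    pt_nonneg e.ker ht y (Eventually.of_forall fun z => sq_nonneg _)
  have h5 : pt m p t (fun z => |uu z i - uu y i| * |(sob m).Γ (u i) (uc u v) z - v i|) y ^ 2
      ≤ (20 * n ^ 2 * cM n A 2 * (cG n A L 0 * Real.exp (2 * A)) * η) * (√t * ‖v‖) ^ 2 := by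
    refine hcs.2.trans ?_
    refine (mul_le_mul b3 d3 h0 (by positivity)).trans (le_of_eq ?_)
    rw [mul_pow, Real.sq_sqrt ht.le]
    ring
  have h6 : √(20 * n ^ 2 * cM n A 2 * (cG n A L 0 * Real.exp (2 * A)) * η) * (√t * ‖v‖)
      = √((20 * n ^ 2 * cM n A 2 * (cG n A L 0 * Real.exp (2 * A)) * η) * (√t * ‖v‖) ^ 2) := by
    rw [Real.sqrt_mul' _ (sq_nonneg _), Real.sqrt_sq (by positivity)]
  rw [h6]
  exact Real.le_sqrt_of_sq_le h5

/-- the error, with constants -/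
theorem start_raw (e : Env m n K o A p) : ∃ C : ℝ, 1 ≤ C ∧
    ∀ (L R Q η δ ρ : ℝ) (u : Fin n → M →ₘ[m] ℝ) (uu : M → E n), C ≤ L → 1 ≤ R → 1 ≤ Q →
      0 ≤ η → η * L ≤ 1 → Cfg m n K o p R Q η ρ u uu → DropS m n K o p R Q δ ρ →
      ∀ y, dist y o < 3 / 4 * (R * ρ) → ∀ t, ρ ^ 2 / L ^ 2 ≤ t → t ≤ ρ ^ 2 / L → ∀ v : E n,
        PP m p t y |stE m y t u uu v| ≤ (2 * √n * √(C * sm C L η δ t)
          + n * √(20 * n ^ 2 * cM n A 2 * (cG n A (L ^ 2) 0 * Real.exp (2 * A)) * η))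
            * (√t * ‖v‖) := by
  have hC := H751.env_gamma e
  have hD := hC.toIsDir
  have hA := e.kb.one_le
  have hA0 := e.kb.pos
  have hA2 : 1 ≤ A ^ 2 := one_le_pow₀ hA
  have hn := one_le_n e
  obtain ⟨C₁, hC₁, h₁⟩ := dir_small e
  refine ⟨C₁ + 4 * A ^ 2, by linarith, ?_⟩
  intro L R Q η δ ρ u uu hCL hR hQ hη hηL hu hd y hy t ht1 ht2 v
  have hρ := hu.ρ_pos
  have hL0 : 0 < L := by linarith
  have ht : 0 < t := lt_of_lt_of_le (by positivity) ht1
  have hRρ0 : 0 < R * ρ := by positivity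
  have hyR : dist y o < R * ρ := by linarith
  have htL : L * t ≤ ρ ^ 2 := by
    rw [le_div_iff₀ hL0] at ht2
    linarith
  have hL4 : 4 * A ^ 2 * t ≤ ρ ^ 2 := le_trans (mul_le_mul_of_nonneg_right (by linarith) ht.le) htL
  have hL2 : ρ ^ 2 ≤ L ^ 2 * t := by
    rw [div_le_iff₀ (by positivity)] at ht1
    linarith
  obtain ⟨hδ, h8, k⟩ := h₁ L R Q η δ ρ u uu (by linarith) hR hQ hη hηL hu hd y hy t ht1 ht2
  have c1 := fun i => st2_le e hu hη hQ hyR ht h8 hL4 hL2 v i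
  have hhT := hh_test e hu y ht
  have hhW := (hC.test_A hhT).1
  -- the first part
  have m1 : MemLp ((sob m).Γ (hh m y t u uu) (hh m y t u uu)) 1 m := hC.mem1 _ hhW
  have m2 : MemLp (ph m p t y * (sob m).Γ (hh m y t u uu) (hh m y t u uu) : M →ₘ[m] ℝ) 1 m :=
    mem_mul_top (ph_top hC e.ker e.kb ht y) m1
  have m3 := (int_ph_mul e.ker ht y).1 m2
  have hSm : AEStronglyMeasurable (fun z => √((sob m).Γ (hh m y t u uu) (hh m y t u uu) z)) m :=
    Real.continuous_sqrt.comp_aestronglyMeasurable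
      ((sob m).Γ (hh m y t u uu) (hh m y t u uu)).aestronglyMeasurable
  have hS2 : (fun z => √((sob m).Γ (hh m y t u uu) (hh m y t u uu) z) ^ 2) =ᵐ[m]
      fun z => (sob m).Γ (hh m y t u uu) (hh m y t u uu) z := by
    filter_upwards [hD.Γ_nonneg_ae hhW] with z hz
    exact Real.sq_sqrt hz
  have m4 : Integrable (fun z => p t y z
      * √((sob m).Γ (hh m y t u uu) (hh m y t u uu) z) ^ 2) m := by
    refine m3.congr ?_
    filter_upwards [hS2] with z hz
    rw [hz]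
  have hcs := pt_cs e.ker ht y (F := fun _ => (1 : ℝ)) aestronglyMeasurable_const hSm
    (by simpa using e.ker.int t ht y) m4
  simp only [one_mul] at hcs
  have hJ := pt_jensen e.ker ht y hSm m4
  rw [pt_congr e.ker hS2] at hJ
  have hJ2 : pt m p t (fun z => √((sob m).Γ (hh m y t u uu) (hh m y t u uu) z)) y
      ≤ √(C₁ * t * sm C₁ L η δ t) := by
    refine Real.le_sqrt_of_sq_le (hJ.trans ?_)
    have : PP m p t y ((sob m).Γ (hh m y t u uu) (hh m y t u uu))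
        = pt m p t (fun z => (sob m).Γ (hh m y t u uu) (hh m y t u uu) z) y := by
      unfold PP
      rw [I_ph_mul e.ker ht y]
    rw [← this]
    exact k
  obtain ⟨a1, a2⟩ := pt_cmul (2 * √n * ‖v‖) hcs.1
  obtain ⟨f1, f2⟩ := pt_sum Finset.univ (F := fun i z => |uu z i - uu y i|
    * |(sob m).Γ (u i) (uc u v) z - v i|) (fun i _ => (c1 i).1)
  obtain ⟨g1, g2⟩ := pt_add a1 f1
  have hm : AEStronglyMeasurable (fun z => |stE m y t u uu v| z) m :=
    (|stE m y t u uu v|).aestronglyMeasurable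
  have hpos : ∀ᵐ z ∂m, 0 ≤ |stE m y t u uu v| z := by
    filter_upwards [abs_ae' (stE m y t u uu v)] with z hz
    rw [hz]; exact abs_nonneg _
  have hle : ∀ᵐ z ∂m, |(|stE m y t u uu v| z)| ≤
      2 * √n * ‖v‖ * √((sob m).Γ (hh m y t u uu) (hh m y t u uu) z)
      + ∑ i, |uu z i - uu y i| * |(sob m).Γ (u i) (uc u v) z - v i| := by
    filter_upwards [stE_le e hu y ht v, hpos] with z h3 h4
    rwa [abs_of_nonneg h4]
  obtain ⟨-, -, l3⟩ := pt_abs_int e.ker ht hm g1 hle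
  rw [g2, a2, f2] at l3
  have e1 : PP m p t y |stE m y t u uu v| = pt m p t (fun z => |(|stE m y t u uu v| z)|) y := by
    unfold PP
    rw [I_ph_mul e.ker ht y]
    refine pt_congr e.ker ?_ _ _
    filter_upwards [hpos] with z hz
    rw [abs_of_nonneg hz]
  rw [e1]
  refine l3.trans ?_
  have q1 : ∑ i, pt m p t (fun z => |uu z i - uu y i| * |(sob m).Γ (u i) (uc u v) z - v i|) y
      ≤ n * √(20 * n ^ 2 * cM n A 2 * (cG n A (L ^ 2) 0 * Real.exp (2 * A)) * η)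
        * (√t * ‖v‖) := by
    refine (Finset.sum_le_sum fun i _ => (c1 i).2).trans (le_of_eq ?_)
    rw [Finset.sum_const, Finset.card_univ, Fintype.card_fin, nsmul_eq_mul]
    ring
  have q2 : √(C₁ * t * sm C₁ L η δ t)
      ≤ √((C₁ + 4 * A ^ 2) * sm (C₁ + 4 * A ^ 2) L η δ t) * √t := by
    have s0 : 0 ≤ sm C₁ L η δ t := sm_nonneg hδ ht.le hη hL0.le
    have s1 : sm C₁ L η δ t ≤ sm (C₁ + 4 * A ^ 2) L η δ t :=
      sm_mono (by linarith) (by linarith) hL0.le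
    rw [← Real.sqrt_mul (mul_nonneg (by linarith) (s0.trans s1))]
    refine Real.sqrt_le_sqrt ?_
    have s2 : C₁ * sm C₁ L η δ t ≤ (C₁ + 4 * A ^ 2) * sm (C₁ + 4 * A ^ 2) L η δ t :=
      mul_le_mul (by linarith) s1 s0 (by linarith)
    have := mul_le_mul_of_nonneg_right s2 ht.le
    linarith
  have q3 : 2 * √n * ‖v‖ * pt m p t (fun z => √((sob m).Γ (hh m y t u uu) (hh m y t u uu) z)) y
      ≤ 2 * √n * ‖v‖ * (√((C₁ + 4 * A ^ 2) * sm (C₁ + 4 * A ^ 2) L η δ t) * √t) :=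
    mul_le_mul_of_nonneg_left (hJ2.trans q2) (by positivity)
  linarith [add_mul (2 * √n * √((C₁ + 4 * A ^ 2) * sm (C₁ + 4 * A ^ 2) L η δ t))
    (n * √(20 * n ^ 2 * cM n A 2 * (cG n A (L ^ 2) 0 * Real.exp (2 * A)) * η)) (√t * ‖v‖)]

end Vale.Agent.P242.H520
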