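import Vale.Agent.P242.H520.St7

/-! P242, package A-START (helper520), part 8: `Blk_Start` (start of (E4)) and `Blk_StartR`
(start of (R1)). -/

set_option linter.all false

open MeasureTheory Filter Topology Set Metric
open scoped ENNReal NNReal InnerProductSpace

universe u

namespace Vale.Agent.P242.H520

open Vale.Agent.P233 Vale.Agent.P233.RA Vale.Agent.P242.H71 Vale.Agent.P242.H990

/-- **A-START**: the start of (E4) on the window `[ρ²/M², ρ²/M]`. -/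
def Blk_Start : Prop := ForM.{u} fun M _ _ _ => ∀ (m : Measure M) (n : ℕ) (K : ℝ) (o : M) (A : ℝ)
  (p : ℝ → M → M → ℝ), Env m n K o A p →
  ∃ Q₀, 1 ≤ Q₀ ∧ ∀ Q, Q₀ ≤ Q → ∃ R₀, 1 ≤ R₀ ∧ ∀ R, R₀ ≤ R → ∀ ε, 0 < ε → ∃ M₀, 1 ≤ M₀ ∧
    ∀ M', M₀ ≤ M' → ∃ η₁, 0 < η₁ ∧ ∀ η δ ρ, 0 < η → η ≤ η₁ → δ ≤ η₁ → ρ ≤ η₁ →
      ∀ (u : Fin n → M →ₘ[m] ℝ) (uu : M → E n),
      Cfg m n K o p R Q η ρ u uu → DropS m n K o p R Q δ ρ →
        ∀ y ∈ ball o (R / 2 * ρ), ∀ t, ρ ^ 2 / M' ^ 2 ≤ t → t ≤ ρ ^ 2 / M' → ∀ v : E n,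
          PP m p t y |(sob m).Γ (H71.bb m y t) (uc u v) - uc u v
            + ⟪v, uu y⟫_ℝ • (1 : M →ₘ[m] ℝ)| ≤ ε * (t / ρ ^ 2) * √t * ‖v‖

/-- the start of (R1) on the window `[ρ²/M², ρ²/M]`. -/
def Blk_StartR : Prop := ForM.{u} fun M _ _ _ => ∀ (m : Measure M) (n : ℕ) (K : ℝ) (o : M) (A : ℝ)
  (p : ℝ → M → M → ℝ), Env m n K o A p →
  ∃ Q₀, 1 ≤ Q₀ ∧ ∀ Q, Q₀ ≤ Q → ∃ R₀, 1 ≤ R₀ ∧ ∀ R, R₀ ≤ R → ∀ C₀, 0 ≤ C₀ → ∀ ε, 0 < ε →
    ∃ M₀, 1 ≤ M₀ ∧ ∀ M', M₀ ≤ M' → ∃ η₁, 0 < η₁ ∧ ∀ η δ ρ, 0 < η → η ≤ η₁ → δ ≤ η₁ → ρ ≤ η₁ →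
      ∀ (u : Fin n → M →ₘ[m] ℝ) (uu : M → E n),
      Cfg m n K o p R Q η ρ u uu → DropS m n K o p R Q δ ρ →
        ∀ x ∈ ball o (R / 2 * ρ), ∀ t, ρ ^ 2 / M' ^ 2 ≤ t → t ≤ ρ ^ 2 / M' →
          ∀ q, dist x q ≤ C₀ * √t →
          PP m p t x |H71.bb m q t - H71.bb m x t
            - ((‖uu q‖ ^ 2 - ‖uu x‖ ^ 2) / 2) • (1 : M →ₘ[m] ℝ) - uc u (uu x - uu q)|
              ≤ ε * (t / ρ ^ 2) * t

/-- choice of the window and of the smallness -/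
theorem sm_choose {C κ : ℝ} (hC : 1 ≤ C) (hκ : 0 < κ) : ∃ M₀ : ℝ, 1 ≤ M₀ ∧ ∀ L, M₀ ≤ L →
    ∃ η₁ : ℝ, 0 < η₁ ∧ η₁ ≤ 1 ∧ ∀ η δ t : ℝ, 0 ≤ η → η ≤ η₁ → δ ≤ η₁ → t ≤ η₁ →
      sm C L η δ t ≤ κ / L ^ 4 ∧ η * L ≤ 1 := by
  have hlim := Real.tendsto_pow_mul_exp_neg_atTop_nhds_zero 4
  have hC0 : 0 < C := by linarith
  have h1 := hlim.eventually (gt_mem_nhds (show (0 : ℝ) < κ / (4 * C ^ 4) by positivity))
  obtain ⟨X₀, hX⟩ := eventually_atTop.1 h1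
  refine ⟨max 1 (C * X₀), le_max_left _ _, ?_⟩
  intro L hL
  have hL1 : 1 ≤ L := (le_max_left _ _).trans hL
  have hL0 : 0 < L := by linarith
  have hLX : X₀ ≤ L / C := by
    rw [le_div_iff₀ hC0]
    have := (le_max_right 1 (C * X₀)).trans hL
    linarith
  have hx := hX _ hLX
  have hexp : Real.exp (-(L / C)) ≤ κ / (4 * L ^ 4) := by
    rw [le_div_iff₀ (by positivity)]
    rw [div_pow, lt_div_iff₀ (by positivity)] at hx
    have e1 : L ^ 4 / C ^ 4 * Real.exp (-(L / C)) * (4 * C ^ 4)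
        = Real.exp (-(L / C)) * (4 * L ^ 4) := by field_simp
    rw [e1] at hx
    exact hx.le
  have hp : 0 < κ / (4 * L ^ 5) := by positivity
  refine ⟨min 1 (min (1 / L) (κ / (4 * L ^ 5))), lt_min one_pos (lt_min (by positivity) hp),
    min_le_left _ _, ?_⟩
  intro η δ t h0 h1 h2 h3
  have b1 : min 1 (min (1 / L) (κ / (4 * L ^ 5))) ≤ 1 / L :=
    (min_le_right _ _).trans (min_le_left _ _)
  have b2 : min 1 (min (1 / L) (κ / (4 * L ^ 5))) ≤ κ / (4 * L ^ 5) :=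
    (min_le_right _ _).trans (min_le_right _ _)
  have b3 : κ / (4 * L ^ 5) * L = κ / (4 * L ^ 4) := by field_simp
  have b4 : κ / (4 * L ^ 5) ≤ κ / (4 * L ^ 4) := by
    rw [← b3]
    exact le_mul_of_one_le_right hp.le hL1
  have b5 : κ / L ^ 4 = 4 * (κ / (4 * L ^ 4)) := by field_simp
  constructor
  · unfold sm
    have c1 : η * L ≤ κ / (4 * L ^ 4) := by
      rw [← b3]
      exact mul_le_mul_of_nonneg_right (h1.trans b2) hL0.le
    rw [b5]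
    linarith
  · have := mul_le_mul_of_nonneg_right (h1.trans b1) hL0.le
    rwa [one_div, inv_mul_cancel₀ hL0.ne'] at this

theorem sqrt_le_of {a b : ℝ} (hb : 0 ≤ b) (h : a ≤ b ^ 2) : √a ≤ b := by
  rw [Real.sqrt_le_iff]
  exact ⟨hb, h⟩

theorem mul_sqrt_eq {a b : ℝ} (ha : 0 ≤ a) : a * √b = √(a ^ 2 * b) := by
  rw [Real.sqrt_mul (by positivity), Real.sqrt_sq ha]

theorem blk_Start : Blk_Start.{u} := by
  intro M _ _ _ _ _ m n K o A p e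
  have hA := e.kb.one_le
  have hn := one_le_n e
  have hcM := cM_pos (n := n) hA 2
  obtain ⟨C, hC, h⟩ := start_raw e
  refine ⟨1, le_rfl, fun Q hQ => ⟨1, le_rfl, fun R hR => ?_⟩⟩
  intro ε hε
  have hκ : 0 < ε ^ 2 / (16 * n * C) := by positivity
  obtain ⟨M₁, hM₁, hch⟩ := sm_choose hC hκ
  refine ⟨max C M₁, hC.trans (le_max_left _ _), ?_⟩
  intro L hL
  have hCL : C ≤ L := (le_max_left _ _).trans hL
  have hL1 : 1 ≤ L := hC.trans hCL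
  have hL0 : 0 < L := by linarith
  obtain ⟨η₁, hη₁, hη₁1, hsm⟩ := hch L ((le_max_right _ _).trans hL)
  have g0 := cG_pos (n := n) (C₀ := 0) hA (show 0 < L ^ 2 by positivity)
  have gE := Real.exp_pos (2 * A)
  obtain ⟨X, hX⟩ : ∃ X, X = 20 * n ^ 2 * cM n A 2 * (cG n A (L ^ 2) 0 * Real.exp (2 * A)) := ⟨_, rfl⟩
  have hX0 : 0 < X := by rw [hX]; positivity
  have hη₂ : 0 < ε ^ 2 / (4 * L ^ 4 * n ^ 2 * X) := by positivity
  refine ⟨min η₁ (ε ^ 2 / (4 * L ^ 4 * n ^ 2 * X)), lt_min hη₁ hη₂, ?_⟩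
  intro η δ ρ hη h1 h2 h3 u uu hu hd y hy t ht1 ht2 v
  have hρ := hu.ρ_pos
  have ht : 0 < t := lt_of_lt_of_le (by positivity) ht1
  have hρη : ρ ≤ η₁ := h3.trans (min_le_left _ _)
  have hρ1 : ρ ≤ 1 := hρη.trans hη₁1
  have htη : t ≤ η₁ := by
    have a1 : ρ ^ 2 / L ≤ ρ ^ 2 := div_le_self (by positivity) hL1
    have a2 : ρ ^ 2 ≤ ρ := by nlinarith
    linarith
  obtain ⟨s1, s2⟩ := hsm η δ t hη.le (h1.trans (min_le_left _ _)) (h2.trans (min_le_left _ _)) htη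
  have hRρ0 : 0 < R * ρ := by positivity
  have hyR : dist y o < 3 / 4 * (R * ρ) := by
    have := mem_ball.1 hy
    linarith
  have key := h L R Q η δ ρ u uu hCL hR hQ hη.le s2 hu hd y hyR t ht1 ht2 v
  have hC0 : 0 < C := by linarith
  have hn0 : (0 : ℝ) < n := by linarith
  -- the two square roots
  have r1 : 2 * √n * √(C * sm C L η δ t) ≤ ε / (2 * L ^ 2) := by
    have e1 : 2 * √(n : ℝ) * √(C * sm C L η δ t) = √(4 * n * (C * sm C L η δ t)) := by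
      rw [mul_sqrt_eq (by positivity), mul_pow, Real.sq_sqrt hn0.le]
      norm_num
    rw [e1]
    refine sqrt_le_of (by positivity) ?_
    calc 4 * n * (C * sm C L η δ t) ≤ 4 * n * (C * (ε ^ 2 / (16 * n * C) / L ^ 4)) := by gcongr
      _ = (ε / (2 * L ^ 2)) ^ 2 := by
        field_simp
        ring
  have r2 : n * √(X * η) ≤ ε / (2 * L ^ 2) := by
    have e1 : (n : ℝ) * √(X * η) = √(n ^ 2 * (X * η)) := mul_sqrt_eq hn0.le
    rw [e1]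
    refine sqrt_le_of (by positivity) ?_
    calc (n : ℝ) ^ 2 * (X * η) ≤ n ^ 2 * (X * (ε ^ 2 / (4 * L ^ 4 * n ^ 2 * X))) := by
          gcongr
          exact h1.trans (min_le_right _ _)
      _ = (ε / (2 * L ^ 2)) ^ 2 := by
        field_simp
        ring
  rw [← hX] at key
  have hv : 0 ≤ √t * ‖v‖ := by positivity
  have k2 : PP m p t y |stE m y t u uu v| ≤ (ε / L ^ 2) * (√t * ‖v‖) := by
    refine key.trans (mul_le_mul_of_nonneg_right ?_ hv)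
    have : ε / (2 * L ^ 2) + ε / (2 * L ^ 2) = ε / L ^ 2 := by field_simp; ring
    linarith
  have k3 : ε / L ^ 2 ≤ ε * (t / ρ ^ 2) := by
    have a1 : 1 / L ^ 2 ≤ t / ρ ^ 2 := by
      rw [div_le_div_iff₀ (by positivity) (by positivity)]
      rw [div_le_iff₀ (by positivity)] at ht1
      linarith
    calc ε / L ^ 2 = ε * (1 / L ^ 2) := by ring
      _ ≤ _ := mul_le_mul_of_nonneg_left a1 hε.le
  calc PP m p t y |(sob m).Γ (H71.bb m y t) (uc u v) - uc u v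
        + ⟪v, uu y⟫_ℝ • (1 : M →ₘ[m] ℝ)| = PP m p t y |stE m y t u uu v| := rfl
    _ ≤ (ε / L ^ 2) * (√t * ‖v‖) := k2
    _ ≤ ε * (t / ρ ^ 2) * (√t * ‖v‖) := mul_le_mul_of_nonneg_right k3 hv
    _ = _ := by ring

theorem blk_StartR : Blk_StartR.{u} := by
  intro M _ _ _ _ _ m n K o A p e
  have hA := e.kb.one_le
  have hA0 := e.kb.pos
  have hA2 : 1 ≤ A ^ 2 := one_le_pow₀ hA
  have hn := one_le_n e
  obtain ⟨C, hC, h⟩ := hd_L1 e (Γ := 4 * A ^ 2) (by linarith)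
  refine ⟨1, le_rfl, fun Q hQ => ⟨1, le_rfl, fun R hR => ?_⟩⟩
  intro C₀ hC₀ ε hε
  have hC0 : 0 < C := by linarith
  obtain ⟨B, hB⟩ : ∃ B, B = cG n A (4 * A ^ 2) C₀ * Real.exp (2 * A) := ⟨_, rfl⟩
  have hB0 : 0 < B := by
    rw [hB]
    exact mul_pos (cG_pos hA (by positivity)) (Real.exp_pos _)
  have hκ : 0 < ε / ((B + 1) * C) := by positivity
  obtain ⟨M₁, hM₁, hch⟩ := sm_choose hC hκ
  refine ⟨max (C + 16 * C₀ ^ 2) M₁, le_trans (by nlinarith) (le_max_left _ _), ?_⟩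
  intro L hL
  have hCL' : C + 16 * C₀ ^ 2 ≤ L := (le_max_left _ _).trans hL
  have hCL : C ≤ L := by nlinarith
  have hL1 : 1 ≤ L := hC.trans hCL
  have hL0 : 0 < L := by linarith
  obtain ⟨η₁, hη₁, hη₁1, hsm⟩ := hch L ((le_max_right _ _).trans hL)
  refine ⟨η₁, hη₁, ?_⟩
  intro η δ ρ hη h1 h2 h3 u uu hu hd x hx t ht1 ht2 q hq
  have hρ := hu.ρ_pos
  have ht : 0 < t := lt_of_lt_of_le (by positivity) ht1
  have hρ1 : ρ ≤ 1 := h3.trans hη₁1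
  have htη : t ≤ η₁ := by
    have a1 : ρ ^ 2 / L ≤ ρ ^ 2 := div_le_self (by positivity) hL1
    have a2 : ρ ^ 2 ≤ ρ := by nlinarith
    linarith
  obtain ⟨s1, s2⟩ := hsm η δ t hη.le h1 h2 htη
  have hRρ0 : 0 < R * ρ := by positivity
  have hxo := mem_ball.1 hx
  have hxR : dist x o < 3 / 4 * (R * ρ) := by linarith
  have htL : L * t ≤ ρ ^ 2 := by
    rw [le_div_iff₀ hL0] at ht2
    linarith
  have hqR : dist q o < 3 / 4 * (R * ρ) := by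
    have a1 : C₀ * √t ≤ ρ / 4 := by
      have a2 : (C₀ * √t) ^ 2 ≤ (ρ / 4) ^ 2 := by
        rw [mul_pow, Real.sq_sqrt ht.le]
        have : 16 * C₀ ^ 2 * t ≤ L * t := mul_le_mul_of_nonneg_right (by linarith) ht.le
        nlinarith
      exact (pow_le_pow_iff_left₀ (by positivity) (by positivity) two_ne_zero).1 a2
    have a3 := dist_triangle_left q o x
    have a4 : ρ ≤ R * ρ := le_mul_of_one_le_left hρ.le hR
    linarith
  have hAt : t ≤ 4 * A ^ 2 * t := le_mul_of_one_le_left ht.le (by linarith)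
  obtain ⟨hδ, -, -, i1, k1⟩ := h L R Q η δ ρ u uu hCL hR hQ hη.le s2 hu hd x hxR t t ht1 ht2
    le_rfl (by linarith)
  obtain ⟨-, h8, -, i2, k2⟩ := h L R Q η δ ρ u uu hCL hR hQ hη.le s2 hu hd q hqR t
    (4 * A ^ 2 * t) ht1 ht2 hAt le_rfl
  have h812 : 4 * A ^ 2 * t ≤ 1 / 2 := by
    have : 4 * A ^ 2 * t ≤ A ^ 2 * (4 * A ^ 2 * t) :=
      le_mul_of_one_le_left (by positivity) hA2
    linarith
  have hmq := Hd_meas hu q t
  have hmx := Hd_meas hu x t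
  have hh1 := pt_harnack e.ker e.kb (Γ := 4 * A ^ 2) (C₀ := C₀) (x := x) (x' := q) ht le_rfl
    le_rfl h812 hq hmq i2
  have i3 := pt_int_early e.ker e.kb (C₀ := C₀) (x := x) (x' := q) ht le_rfl h812 hq hmq i2
  have hxo1 : dist x o ≤ 1 := by
    have := hu.Rρ
    linarith
  have hh2 : pt m p t (fun z => |Hd m n q t uu z|) x ≤ B * (C * t * sm C L η δ t) := by
    refine hh1.trans ?_
    rw [hB]
    have e4 : Real.exp (2 * A * dist x o) ≤ Real.exp (2 * A) :=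
      Real.exp_le_exp.2 (by nlinarith)
    have g0 := cG_pos (n := n) (C₀ := C₀) hA (show (0 : ℝ) < 4 * A ^ 2 by positivity)
    exact mul_le_mul (mul_le_mul_of_nonneg_left e4 g0.le) k2
      (pt_nonneg e.ker (by positivity) q (Eventually.of_forall fun z => abs_nonneg _))
      (mul_nonneg g0.le (Real.exp_pos _).le)
  obtain ⟨F, hF⟩ : ∃ F, F = H71.bb m q t - H71.bb m x t
      - ((‖uu q‖ ^ 2 - ‖uu x‖ ^ 2) / 2) • (1 : M →ₘ[m] ℝ) - uc u (uu x - uu q) := ⟨_, rfl⟩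
  have hFz : ∀ᵐ z ∂m, |F| z = |Hd m n q t uu z - Hd m n x t uu z| := by
    rw [hF]
    filter_upwards [abs_ae' (H71.bb m q t - H71.bb m x t
      - ((‖uu q‖ ^ 2 - ‖uu x‖ ^ 2) / 2) • (1 : M →ₘ[m] ℝ) - uc u (uu x - uu q)),
      sub_ae (H71.bb m q t - H71.bb m x t
      - ((‖uu q‖ ^ 2 - ‖uu x‖ ^ 2) / 2) • (1 : M →ₘ[m] ℝ)) (uc u (uu x - uu q)),
      sub_ae (H71.bb m q t - H71.bb m x t) (((‖uu q‖ ^ 2 - ‖uu x‖ ^ 2) / 2) • (1 : M →ₘ[m] ℝ)),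
      sub_ae (H71.bb m q t) (H71.bb m x t),
      smul_ae (1 : M →ₘ[m] ℝ) ((‖uu q‖ ^ 2 - ‖uu x‖ ^ 2) / 2), one_ae (M := M) (m := m),
      H751.uc_ae hu.rep (uu x - uu q)] with z a1 a2 a3 a4 a5 a6 a7
    rw [a1, a2, a3, a4, a5, a6, a7]
    congr 1
    unfold Hd
    rw [norm_sub_sq_real, norm_sub_sq_real, inner_sub_left, real_inner_comm (uu z) (uu x),
      real_inner_comm (uu z) (uu q)]
    ring
  obtain ⟨b1, b2⟩ := pt_add (pt_int_abs e.ker ht i3) (pt_int_abs e.ker ht i1)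
  have hle : ∀ᵐ z ∂m, |(|F| z)| ≤ |Hd m n q t uu z| + |Hd m n x t uu z| := by
    filter_upwards [hFz] with z hz
    rw [hz, abs_abs]
    exact abs_sub _ _
  obtain ⟨-, -, l3⟩ := pt_abs_int e.ker ht (|F|).aestronglyMeasurable b1 hle
  rw [b2] at l3
  have e1 : PP m p t x |F| = pt m p t (fun z => |(|F| z)|) x := by
    unfold PP
    rw [I_ph_mul e.ker ht x]
    refine pt_congr e.ker ?_ _ _
    filter_upwards [hFz] with z hz
    rw [hz, abs_abs]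
  rw [← hF, e1]
  have hs0 : 0 ≤ sm C L η δ t := sm_nonneg hδ ht.le hη.le hL0.le
  have k3 : pt m p t (fun z => |(|F| z)|) x ≤ (B + 1) * C * (t * sm C L η δ t) := by
    refine l3.trans ?_
    have : (B + 1) * C * (t * sm C L η δ t)
        = B * (C * t * sm C L η δ t) + C * t * sm C L η δ t := by ring
    rw [this]
    exact add_le_add hh2 k1
  refine k3.trans ?_
  have k4 : (B + 1) * C * (t * sm C L η δ t)
      ≤ (B + 1) * C * (t * (ε / ((B + 1) * C) / L ^ 4)) := by gcongr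
  refine k4.trans ?_
  have e2 : (B + 1) * C * (t * (ε / ((B + 1) * C) / L ^ 4)) = ε * (1 / L ^ 4) * t := by
    field_simp
  rw [e2]
  have a1 : 1 / L ^ 4 ≤ t / ρ ^ 2 := by
    rw [div_le_div_iff₀ (by positivity) (by positivity)]
    rw [div_le_iff₀ (by positivity)] at ht1
    have a2 : t * L ^ 2 ≤ t * L ^ 4 :=
      mul_le_mul_of_nonneg_left (pow_le_pow_right₀ hL1 (by norm_num)) ht.le
    linarith
  exact mul_le_mul_of_nonneg_right (mul_le_mul_of_nonneg_left a1 hε.le) ht.le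

end Vale.Agent.P242.H520
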